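import Vale.Agent.P180.R2.H259.Cyc.Prim
import Vale.Agent.P180.R2.H365.Gen

set_option linter.all false

/-!
P180: two small lemmas (primitive decompositions, conjugation) with few imports.
-/

namespace Vale.Agent.P180.R2.H954.Hc

end Vale.Agent.P180.R2.H954.Hc

namespace Vale.Agent.P180.R2.H259.Exp.Alg0

open Vale.Agent.P180 Vale.Agent.P180.H768.Gd Vale.Agent.P180.R2.H799
open Vale.Agent.P180.R2.H259.Cyc (PrimIn)

section Dec

variable {k A : Type*} [Field k] [Ring A] [Algebra k A] [FiniteDimensional k A]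

/-- An idempotent of a subalgebra is a sum of primitive idempotents. -/
theorem exists_prim_decomp (S : Subalgebra k A) (n : ℕ) : ∀ e : A, e ∈ S → e * e = e →
    Module.finrank k (LinearMap.range (LinearMap.mulLeft k e)) ≤ n →
    ∃ (m : ℕ) (f : Fin m → A), (∀ l, PrimIn S (f l) ∧ e * f l = f l ∧ f l * e = f l) ∧
      e = ∑ l, f l := by
  induction n with
  | zero =>
    intro e _ _ hn
    have h1 : LinearMap.range (LinearMap.mulLeft k e) = ⊥ :=
      Submodule.finrank_eq_zero.mp (Nat.le_zero.mp hn)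
    have h2 : e ∈ LinearMap.range (LinearMap.mulLeft k e) := ⟨1, by simp⟩
    rw [h1, Submodule.mem_bot] at h2
    exact ⟨0, Fin.elim0, fun l => l.elim0, by simp [h2]⟩
  | succ n ih =>
    intro e heS hee hn
    by_cases he0 : e = 0
    · exact ⟨0, Fin.elim0, fun l => l.elim0, by simp [he0]⟩
    by_cases hprim : ∀ c ∈ S, c * c = c → c * e = c → e * c = c → c = 0 ∨ c = e
    · exact ⟨1, fun _ => e, fun _ => ⟨⟨heS, hee, he0, hprim⟩, hee, hee⟩, by simp⟩
    push Not at hprim
    obtain ⟨c, hcS, hcc, hce, hec, hc0, hcne⟩ := hprim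
    have key : ∀ d : A, d ∈ S → d * d = d → d * e = d → e * d = d → d ≠ e →
        ∃ (m : ℕ) (f : Fin m → A), (∀ l, PrimIn S (f l) ∧ e * f l = f l ∧ f l * e = f l) ∧
          d = ∑ l, f l := by
      intro d hdS hdd hde hed hdne
      have hlt : Module.finrank k (LinearMap.range (LinearMap.mulLeft k d)) <
          Module.finrank k (LinearMap.range (LinearMap.mulLeft k e)) := by
        apply Submodule.finrank_lt_finrank_of_lt
        refine lt_of_le_of_ne ?_ ?_
        · rintro _ ⟨x, rfl⟩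
          refine ⟨d * x, ?_⟩
          rw [LinearMap.mulLeft_apply, LinearMap.mulLeft_apply, ← mul_assoc, hed]
        · intro h
          have h2 : e ∈ LinearMap.range (LinearMap.mulLeft k e) := ⟨1, by simp⟩
          rw [← h] at h2
          obtain ⟨x, hx⟩ := h2
          rw [LinearMap.mulLeft_apply] at hx
          apply hdne
          rw [← hde, ← hx, ← mul_assoc, hdd]
      obtain ⟨m, f, hf, hd⟩ := ih d hdS hdd (by omega)
      refine ⟨m, f, fun l => ⟨(hf l).1, ?_, ?_⟩, hd⟩
      · rw [← (hf l).2.1, ← mul_assoc, hed]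
      · conv_lhs => rw [← (hf l).2.2]
        rw [mul_assoc, hde, (hf l).2.2]
    obtain ⟨m₁, f₁, hf₁, hd₁⟩ := key c hcS hcc hce hec hcne
    obtain ⟨m₂, f₂, hf₂, hd₂⟩ := key (e - c) (Subalgebra.sub_mem _ heS hcS)
      (by rw [sub_mul, mul_sub, mul_sub, hee, hec, hce, hcc]; abel)
      (by rw [sub_mul, hee, hce]) (by rw [mul_sub, hee, hec])
      (by
        intro h
        exact hc0 (sub_eq_self.mp h))
    refine ⟨m₁ + m₂, Fin.append f₁ f₂, ?_, ?_⟩
    · intro l
      refine Fin.addCases (fun i => ?_) (fun i => ?_) l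
      · rw [Fin.append_left]; exact hf₁ i
      · rw [Fin.append_right]; exact hf₂ i
    · rw [Fin.sum_univ_add]
      simp only [Fin.append_left, Fin.append_right]
      rw [← hd₁, ← hd₂]
      abel

end Dec

theorem cj_mem_of_norm {k : Type*} [Field k] {G : Type} [Group G] [Finite G] {X : Subgroup G} {t : G}
    (ht : ∀ x ∈ X, t * x * t⁻¹ ∈ X)
    {a : MonoidAlgebra k G} (ha : a ∈ SubAlg k X) : cj k G t a ∈ SubAlg k X :=
  SuppIn.conj ha t ht

end Vale.Agent.P180.R2.H259.Exp.Alg0
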