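import Vale.Agent.P180.R2.H954.Hc3b
import Mathlib.RingTheory.RootsOfUnity.PrimitiveRoots
import Mathlib.RingTheory.Polynomial.Cyclotomic.Basic

/-!
P180: the decomposition of a vector space over a finite field under a commutative group; the
elements of order `p`.
-/

set_option linter.all false

namespace Vale.Agent.P180.R2.H259.Exp

open Module Vale.Agent.P180.R2.H854 Vale.Agent.P180.R2.H954 Vale.Agent.P180.R2.H954.Hc

section Alg

variable {K : Type} [Field K] [Finite K] {Q : Type} [CommGroup Q] [Finite Q]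

/-- the primitive idempotents of the group algebra -/
theorem alg_dec (hQ : (Nat.card K).Coprime (Nat.card Q)) :
    ∃ (M : Type) (_ : Fintype M) (_ : DecidableEq M) (ε : M → MonoidAlgebra K Q),
      (∀ I, ε I * ε I = ε I) ∧ (∀ I J, I ≠ J → ε I * ε J = 0) ∧ ∑ I, ε I = 1 ∧
      ∀ I, ∃ (F : Type) (_ : Field F) (_ : Finite F) (π : MonoidAlgebra K Q →+* F),
        Function.Surjective π ∧ ∀ x, x * ε I = 0 ↔ π x = 0 := by
  classical
  have hred : IsReduced (MonoidAlgebra K Q) := isReduced hQ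
  have hfin : Finite (MonoidAlgebra K Q) := by
    have h1 : Module.Finite K (MonoidAlgebra K Q) :=
      Module.Finite.equiv (MonoidAlgebra.coeffLinearEquiv K (M := Q) (S := K)).symm
    exact Module.finite_of_finite K
  have hart : IsArtinianRing (MonoidAlgebra K Q) := inferInstance
  have hMfin : Finite (MaximalSpectrum (MonoidAlgebra K Q)) := inferInstance
  let ψ := IsArtinianRing.equivPi (MonoidAlgebra K Q)
  let ε : MaximalSpectrum (MonoidAlgebra K Q) → MonoidAlgebra K Q := fun I => ψ.symm (Pi.single I 1)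
  have := Fintype.ofFinite (MaximalSpectrum (MonoidAlgebra K Q))
  refine ⟨MaximalSpectrum (MonoidAlgebra K Q), inferInstance, inferInstance, ε, ?_, ?_, ?_, ?_⟩
  · intro I
    change ψ.symm _ * ψ.symm _ = ψ.symm _
    rw [← map_mul, ← Pi.single_mul, one_mul]
  · intro I J hIJ
    change ψ.symm _ * ψ.symm _ = 0
    rw [← map_mul]
    have : (Pi.single I 1 : ∀ I : MaximalSpectrum (MonoidAlgebra K Q), MonoidAlgebra K Q ⧸ I.asIdeal) *
        Pi.single J 1 = 0 := by
      funext L
      rw [Pi.mul_apply, Pi.zero_apply]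
      by_cases hL : L = I
      · subst hL
        rw [Pi.single_eq_of_ne hIJ, mul_zero]
      · rw [Pi.single_eq_of_ne hL, zero_mul]
    rw [this, map_zero]
  · change ∑ I, ψ.symm (Pi.single I 1) = 1
    rw [← map_sum]
    have : ∑ I : MaximalSpectrum (MonoidAlgebra K Q), (Pi.single I 1 :
        ∀ I : MaximalSpectrum (MonoidAlgebra K Q), MonoidAlgebra K Q ⧸ I.asIdeal) = 1 := by
      exact Finset.univ_sum_single (1 : ∀ I : MaximalSpectrum (MonoidAlgebra K Q),
        MonoidAlgebra K Q ⧸ I.asIdeal)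
    rw [this, map_one]
  · intro I
    have hfield : IsField (MonoidAlgebra K Q ⧸ I.asIdeal) :=
      (Ideal.Quotient.maximal_ideal_iff_isField_quotient _).mp I.isMaximal
    have hFf : Finite (MonoidAlgebra K Q ⧸ I.asIdeal) :=
      Finite.of_surjective _ Ideal.Quotient.mk_surjective
    refine ⟨MonoidAlgebra K Q ⧸ I.asIdeal, hfield.toField, hFf, Ideal.Quotient.mk I.asIdeal,
      Ideal.Quotient.mk_surjective, fun x => ?_⟩
    rw [Ideal.Quotient.eq_zero_iff_mem]
    have h1 : x * ε I = 0 ↔ ψ (x * ε I) = 0 := by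
      rw [map_eq_zero_iff ψ ψ.injective]
    rw [h1, map_mul]
    have h2 : ψ (ε I) = Pi.single I 1 := ψ.apply_symm_apply _
    rw [h2]
    constructor
    · intro h
      have h3 := congrFun h I
      rw [Pi.mul_apply, Pi.single_eq_same, mul_one, Pi.zero_apply] at h3
      exact Ideal.Quotient.eq_zero_iff_mem.mp h3
    · intro h
      funext L
      rw [Pi.mul_apply, Pi.zero_apply]
      by_cases hL : L = I
      · subst hL
        rw [Pi.single_eq_same, mul_one]
        exact Ideal.Quotient.eq_zero_iff_mem.mpr h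
      · rw [Pi.single_eq_of_ne hL, mul_zero]

/-- an element of order `p` is a scalar in each field over `K` -/
theorem exists_scalar {p : ℕ} (hp : p.Prime) (hp1 : p ∣ Nat.card K - 1) {F : Type} [Field F]
    (π : MonoidAlgebra K Q →+* F) {x : Q} (hx : x ^ p = 1) :
    ∃ ζ : K, π (MonoidAlgebra.single x 1 - ζ • 1) = 0 := by
  classical
  have _ := Fintype.ofFinite K
  have _ : Fact p.Prime := ⟨hp⟩
  have hdvd : p ∣ Fintype.card Kˣ := by
    rw [Fintype.card_units, ← Nat.card_eq_fintype_card]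
    exact hp1
  obtain ⟨z, hz⟩ := exists_prime_orderOf_dvd_card p hdvd
  have hζ : IsPrimitiveRoot (z : K) p := by
    rw [IsPrimitiveRoot.coe_units_iff, ← hz]
    exact IsPrimitiveRoot.orderOf z
  have h1 := Polynomial.X_pow_sub_one_eq_prod (R := K) hp.pos hζ
  set y : MonoidAlgebra K Q := MonoidAlgebra.single x 1 with hy
  have hyp : y ^ p = 1 := by
    rw [hy, MonoidAlgebra.single_pow, one_pow, hx]
    rfl
  have h2 := congrArg (fun f => π (Polynomial.aeval y f)) h1
  simp only [map_sub, map_pow, Polynomial.aeval_X, map_one, hyp, sub_self, map_prod,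
    Polynomial.aeval_C] at h2
  obtain ⟨ζ, -, h4⟩ := Finset.prod_eq_zero_iff.mp (h2.symm.trans (map_zero π))
  refine ⟨ζ, ?_⟩
  rw [map_sub, ← Algebra.algebraMap_eq_smul_one]
  exact h4

omit [Finite K] in
theorem card_idem_le {T : Type} [Fintype T] [DecidableEq T] (ε : T → MonoidAlgebra K Q)
    (h1 : ∀ I, ε I * ε I = ε I) (h2 : ∀ I J, I ≠ J → ε I * ε J = 0) (h3 : ∀ I, ε I ≠ 0) :
    Fintype.card T ≤ Nat.card Q := by
  have hli : LinearIndependent K ε := by
    rw [Fintype.linearIndependent_iff]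
    intro c hc I
    have h4 := congrArg (fun y => ε I * y) hc
    simp only [mul_zero, Finset.mul_sum, mul_smul_comm] at h4
    rw [Finset.sum_eq_single I] at h4
    · rw [h1] at h4
      exact (smul_eq_zero.mp h4).resolve_right (h3 I)
    · intro J _ hJ
      rw [h2 I J hJ.symm, smul_zero]
    · intro h; exact absurd (Finset.mem_univ I) h
  have hfinm : Module.Finite K (MonoidAlgebra K Q) :=
    Module.Finite.equiv (MonoidAlgebra.coeffLinearEquiv K (M := Q) (S := K)).symm
  have h4 := hli.fintype_card_le_finrank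
  have h5 : finrank K (MonoidAlgebra K Q) = Nat.card Q := by
    have _ := Fintype.ofFinite Q
    rw [(MonoidAlgebra.coeffLinearEquiv K (M := Q) (S := K)).finrank_eq,
      Module.finrank_finsupp_self, Nat.card_eq_fintype_card]
  exact h4.trans h5.le

/-- the idempotents, with the elements of order `p` -/
theorem alg_dec' {p : ℕ} (hp : p.Prime) (hp1 : p ∣ Nat.card K - 1)
    (hQ : (Nat.card K).Coprime (Nat.card Q)) :
    ∃ (M : Type) (_ : Fintype M) (_ : DecidableEq M) (ε : M → MonoidAlgebra K Q),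
      (∀ I, ε I * ε I = ε I) ∧ (∀ I J, I ≠ J → ε I * ε J = 0) ∧ ∑ I, ε I = 1 ∧
      (∀ I, ∃ (F : Type) (_ : Field F) (_ : Finite F) (π : MonoidAlgebra K Q →+* F),
        Function.Surjective π ∧ ∀ x, x * ε I = 0 ↔ π x = 0) ∧
      ∀ I (x : Q), x ^ p = 1 → ∃ ζ : K, MonoidAlgebra.single x 1 * ε I = ζ • ε I := by
  obtain ⟨M, h1, h2, ε, h3, h4, h5, h6⟩ := alg_dec (K := K) (Q := Q) hQ
  refine ⟨M, h1, h2, ε, h3, h4, h5, h6, fun I x hx => ?_⟩
  obtain ⟨F, _, _, π, hπs, hπ⟩ := h6 I
  obtain ⟨ζ, h7⟩ := exists_scalar hp hp1 π hx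
  refine ⟨ζ, ?_⟩
  rwa [← hπ, sub_mul, sub_eq_zero, smul_mul_assoc, one_mul] at h7

omit [Finite K] [Finite Q] in
theorem cyc_part {A : Type} [Ring A] [Algebra K A] (Φ : MonoidAlgebra K Q →ₐ[K] A)
    {ε : MonoidAlgebra K Q} (hne : Φ ε ≠ 0) {F : Type} [Field F] (π : MonoidAlgebra K Q →+* F)
    (hπs : Function.Surjective π) (hπ : ∀ x, x * ε = 0 ↔ π x = 0) :
    ∃ χ : Q →* Fˣ, ∀ q, χ q = 1 ↔ Φ (MonoidAlgebra.single q 1) * Φ ε = Φ ε := by
  refine ⟨(Units.map π.toMonoidHom).comp (MonoidAlgebra.of K Q).toHomUnits, fun q => ?_⟩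
  have h1 : (Units.map π.toMonoidHom).comp (MonoidAlgebra.of K Q).toHomUnits q = 1 ↔
      π (MonoidAlgebra.single q (1 : K) - 1) = 0 := by
    rw [map_sub, sub_eq_zero, map_one, Units.ext_iff]
    rfl
  have h2 : Φ ((MonoidAlgebra.single q (1 : K) - 1) * ε) = 0 ↔
      Φ (MonoidAlgebra.single q 1) * Φ ε = Φ ε := by
    rw [map_mul, map_sub, map_one, sub_mul, one_mul, sub_eq_zero]
  refine Iff.trans h1 (Iff.trans ?_ h2)
  rw [← hπ]
  refine ⟨fun h => by rw [h, map_zero], fun h => ?_⟩
  by_contra hne'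
  rw [hπ] at hne'
  obtain ⟨y, hy⟩ := hπs (π (MonoidAlgebra.single q (1 : K) - 1))⁻¹
  have h3 : π ((MonoidAlgebra.single q (1 : K) - 1) * y - 1) = 0 := by
    rw [map_sub, map_mul, hy, mul_inv_cancel₀ hne', map_one, sub_self]
  rw [← hπ, sub_mul, one_mul, sub_eq_zero] at h3
  apply hne
  rw [← h3, mul_assoc, mul_comm y, ← mul_assoc, map_mul, h, zero_mul]

omit [Finite K] [Finite Q] in
theorem comm_part {A : Type} [Ring A] [Algebra K A] (Φ : MonoidAlgebra K Q →ₐ[K] A) {a : A}
    (ha : ∀ q, a * Φ (MonoidAlgebra.single q 1) = Φ (MonoidAlgebra.single q 1) * a)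
    (x : MonoidAlgebra K Q) : a * Φ x = Φ x * a := by
  induction x using MonoidAlgebra.induction_linear with
  | zero => simp
  | add x y hx hy => rw [map_add, mul_add, add_mul, hx, hy]
  | single q c =>
    have h2 : MonoidAlgebra.single q c = c • MonoidAlgebra.single q (1 : K) := by
      rw [MonoidAlgebra.smul_single, smul_eq_mul, mul_one]
    rw [h2, map_smul, mul_smul_comm, smul_mul_assoc, ha q]

end Alg

variable {K E : Type} [Field K] [AddCommGroup E] [Module K E]

/-- **Decomposition of the natural module under a commutative subgroup.** The number of summands is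
at most the order of the group, and the elements of order `p` act as scalars on the summands if the
field contains the `p`-th roots of unity. -/
theorem exists_decP [Finite K] {p : ℕ} (hp : p.Prime) (hp1 : p ∣ Nat.card K - 1)
    (Q : Subgroup (SpecialLinearGroup K E)) [Finite Q]
    (hQ : (Nat.card K).Coprime (Nat.card Q)) (hab : ∀ x ∈ Q, ∀ y ∈ Q, x * y = y * x) :
    ∃ D : Dec Q, D.r ≤ Nat.card Q ∧ ∀ x ∈ Q, x ^ p = 1 → ∀ i, ∃ ζ : K,
      toEnd x * D.e i = ζ • D.e i := by
  classical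
  have hpow : ∀ (x : SpecialLinearGroup K E) (hx : x ∈ Q), x ^ p = 1 → (⟨x, hx⟩ : Q) ^ p = 1 := by
    intro x hx h
    apply Subtype.ext
    rw [SubmonoidClass.mk_pow, OneMemClass.coe_one]
    exact h
  letI : CommGroup Q := { (inferInstance : Group Q) with
    mul_comm := fun x y => Subtype.ext (hab x x.2 y y.2) }
  obtain ⟨M, _, _, ε, hεI, hεIJ, hεs, hfld, hord⟩ := alg_dec' (K := K) (Q := Q) hp hp1 hQ
  -- the action
  let ρ : Q →* End K E :=
    { toFun := fun q => toEnd (q : SpecialLinearGroup K E)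
      map_one' := rfl
      map_mul' := fun _ _ => rfl }
  let Φ : MonoidAlgebra K Q →ₐ[K] End K E := MonoidAlgebra.lift K (End K E) Q ρ
  have hΦ : ∀ q : Q, Φ (MonoidAlgebra.single q 1) = toEnd (q : SpecialLinearGroup K E) := by
    intro q
    change MonoidAlgebra.lift K (End K E) Q ρ (MonoidAlgebra.single q 1) = _
    rw [MonoidAlgebra.lift_single, one_smul]
    rfl
  -- reindex
  let T := {I : M // Φ (ε I) ≠ 0}
  let eqv := Fintype.equivFin T
  refine ⟨⟨Fintype.card T, fun i => Φ (ε (eqv.symm i).1), ?_, ?_, ?_, ?_, ?_, ?_⟩, ?_, ?_⟩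
  · intro i
    rw [← map_mul, hεI]
  · intro i j hij
    rw [← map_mul, hεIJ, map_zero]
    intro h
    exact hij (eqv.symm.injective (Subtype.ext h))
  · rw [Equiv.sum_comp eqv.symm (fun I : T => Φ (ε I.1))]
    have h1 : ∑ I : T, Φ (ε I.1) = ∑ I, Φ (ε I) := by
      refine Eq.trans ?_ (Finset.sum_filter_ne_zero (s := Finset.univ) (f := fun I => Φ (ε I)))
      exact (Finset.sum_subtype (Finset.univ.filter fun I => Φ (ε I) ≠ 0)
        (fun x => by rw [Finset.mem_filter]; exact ⟨fun h => h.2, fun h => ⟨Finset.mem_univ _, h⟩⟩)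
        (fun I => Φ (ε I))).symm
    rw [h1, ← map_sum, hεs, map_one]
  · intro i
    exact (eqv.symm i).2
  · intro a ha i
    exact comm_part Φ (fun q => by rw [hΦ]; exact ha q q.2) _
  · intro i
    obtain ⟨F, _, _, π, hπs, hπ⟩ := hfld (eqv.symm i).1
    obtain ⟨χ, hχ⟩ := cyc_part Φ (eqv.symm i).2 π hπs hπ
    refine ⟨F, inferInstance, inferInstance, χ, fun q => ?_⟩
    rw [hχ, hΦ]
  · exact card_idem_le (fun I : T => ε I.1) (fun I => hεI I.1)
      (fun I J h => hεIJ _ _ fun h' => h (Subtype.ext h')) fun I h => I.2 (by rw [h, map_zero])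
  · intro x hx hxp i
    obtain ⟨ζ, h4⟩ := hord (eqv.symm i).1 ⟨x, hx⟩ (hpow x hx hxp)
    refine ⟨ζ, ?_⟩
    have h5 := congrArg Φ h4
    rw [map_mul, hΦ, map_smul] at h5
    exact h5

end Vale.Agent.P180.R2.H259.Exp
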