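import Vale.Agent.P180.R2.H259.Exp.Pt

set_option linter.all false

/-!
P180: descent to the kernel of a linear character; the first steps.
-/

namespace Vale.Agent.P180.R2.H259.Exp

open Vale.Agent.P180 Vale.Agent.P180.H768.Gd Vale.Agent.P180.R2.H799
  Vale.Agent.P180.R2.H954 Vale.Agent.P180.R2.H954.Hc
open Vale.Agent.P180.R2.H259.Cyc (PrimIn)
open Vale.Agent.P180.R2.H259.Exp.Alg0 (exists_prim_decomp)
open Vale.Agent.P180.R2.H365 (br_self br_pow)

universe u

section Abs

variable {k A : Type*} [Field k] [Ring A] [Algebra k A]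

/-- From the relation between primitive idempotents to a pair of mutually inverse elements. -/
theorem Le.pair {S : Subalgebra k A} {i j : A} (h : Le S i j) (hi0 : i ≠ 0) (hj : PrimIn S j)
    (hii : i * i = i) : ∃ u ∈ S, ∃ v ∈ S, u * v = i ∧ v * u = j ∧ i * u = u ∧ u * j = u ∧
      j * v = v ∧ v * i = v := by
  obtain ⟨x, hx, y, hy, e1, e2, e3, e4, e5⟩ := h
  have h1 : y * x ≠ 0 := by
    intro h0
    apply hi0
    calc i = (x * y) * (x * y) := by rw [e1, hii]
      _ = x * (y * x) * y := by simp only [mul_assoc]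
      _ = 0 := by rw [h0]; simp
  have h2 : y * x = j := by
    rcases hj.prim (y * x) (S.mul_mem hy hx)
      (by
        calc y * x * (y * x) = y * (x * y) * x := by simp only [mul_assoc]
          _ = _ := by rw [e1, e5])
      (by rw [mul_assoc, e3]) (by rw [← mul_assoc, e4]) with h | h
    · exact absurd h h1
    · exact h
  exact ⟨x, hx, y, hy, e1, h2, e2, e3, e4, e5⟩

/-- A primitive idempotent is equivalent to `y x` if `i = x y`. -/
theorem prim_of_pair {S : Subalgebra k A} {i x y : A} (hi : PrimIn S i) (hx : x ∈ S) (hy : y ∈ S)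
    (hxy : x * y = i) (hyi : y * i = y) (hix : i * x = x) : PrimIn S (y * x) := by
  have hyx : y * x * (y * x) = y * x := by
    calc y * x * (y * x) = y * (x * y) * x := by simp only [mul_assoc]
      _ = _ := by rw [hxy, hyi]
  refine ⟨S.mul_mem hy hx, hyx, ?_, ?_⟩
  · intro h0
    apply hi.ne_zero
    calc i = (x * y) * (x * y) := by rw [hxy, hi.idem]
      _ = x * (y * x) * y := by simp only [mul_assoc]
      _ = 0 := by rw [h0]; simp
  · intro c hc hcc h1 h2
    have h3 : x * c * y * (x * c * y) = x * c * y := by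
      calc x * c * y * (x * c * y) = x * (c * (y * x)) * (c * y) := by simp only [mul_assoc]
        _ = x * (c * c) * y := by rw [h1]; simp only [mul_assoc]
        _ = _ := by rw [hcc]
    rcases hi.prim (x * c * y) (S.mul_mem (S.mul_mem hx hc) hy) h3
      (by rw [mul_assoc, hyi]) (by rw [← mul_assoc, ← mul_assoc, hix]) with h | h
    · left
      calc c = (y * x) * c * (y * x) := by rw [h2, h1]
        _ = y * (x * c * y) * x := by simp only [mul_assoc]
        _ = 0 := by rw [h]; simp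
    · right
      calc c = (y * x) * c * (y * x) := by rw [h2, h1]
        _ = y * (x * c * y) * x := by simp only [mul_assoc]
        _ = y * x := by rw [h, hyi]

end Abs

variable {k : Type u} [Field k] {p : ℕ} [Fact p.Prime] [CharP k p] {G : Type} [Group G] [Finite G]

/-- a local primitive idempotent below a given idempotent -/
theorem exists_prim_br {S : Subalgebra k (MonoidAlgebra k G)} {Q : Subgroup G}
    {w : MonoidAlgebra k G} (hw : w ∈ S) (hww : w * w = w) (hbr : br Q w ≠ 0) :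
    ∃ i, PrimIn S i ∧ w * i = i ∧ i * w = i ∧ br Q i ≠ 0 := by
  have hfin : FiniteDimensional k (MonoidAlgebra k G) :=
    Module.Finite.equiv (MonoidAlgebra.coeffLinearEquiv k (M := G) (S := k)).symm
  obtain ⟨m, f, hf, h1⟩ := exists_prim_decomp S _ w hw hww le_rfl
  have h2 : br Q w = ∑ l, br Q (f l) := by
    conv_lhs => rw [h1]
    rw [br_linear_sum]
  obtain ⟨l, -, hl⟩ := Finset.exists_ne_zero_of_sum_ne_zero (by rw [← h2]; exact hbr)
  exact ⟨f l, (hf l).1, (hf l).2.1, (hf l).2.2, hl⟩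

/-- **One step of the descent.** -/
theorem step [IsAlgClosed k] {T Q : Subgroup G} (hQ : IsPGroup p Q) {ψ : G →* kˣ} {m : ℕ}
    (hm : 0 < m) (hmp : ¬ p ∣ m) (hψ : ψ ^ m = 1) {i e : MonoidAlgebra k G}
    (hi : PrimIn (RT k T Q) i) (he : e ∈ SubAlg k ψ.ker) (hei : e * i = i) (hie : i * e = i)
    (hbr : br Q i ≠ 0) (hle : Le (RT k T Q) (tw ψ i) i) :
    ∃ i', PrimIn (RT k (T ⊓ ψ.ker) Q) i' ∧ e * i' = i' ∧ i' * e = i' ∧ br Q i' ≠ 0 ∧
      Module.finrank k (NN (SubAlg k (T ⊓ ψ.ker)) i' i') ≤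
        Module.finrank k (NN (SubAlg k T) i i) := by
  have hfin : FiniteDimensional k (MonoidAlgebra k G) :=
    Module.Finite.equiv (MonoidAlgebra.coeffLinearEquiv k (M := G) (S := k)).symm
  have hσ : ∀ x ∈ RT k T Q, tw ψ x ∈ RT k T Q := fun x hx => tw_mem_RT ψ hx
  have hσm : ∀ x : MonoidAlgebra k G, (tw ψ)^[m] x = x := by
    intro x
    rw [tw_iter, hψ]
    exact tw_of_mem (T := ⊤) (fun g _ => MonoidHom.mem_ker.mpr rfl) (SubAlg_top x)
  have htwi : PrimIn (RT k T Q) (tw ψ i) := primIn_map hσ hm hσm hi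
  obtain ⟨u, hu, v, hv, e1, e2, e3, e4, e5, e6⟩ := hle.pair htwi.ne_zero hi htwi.idem
  obtain ⟨y, hy, x, hx, f1, f2, f3, f4, f5, f6⟩ := rot (p := p) hσ hm hmp hσm hi hu hv e3 e4 e5 e2
  have htwe : tw ψ e = e := tw_of_mem le_rfl he
  have hey := f5 e htwe hei
  have hxe := f6 e htwe hie
  have hprim := prim_of_pair hi hx hy f1 f2 f3
  have hker : y * x ∈ SubAlg k ψ.ker := mem_ker_of_tw f4
  have hmem : y * x ∈ RT k (T ⊓ ψ.ker) Q := by
    refine ⟨hprim.mem.1, ?_⟩
    intro g hg
    exact ⟨hprim.mem.2 g hg, hker g hg⟩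
  have hsub : RT k (T ⊓ ψ.ker) Q ≤ RT k T Q := inf_le_inf le_rfl (SubAlg_mono inf_le_left)
  refine ⟨y * x, ⟨hmem, hprim.idem, hprim.ne_zero, fun c hc => hprim.prim c (hsub hc)⟩, ?_, ?_, ?_,
    ?_⟩
  · rw [← mul_assoc, hey]
  · rw [mul_assoc, hxe]
  · intro h0
    apply hbr
    have h1 : i = x * (y * x) * y := by
      calc i = (x * y) * (x * y) := by rw [f1, hi.idem]
        _ = _ := by simp only [mul_assoc]
    rw [h1, br_mul hQ (Subalgebra.mul_mem _ hx.1 hprim.mem.1) hy.1, br_mul hQ hx.1 hprim.mem.1, h0,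
      mul_zero, zero_mul]
  · have h1 : Le (RT k T Q) (y * x) i := by
      refine ⟨y, hy, x, hx, rfl, ?_, f2, f3, ?_⟩
      · rw [mul_assoc, f1, f2]
      · rw [← mul_assoc, f1, f3]
    have h2 : Module.finrank k (NN (SubAlg k T) (y * x) (y * x)) ≤
        Module.finrank k (NN (SubAlg k T) i i) :=
      (h1.finrank_right RT_le _).trans (h1.finrank_left RT_le _)
    refine (Submodule.finrank_mono ?_).trans h2
    exact fun z hz => ⟨SubAlg_mono inf_le_left hz.1, hz.2⟩

end Vale.Agent.P180.R2.H259.Exp
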