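import Vale.Agent.P180.R2.H259.Exp.Dsa

set_option linter.all false

/-!
P180: descent to the kernel of a linear character; the sum of the twists of a primitive idempotent.
-/

namespace Vale.Agent.P180.R2.H259.Exp

open Vale.Agent.P180 Vale.Agent.P180.H768.Gd Vale.Agent.P180.R2.H799
  Vale.Agent.P180.R2.H954 Vale.Agent.P180.R2.H954.Hc
open Vale.Agent.P180.R2.H259.Cyc (PrimIn)
open Vale.Agent.P180.R2.H365 (br_self br_pow)

universe u

variable {k : Type u} [Field k] [IsAlgClosed k] {p : ℕ} [Fact p.Prime] [CharP k p] {G : Type}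
  [Group G] [Finite G]

omit [IsAlgClosed k] [Fact p.Prime] [CharP k p] in
theorem br_add' (Q : Subgroup G) (a b : MonoidAlgebra k G) : br Q (a + b) = br Q a + br Q b := by
  apply ext_coeff
  intro g
  rw [MonoidAlgebra.coeff_add, Finsupp.add_apply, br_coeff, br_coeff, br_coeff,
    MonoidAlgebra.coeff_add, Finsupp.add_apply]
  split_ifs
  · rfl
  · rw [add_zero]

omit [IsAlgClosed k] [Fact p.Prime] [CharP k p] in
theorem tw_fin (ψ : G →* kˣ) (x : MonoidAlgebra k G) : (tw ψ)^[Nat.card G] x = x := by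
  rw [tw_iter]
  refine tw_of_mem (T := ⊤) (fun g _ => MonoidHom.mem_ker.mpr ?_) (SubAlg_top x)
  change ψ g ^ Nat.card G = 1
  rw [← map_pow, pow_card_eq_one', map_one]

theorem primIn_tw (ψ : G →* kˣ) {S : Subalgebra k (MonoidAlgebra k G)}
    (hS : ∀ x ∈ S, tw ψ x ∈ S) {i : MonoidAlgebra k G} (hi : PrimIn S i) : PrimIn S (tw ψ i) :=
  primIn_map hS (Nat.card_pos (α := G)) (tw_fin ψ) hi

theorem primIn_cj {T Q : Subgroup G} {n : G} (hnT : n ∈ T)
    (hn : n ∈ Subgroup.normalizer (Q : Set G)) {i : MonoidAlgebra k G}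
    (hi : PrimIn (RT k T Q) i) : PrimIn (RT k T Q) (cj k G n i) := by
  refine primIn_map (σ := (cj k G n : MonoidAlgebra k G →ₐ[k] MonoidAlgebra k G))
    (fun x hx => cj_mem_RT hnT hn hx) (Nat.card_pos (α := G)) (fun x => ?_) hi
  have h1 : ∀ m : ℕ, (cj k G n : MonoidAlgebra k G →ₐ[k] MonoidAlgebra k G)^[m] x =
      cj k G (n ^ m) x := by
    intro m
    induction m with
    | zero => rw [pow_zero, map_one_act]; rfl
    | succ m ih =>
      rw [Function.iterate_succ_apply', ih, pow_succ', map_mul_act]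
      rfl
  rw [h1, pow_card_eq_one', map_one_act]

/-- powers of a character on the group algebra of `T` -/
theorem tw_pow_mod {T : Subgroup G} {χ : G →* kˣ} {t : ℕ} (hT : ∀ g ∈ T, χ g ^ t = 1) {a b : ℕ}
    (hab : a ≡ b [MOD t]) {x : MonoidAlgebra k G} (hx : x ∈ SubAlg k T) :
    tw (χ ^ a) x = tw (χ ^ b) x := by
  apply ext_coeff
  intro g
  rw [tw_coeff, tw_coeff]
  by_cases h : x.coeff g = 0
  · rw [h, zero_mul, zero_mul]
  · have h1 : (χ ^ a) g = (χ ^ b) g := by
      change χ g ^ a = χ g ^ b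
      rw [pow_eq_pow_iff_modEq]
      exact hab.of_dvd (orderOf_dvd_of_pow_eq_one (hT g (hx g h)))
    rw [h1]

section Core

variable {T Q : Subgroup G} {χ : G →* kˣ} {i : MonoidAlgebra k G} {t : ℕ}

/-- different twists are not equivalent -/
theorem not_le (hi : PrimIn (RT k T Q) i) (hT : ∀ g ∈ T, χ g ^ t = 1)
    (hmin : ∀ s, 0 < s → s < t → ¬ Le (RT k T Q) (tw (χ ^ s) i) i) {a b : ℕ} (ha : a < t)
    (hb : b < t) (hab : a ≠ b) : ¬ Le (RT k T Q) (tw (χ ^ a) i) (tw (χ ^ b) i) := by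
  have key : ∀ a b, a < t → b < a → ¬ Le (RT k T Q) (tw (χ ^ a) i) (tw (χ ^ b) i) := by
    intro a b ha hb h
    have h1 := h.map (σ := tw (χ ^ (t - b))) fun x hx => tw_mem_RT _ hx
    have hpw : ∀ c d : ℕ, χ ^ c * χ ^ d = χ ^ (c + d) := fun c d => (pow_add χ c d).symm
    rw [tw_mul_tw, tw_mul_tw, hpw, hpw] at h1
    rw [tw_pow_mod (T := T) hT (a := t - b + a) (b := a - b) (by
      have e : t - b + a = t + (a - b) := by omega
      rw [e]; exact Nat.add_modEq_left) hi.mem.2] at h1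
    rw [tw_pow_mod (T := T) hT (a := t - b + b) (b := 0) (by
      have e : t - b + b = t := by omega
      rw [e]; exact (Nat.modEq_zero_iff_dvd.mpr dvd_rfl)) hi.mem.2] at h1
    have h2 : tw (χ ^ 0) i = i := by
      rw [pow_zero]
      exact tw_of_mem (T := ⊤) (fun g _ => MonoidHom.mem_ker.mpr rfl) (SubAlg_top i)
    rw [h2] at h1
    exact hmin (a - b) (by omega) (by omega) h1
  intro h
  rcases lt_or_gt_of_ne hab with h1 | h1
  · have h2 := primIn_tw (χ ^ a) (S := RT k T Q) (fun x hx => tw_mem_RT _ hx) hi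
    have h3 := primIn_tw (χ ^ b) (S := RT k T Q) (fun x hx => tw_mem_RT _ hx) hi
    exact key b a hb h1 (h.symm h2.ne_zero h3 h2.idem)
  · exact key a b ha h1 h

/-- the sum of the twists -/
noncomputable def eps (χ : G →* kˣ) (i : MonoidAlgebra k G) (t : ℕ) : MonoidAlgebra k G :=
  ∑ s ∈ Finset.range t, tw (χ ^ s) i

theorem eps_mem (hi : i ∈ RT k T Q) (hT : ∀ g ∈ T, χ g ^ t = 1) : eps χ i t ∈ RT k χ.ker Q := by
  refine ⟨Subalgebra.sum_mem _ fun s _ => tw_fix _ hi.1, ?_⟩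
  intro g hg
  by_contra hne
  apply hg
  unfold eps
  rw [MonoidAlgebra.coeff_sum, Finsupp.finsetSum_apply]
  have h1 : ∀ s ∈ Finset.range t, (tw (χ ^ s) i).coeff g = i.coeff g * ((χ g : k)) ^ s := by
    intro s _
    rw [tw_coeff]
    congr 1
  rw [Finset.sum_congr rfl h1, ← Finset.mul_sum]
  by_cases hgT : i.coeff g = 0
  · rw [hgT, zero_mul]
  · have h2 := hT g (hi.2 g hgT)
    have h3 : ((χ g : k) - 1) * ∑ s ∈ Finset.range t, (χ g : k) ^ s = 0 := by
      rw [mul_geom_sum, ← Units.val_pow_eq_pow_val, h2, Units.val_one, sub_self]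
    have h4 : (χ g : k) - 1 ≠ 0 := by
      intro h0
      apply hne
      exact MonoidHom.mem_ker.mpr (Units.ext (sub_eq_zero.mp h0))
    rw [(mul_eq_zero.mp h3).resolve_left h4, mul_zero]

/-- The sum of the twists is not nilpotent modulo the kernel of the Brauer homomorphism. -/
theorem eps_br (hQ : IsPGroup p Q) (hi : PrimIn (RT k T Q) i) (hbr : br Q i ≠ 0) (ht : 0 < t)
    (hT : ∀ g ∈ T, χ g ^ t = 1)
    (hmin : ∀ s, 0 < s → s < t → ¬ Le (RT k T Q) (tw (χ ^ s) i) i) (n : ℕ) :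
    br Q (eps χ i t ^ n) ≠ 0 := by
  classical
  have hfin : FiniteDimensional k (MonoidAlgebra k G) :=
    Module.Finite.equiv (MonoidAlgebra.coeffLinearEquiv k (M := G) (S := k)).symm
  set S := RT k T Q with hS
  have htw0 : tw (χ ^ 0) i = i := by
    rw [pow_zero]
    exact tw_of_mem (T := ⊤) (fun g _ => MonoidHom.mem_ker.mpr rfl) (SubAlg_top i)
  have htwS : ∀ s, tw (χ ^ s) i ∈ S := fun s => tw_mem_RT _ hi.mem
  have hεS : eps χ i t ∈ S := S.sum_mem fun s _ => htwS s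
  let Rad : MonoidAlgebra k G → Prop := fun x =>
    x ∈ S ∧ x * i = x ∧ ∀ r ∈ S, IsNilpotent (i * r * x)
  have hR0 : Rad 0 := ⟨S.zero_mem, zero_mul _, fun r _ => by rw [mul_zero]; exact IsNilpotent.zero⟩
  have hRadd : ∀ x y, Rad x → Rad y → Rad (x + y) := by
    rintro x y ⟨hx, hxi, hxn⟩ ⟨hy, hyi, hyn⟩
    refine ⟨S.add_mem hx hy, by rw [add_mul, hxi, hyi], fun r hr => ?_⟩
    rw [mul_add]
    refine add_nilp hi (S.mul_mem (S.mul_mem hi.mem hr) hx) (S.mul_mem (S.mul_mem hi.mem hr) hy)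
      ?_ ?_ ?_ ?_ (hxn r hr) (hyn r hr)
    · rw [← mul_assoc, ← mul_assoc, hi.idem]
    · rw [mul_assoc, hxi]
    · rw [← mul_assoc, ← mul_assoc, hi.idem]
    · rw [mul_assoc, hyi]
  have hRmul : ∀ r ∈ S, ∀ x, Rad x → Rad (r * x) := by
    rintro r hr x ⟨hx, hxi, hxn⟩
    refine ⟨S.mul_mem hr hx, by rw [mul_assoc, hxi], fun r' hr' => ?_⟩
    have h1 := hxn (r' * r) (S.mul_mem hr' hr)
    have e : i * r' * (r * x) = i * (r' * r) * x := by simp only [mul_assoc]
    rw [e]; exact h1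
  have hRs : ∀ s, 0 < s → s < t → Rad (tw (χ ^ s) i * i) := by
    intro s hs hst
    refine ⟨S.mul_mem (htwS s) hi.mem, by rw [mul_assoc, hi.idem], fun r hr => ?_⟩
    by_contra h
    have h1 : Le S i (tw (χ ^ s) i) := by
      refine le_of_not_nilp (a := r) (b := 1) hi ?_ (htwS s) hr S.one_mem ?_
      · rw [← map_mul, hi.idem]
      · rw [mul_one]
        have e : i * r * tw (χ ^ s) i * i = i * r * (tw (χ ^ s) i * i) := by
          simp only [mul_assoc]
        rw [e]; exact h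
    have h2 := not_le hi hT hmin (a := 0) (b := s) (by omega) hst (by omega)
    rw [htw0] at h2
    exact h2 h1
  have hεi : ∃ x, Rad x ∧ eps χ i t * i = i + x := by
    obtain ⟨t', rfl⟩ : ∃ t', t = t' + 1 := ⟨t - 1, by omega⟩
    refine ⟨∑ s ∈ Finset.range t', tw (χ ^ (s + 1)) i * i, ?_, ?_⟩
    · refine Finset.sum_induction _ Rad hRadd hR0 fun s hs => ?_
      exact hRs (s + 1) (by omega) (by have := Finset.mem_range.mp hs; omega)
    · unfold eps
      rw [Finset.sum_mul, Finset.sum_range_succ', htw0, hi.idem, add_comm]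
  obtain ⟨x₀, hx₀, hεi⟩ := hεi
  have hpow : ∀ n : ℕ, ∃ x, Rad x ∧ eps χ i t ^ n * i = i + x := by
    intro n
    induction n with
    | zero => exact ⟨0, hR0, by rw [pow_zero, one_mul, add_zero]⟩
    | succ n ih =>
      obtain ⟨x, hx, he⟩ := ih
      refine ⟨x₀ + eps χ i t * x, hRadd _ _ hx₀ (hRmul _ hεS _ hx), ?_⟩
      rw [pow_succ', mul_assoc, he, mul_add, hεi, add_assoc]
  intro h0
  obtain ⟨x, ⟨hxS, hxi, hxn⟩, he⟩ := hpow n
  obtain ⟨N, hN⟩ := hxn 1 S.one_mem
  rw [mul_one] at hN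
  have hεF : eps χ i t ^ n ∈ Fix (cj k G) Q := Subalgebra.pow_mem _ hεS.1 n
  have h1 : br Q (i * x) = - br Q i := by
    have h2 : i * x + i = i * eps χ i t ^ n * i := by
      rw [mul_assoc, he, mul_add, hi.idem, add_comm]
    have h3 : br Q (i * x) + br Q i = 0 := by
      rw [← br_add', h2, br_mul hQ (Subalgebra.mul_mem _ hi.mem.1 hεF) hi.mem.1,
        br_mul hQ hi.mem.1 hεF, h0, mul_zero, zero_mul]
    exact eq_neg_of_add_eq_zero_left h3
  have h2 : (- br Q i) ^ N = 0 := by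
    rw [← h1, ← br_pow hQ (Subalgebra.mul_mem _ hi.mem.1 hxS.1), hN]
    exact br_self (Subalgebra.zero_mem _)
  have h3 : br Q i ^ N = 0 := by
    rw [neg_pow] at h2
    rcases neg_one_pow_eq_or (MonoidAlgebra k G) N with h | h
    · rw [h, one_mul] at h2; exact h2
    · rw [h, neg_one_mul, neg_eq_zero] at h2; exact h2
  apply hbr
  have h4 : IsIdempotentElem (br Q i) := by
    change br Q i * br Q i = br Q i
    rw [← br_mul hQ hi.mem.1 hi.mem.1, hi.idem]
  rw [← h4.pow_succ_eq N, pow_succ, h3, zero_mul]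

end Core

end Vale.Agent.P180.R2.H259.Exp
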