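import Vale.Agent.P180.R2.H259.Exp.Dsb

set_option linter.all false

/-!
P180: descent to the kernel of a linear character; the bound.
-/

namespace Vale.Agent.P180.R2.H259.Exp

open Vale.Agent.P180 Vale.Agent.P180.H768.Gd Vale.Agent.P180.R2.H799
  Vale.Agent.P180.R2.H954 Vale.Agent.P180.R2.H954.Hc
open Vale.Agent.P180.R2.H259.Cyc (PrimIn)
open Vale.Agent.P180.R2.H365 (br_self br_pow)

universe u

variable {k : Type u} [Field k] [IsAlgClosed k] {p : ℕ} [Fact p.Prime] [CharP k p] {G : Type}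
  [Group G] [Finite G]

section Conj

omit [IsAlgClosed k] [Fact p.Prime] [CharP k p] in
/-- conjugation by an element of the centraliser -/
theorem le_cj {T Q : Subgroup G} {c : G} (hcT : c ∈ T) (hc : ∀ q ∈ Q, q * c = c * q)
    {l : MonoidAlgebra k G} (hl : l ∈ RT k T Q) (hll : l * l = l) :
    Le (RT k T Q) l (cj k G c l) := by
  have hsc : ∀ d ∈ T, (∀ q ∈ Q, q * d = d * q) → MonoidAlgebra.single d (1 : k) ∈ RT k T Q := by
    intro d hd h
    refine ⟨?_, single_mem_SubAlg hd 1⟩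
    intro q hq
    rw [cj_single, h q hq, mul_inv_cancel_right]
  have hc' : ∀ q ∈ Q, q * c⁻¹ = c⁻¹ * q := by
    intro q hq
    have h1 := hc q hq
    calc q * c⁻¹ = c⁻¹ * (c * q) * c⁻¹ := by group
      _ = c⁻¹ * (q * c) * c⁻¹ := by rw [h1]
      _ = _ := by group
  have h1 : MonoidAlgebra.single c⁻¹ (1 : k) * MonoidAlgebra.single c 1 = 1 := by
    rw [MonoidAlgebra.single_mul_single, inv_mul_cancel, one_mul]; rfl
  have hcj : cj k G c l = MonoidAlgebra.single c 1 * l * MonoidAlgebra.single c⁻¹ 1 := cj_eq c l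
  refine ⟨l * MonoidAlgebra.single c⁻¹ 1, Subalgebra.mul_mem _ hl (hsc _ (T.inv_mem hcT) hc'),
    MonoidAlgebra.single c 1 * l, Subalgebra.mul_mem _ (hsc _ hcT hc) hl, ?_, ?_, ?_, ?_, ?_⟩
  · calc l * MonoidAlgebra.single c⁻¹ 1 * (MonoidAlgebra.single c 1 * l)
        = l * (MonoidAlgebra.single c⁻¹ 1 * MonoidAlgebra.single c 1) * l := by
          simp only [mul_assoc]
      _ = l := by rw [h1, mul_one, hll]
  · rw [← mul_assoc, hll]
  · rw [hcj]
    calc l * MonoidAlgebra.single c⁻¹ 1 * (MonoidAlgebra.single c 1 * l *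
          MonoidAlgebra.single c⁻¹ 1)
        = l * (MonoidAlgebra.single c⁻¹ 1 * MonoidAlgebra.single c 1) * l *
          MonoidAlgebra.single c⁻¹ 1 := by simp only [mul_assoc]
      _ = _ := by rw [h1, mul_one, hll]
  · rw [hcj]
    calc MonoidAlgebra.single c 1 * l * MonoidAlgebra.single c⁻¹ 1 *
          (MonoidAlgebra.single c 1 * l)
        = MonoidAlgebra.single c 1 * l * (MonoidAlgebra.single c⁻¹ 1 * MonoidAlgebra.single c 1) *
          l := by simp only [mul_assoc]
      _ = _ := by rw [h1, mul_one, mul_assoc, hll]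
  · rw [mul_assoc, hll]

omit [IsAlgClosed k] [Fact p.Prime] [CharP k p] in
/-- right multiplication with an element of `T` -/
theorem finrank_cj {T : Subgroup G} {n : G} (hn : n ∈ T) (z l : MonoidAlgebra k G) :
    Module.finrank k (NN (SubAlg k T) z (cj k G n l)) ≤ Module.finrank k (NN (SubAlg k T) z l) := by
  have hfin : FiniteDimensional k (MonoidAlgebra k G) :=
    Module.Finite.equiv (MonoidAlgebra.coeffLinearEquiv k (M := G) (S := k)).symm
  have h1 : MonoidAlgebra.single n⁻¹ (1 : k) * MonoidAlgebra.single n 1 = 1 := by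
    rw [MonoidAlgebra.single_mul_single, inv_mul_cancel, one_mul]; rfl
  have h2 : MonoidAlgebra.single n (1 : k) * MonoidAlgebra.single n⁻¹ 1 = 1 := by
    rw [MonoidAlgebra.single_mul_single, mul_inv_cancel, one_mul]; rfl
  have hcj : cj k G n l = MonoidAlgebra.single n 1 * l * MonoidAlgebra.single n⁻¹ 1 := cj_eq n l
  let φ : NN (SubAlg k T) z (cj k G n l) →ₗ[k] NN (SubAlg k T) z l :=
    { toFun := fun a => ⟨a.1 * MonoidAlgebra.single n 1,
        Subalgebra.mul_mem _ a.2.1 (single_mem_SubAlg hn 1), by rw [← mul_assoc, a.2.2.1], by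
          have h3 : a.1 * (MonoidAlgebra.single n 1 * l * MonoidAlgebra.single n⁻¹ 1) = a.1 :=
            (congrArg (fun y => a.1 * y) hcj.symm).trans a.2.2.2
          calc a.1 * MonoidAlgebra.single n 1 * l = a.1 * MonoidAlgebra.single n 1 * l *
                (MonoidAlgebra.single n⁻¹ 1 * MonoidAlgebra.single n 1) := by rw [h1, mul_one]
            _ = a.1 * (MonoidAlgebra.single n 1 * l * MonoidAlgebra.single n⁻¹ 1) *
                MonoidAlgebra.single n 1 := by simp only [mul_assoc]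
            _ = _ := by rw [h3]⟩
      map_add' := fun a b => Subtype.ext (add_mul _ _ _)
      map_smul' := fun c a => Subtype.ext (smul_mul_assoc _ _ _) }
  refine LinearMap.finrank_le_finrank_of_injective (f := φ) ?_
  intro a b hab
  have h3 : a.1 * MonoidAlgebra.single n 1 = b.1 * MonoidAlgebra.single n 1 :=
    congrArg Subtype.val hab
  have h4 : ∀ c : MonoidAlgebra k G, c = c * MonoidAlgebra.single n 1 *
      MonoidAlgebra.single n⁻¹ 1 := fun c => by rw [mul_assoc, h2, mul_one]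
  exact Subtype.ext ((h4 a.1).trans
    ((congrArg (· * MonoidAlgebra.single n⁻¹ 1) h3).trans (h4 b.1).symm))

end Conj

section Core

variable {T Q : Subgroup G} {χ : G →* kˣ} {i : MonoidAlgebra k G} {t : ℕ}

omit [IsAlgClosed k] [Fact p.Prime] [CharP k p] in
theorem tw_mem_ZAlg (ψ : G →* kˣ) {x : MonoidAlgebra k G} (hx : x ∈ ZAlg k T) :
    tw ψ x ∈ ZAlg k T := ⟨tw_mem ψ hx.1, tw_fix ψ hx.2⟩

/-- The number of the twists which fix the block of `kT`. -/
theorem good_count (hQ : IsPGroup p Q) (hQT : Q ≤ T) (hi : PrimIn (RT k T Q) i) (hbr : br Q i ≠ 0)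
    (hT : ∀ g ∈ T, χ g ^ t = 1)
    (hmin : ∀ s, 0 < s → s < t → ¬ Le (RT k T Q) (tw (χ ^ s) i) i)
    {B a' : MonoidAlgebra k G} (hB : IsBlockOf T B) (ha'T : a' ∈ SubAlg k T)
    (ha' : a' ∈ Fix (cj k G) Q) (hBa : B = tr (cj k G) Q T a') (hBi : B * i = i) :
    (∀ s, tw (χ ^ s) B = B → Module.finrank k (NN (SubAlg k T) i (tw (χ ^ s) i)) ≤
      Module.finrank k (NN (SubAlg k T) i i)) ∧
    Nat.card {s : Fin t // tw (χ ^ (s : ℕ)) B = B} ≤ (Nat.card Q).factorial := by
  classical
  have hfin : FiniteDimensional k (MonoidAlgebra k G) :=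
    Module.Finite.equiv (MonoidAlgebra.coeffLinearEquiv k (M := G) (S := k)).symm
  have hiB : i * B = i := by
    rw [commute_of_mem hi.mem.2 hB.mem.2, hBi]
  have key : ∀ s, tw (χ ^ s) B = B → ∃ n ∈ T, n ∈ Subgroup.normalizer (Q : Set G) ∧
      Le (RT k T Q) (tw (χ ^ s) i) (cj k G n i) := by
    intro s hs
    refine exists_le hQT hQ hB ha'T ha' hBa hi.mem.2 hi.mem.1 hi.idem (by rw [hiB]; exact hbr)
      (primIn_tw _ (fun x hx => tw_mem_RT _ hx) hi) ?_ ?_
    · conv_lhs => rw [← hs]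
      rw [← map_mul, hBi]
    · rw [← tw_br]
      intro h0
      exact hbr (tw_injective _ (by rw [h0, map_zero]))
  refine ⟨fun s hs => ?_, ?_⟩
  · obtain ⟨n, hnT, hn, hle⟩ := key s hs
    exact (hle.finrank_right RT_le _).trans (finrank_cj hnT _ _)
  · choose! n hnT hn hle using key
    have _ := Fintype.ofFinite Q
    have hcard : (Nat.card Q).factorial = Nat.card (Equiv.Perm Q) := by
      rw [Nat.card_eq_fintype_card (α := Equiv.Perm Q), Fintype.card_perm,
        Nat.card_eq_fintype_card]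
    rw [hcard]
    refine Nat.card_le_card_of_injective
      (fun s : {s : Fin t // tw (χ ^ (s : ℕ)) B = B} =>
        (Subgroup.normalizerMonoidHom Q ⟨n s, hn s s.2⟩ : MulAut Q).toEquiv) ?_
    intro a b hab
    have hact : ∀ q ∈ Q, n a * q * (n a)⁻¹ = n b * q * (n b)⁻¹ := by
      intro q hq
      have h1 := congrArg (fun f : Q ≃ Q => ((f ⟨q, hq⟩ : Q) : G)) hab
      exact h1
    -- the element of the centraliser
    set c : G := n b * (n a)⁻¹ with hc
    have hcT : c ∈ T := T.mul_mem (hnT b b.2) (T.inv_mem (hnT a a.2))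
    have hcQ : ∀ q ∈ Q, q * c = c * q := by
      intro q hq
      have h1 : (n a)⁻¹ * q * n a ∈ Q := by
        have h2 := Subgroup.mem_normalizer_iff.mp
          ((Subgroup.normalizer (Q : Set G)).inv_mem (hn a a.2)) q
        rw [inv_inv] at h2
        exact h2.mp hq
      have h3 := hact _ h1
      have h4 : n (a : ℕ) * ((n (a : ℕ))⁻¹ * q * n (a : ℕ)) * (n (a : ℕ))⁻¹ = q := by group
      rw [h4] at h3
      calc q * c = n (b : ℕ) * ((n (a : ℕ))⁻¹ * q * n (a : ℕ)) * (n (b : ℕ))⁻¹ *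
            (n (b : ℕ) * (n (a : ℕ))⁻¹) := by rw [← h3]
        _ = c * q := by rw [hc]; group
    have hcja : cj k G (n a) i ∈ RT k T Q := cj_mem_RT (hnT a a.2) (hn a a.2) hi.mem
    have h1 : Le (RT k T Q) (cj k G (n a) i) (cj k G (n b) i) := by
      have h2 := le_cj hcT hcQ hcja (by rw [← map_mul, hi.idem])
      rwa [← map_mul_act, hc, inv_mul_cancel_right] at h2
    have hpb := primIn_tw (χ ^ (b : ℕ)) (S := RT k T Q) (fun x hx => tw_mem_RT _ hx) hi
    have h2 : Le (RT k T Q) (cj k G (n b) i) (tw (χ ^ (b : ℕ)) i) :=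
      (hle b b.2).symm hpb.ne_zero (primIn_cj (hnT b b.2) (hn b b.2) hi) hpb.idem
    have h3 := ((hle a a.2).trans h1).trans h2
    by_contra hne
    refine not_le hi hT hmin (a := a) (b := b) a.1.2 b.1.2 ?_ h3
    intro h4
    exact hne (Subtype.ext (Fin.ext h4))

/-- The corner between twists of different blocks vanishes. -/
theorem bad_zero (hi : i ∈ SubAlg k T) {B : MonoidAlgebra k G} (hB : IsBlockOf T B)
    (hBi : B * i = i) {ψ : G →* kˣ} (hψ : tw ψ B ≠ B) :
    Module.finrank k (NN (SubAlg k T) i (tw ψ i)) = 0 := by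
  classical
  have hfin : FiniteDimensional k (MonoidAlgebra k G) :=
    Module.Finite.equiv (MonoidAlgebra.coeffLinearEquiv k (M := G) (S := k)).symm
  have hBP : PrimIn (ZAlg k T) B := ⟨hB.mem, hB.idem, hB.ne_zero, fun c hc hcc h1 _ =>
    hB.primitive c hc hcc h1⟩
  have hBσ : PrimIn (ZAlg k T) (tw ψ B) := primIn_tw ψ (fun x hx => tw_mem_ZAlg ψ hx) hBP
  have hcomm : B * tw ψ B = tw ψ B * B := ZAlg_comm _ hB.mem _ hBσ.mem
  have hid : B * tw ψ B * (B * tw ψ B) = B * tw ψ B := by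
    calc B * tw ψ B * (B * tw ψ B) = B * (tw ψ B * B) * tw ψ B := by simp only [mul_assoc]
      _ = (B * B) * (tw ψ B * tw ψ B) := by rw [← hcomm]; simp only [mul_assoc]
      _ = _ := by rw [hB.idem.eq, hBσ.idem]
  have h0 : B * tw ψ B = 0 := by
    rcases hBP.prim (B * tw ψ B) (Subalgebra.mul_mem _ hB.mem hBσ.mem) hid
      (by rw [mul_assoc, ← hcomm, ← mul_assoc, hB.idem.eq])
      (by rw [← mul_assoc, hB.idem.eq]) with h | h
    · exact h
    · rcases hBσ.prim (B * tw ψ B) (Subalgebra.mul_mem _ hB.mem hBσ.mem) hid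
        (by rw [mul_assoc, hBσ.idem])
        (by rw [hcomm, ← mul_assoc, hBσ.idem]) with h' | h'
      · exact h'
      · exact absurd (h'.symm.trans h) hψ
  have hbot : NN (SubAlg k T) i (tw ψ i) = ⊥ := by
    rw [eq_bot_iff]
    rintro x ⟨hx, hx1, hx2⟩
    rw [Submodule.mem_bot]
    have h1 : tw ψ i = tw ψ B * tw ψ i := by rw [← map_mul, hBi]
    have hxB : x * B = B * x := commute_of_mem hx hB.mem.2
    have h2 : B * x = x := by
      conv_lhs => rw [← hx1]
      rw [← mul_assoc, hBi, hx1]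
    calc x = (B * x) * tw ψ i := by rw [h2, hx2]
      _ = x * B * (tw ψ B * tw ψ i) := by rw [← hxB, ← h1]
      _ = x * (B * tw ψ B) * tw ψ i := by simp only [mul_assoc]
      _ = 0 := by rw [h0]; simp
  rw [hbot]
  exact finrank_bot k _

end Core

end Vale.Agent.P180.R2.H259.Exp
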