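import Vale.Agent.P180.R2.H259.Exp.Dsc

set_option linter.all false

/-!
P180: descent to the kernel of a linear character; the idempotent of the kernel.
-/

namespace Vale.Agent.P180.R2.H259.Exp

open Vale.Agent.P180 Vale.Agent.P180.H768.Gd Vale.Agent.P180.R2.H799
  Vale.Agent.P180.R2.H954 Vale.Agent.P180.R2.H954.Hc
open Vale.Agent.P180.R2.H259.Cyc (PrimIn)
open Vale.Agent.P180.R2.H365 (br_self br_pow)

universe u

variable {k : Type u} [Field k] [IsAlgClosed k] {p : ℕ} [Fact p.Prime] [CharP k p] {G : Type}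
  [Group G] [Finite G]

omit [IsAlgClosed k] [Fact p.Prime] [CharP k p] in
/-- the idempotent of an element -/
theorem fitting {S : Subalgebra k (MonoidAlgebra k G)} {x : MonoidAlgebra k G} (hx : x ∈ S) :
    ∃ (n : ℕ) (z j : MonoidAlgebra k G), z ∈ S ∧ j ∈ S ∧ j * j = j ∧ x ^ n * j = x ^ n ∧
      j = x ^ n * z ∧ j = z * x ^ n ∧ j = x * (x ^ (n - 1) * z) ∧ j = (z * x ^ (n - 1)) * x := by
  have hfin : FiniteDimensional k (MonoidAlgebra k G) :=
    Module.Finite.equiv (MonoidAlgebra.coeffLinearEquiv k (M := G) (S := k)).symm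
  obtain ⟨n, hn, z, hz, hxz⟩ := exists_pow_mul_eq (Algebra.adjoin k {x})
    (Algebra.self_mem_adjoin_singleton k x)
  have hzS : z ∈ S := by
    have h1 : Algebra.adjoin k {x} ≤ S := Algebra.adjoin_le (by
      rintro y hy
      rw [Set.mem_singleton_iff.mp hy]
      exact hx)
    exact h1 hz
  have hcomm : x ^ n * z = z * x ^ n := by
    have h1 : ∀ y ∈ Algebra.adjoin k {x}, x * y = y * x := by
      intro y hy
      induction hy using Algebra.adjoin_induction with
      | mem y hy => rw [Set.mem_singleton_iff.mp hy]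
      | algebraMap r => exact (Algebra.commutes r x).symm
      | add y z _ _ h1 h2 => rw [mul_add, add_mul, h1, h2]
      | mul y z _ _ h1 h2 => rw [← mul_assoc, h1, mul_assoc, h2, mul_assoc]
    have h2 : Commute x z := h1 z hz
    exact h2.pow_left n
  obtain ⟨n', rfl⟩ : ∃ n', n = n' + 1 := ⟨n - 1, by omega⟩
  refine ⟨n' + 1, z, x ^ (n' + 1) * z, hzS, S.mul_mem (S.pow_mem hx _) hzS, ?_, ?_, rfl, hcomm, ?_,
    ?_⟩
  · calc x ^ (n' + 1) * z * (x ^ (n' + 1) * z) = x ^ (n' + 1) * (z * x ^ (n' + 1)) * z := by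
          simp only [mul_assoc]
      _ = x ^ (n' + 1) * x ^ (n' + 1) * z * z := by rw [← hcomm]; simp only [mul_assoc]
      _ = _ := by rw [← hxz]
  · rw [← mul_assoc, ← hxz]
  · rw [← mul_assoc, Nat.add_sub_cancel, ← pow_succ']
  · rw [mul_assoc, Nat.add_sub_cancel, ← pow_succ, hcomm]

variable {T Q : Subgroup G} {χ : G →* kˣ} {i : MonoidAlgebra k G} {t : ℕ}

/-- **The core of the descent.** -/
theorem desc_core (hQ : IsPGroup p Q) (hQH : Q ≤ χ.ker) (hHT : χ.ker ≤ T)
    (hidx : ¬ p ∣ χ.ker.relIndex T) {e a : MonoidAlgebra k G} (he : IsBlockOf χ.ker e)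
    (haH : a ∈ SubAlg k χ.ker) (ha : a ∈ Fix (cj k G) Q) (hea : e = tr (cj k G) Q χ.ker a)
    (hi : PrimIn (RT k T Q) i) (hei : e * i = i) (hbr : br Q i ≠ 0)
    (ht : 0 < t) (hT : ∀ g ∈ T, χ g ^ t = 1)
    (hmin : ∀ s, 0 < s → s < t → ¬ Le (RT k T Q) (tw (χ ^ s) i) i) :
    ∃ j ∈ RT k χ.ker Q, j * j = j ∧ e * j = j ∧ br Q j ≠ 0 ∧
      Module.finrank k (NN (SubAlg k χ.ker) j j) ≤
        (Nat.card Q).factorial * Module.finrank k (NN (SubAlg k T) i i) := by
  classical
  have hfin : FiniteDimensional k (MonoidAlgebra k G) :=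
    Module.Finite.equiv (MonoidAlgebra.coeffLinearEquiv k (M := G) (S := k)).symm
  set ε := eps χ i t with hε
  have hεH : ε ∈ RT k χ.ker Q := eps_mem hi.mem hT
  have htwe : ∀ s : ℕ, tw (χ ^ s) e = e := by
    intro s
    refine tw_of_mem (fun g hg => MonoidHom.mem_ker.mpr ?_) he.mem.1
    change χ g ^ s = 1
    rw [MonoidHom.mem_ker.mp hg, one_pow]
  have heε : e * ε = ε := by
    rw [hε, eps, Finset.mul_sum]
    refine Finset.sum_congr rfl fun s _ => ?_
    conv_lhs => rw [← htwe s]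
    rw [← map_mul, hei]
  obtain ⟨n, z, j, hz, hj, hjj, hεj, hj1, hj2, hj3, hj4⟩ := fitting hεH
  have hbrj : br Q j ≠ 0 := by
    intro h0
    apply eps_br hQ hi hbr ht hT hmin n
    rw [← hε]
    conv_lhs => rw [← hεj]
    rw [br_mul hQ (Subalgebra.pow_mem _ hεH.1 n) hj.1, h0, mul_zero]
  refine ⟨j, hj, hjj, ?_, hbrj, ?_⟩
  · rw [hj3, ← mul_assoc, heε]
  -- the block of `kT`
  obtain ⟨B, hB, hBne⟩ := exists_isPrimIn (ZAlg k T) (by exact ZAlg_comm) hi.ne_zero
  have hiBc : i * B = B * i := commute_of_mem hi.mem.2 hB.mem.2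
  have hQT : Q ≤ T := hQH.trans hHT
  have hBR : B ∈ RT k T Q := ⟨Fix_mono _ hQT hB.mem.2, hB.mem.1⟩
  have hiB : i * B = i := by
    rcases hi.prim (i * B) (Subalgebra.mul_mem _ hi.mem hBR)
      (by
        calc i * B * (i * B) = i * (B * i) * B := by simp only [mul_assoc]
          _ = (i * i) * (B * B) := by rw [← hiBc]; simp only [mul_assoc]
          _ = _ := by rw [hi.idem, hB.idem.eq])
      (by rw [mul_assoc, ← hiBc, ← mul_assoc, hi.idem])
      (by rw [← mul_assoc, hi.idem]) with h | h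
    · exact absurd h hBne
    · exact h
  have hBi : B * i = i := by rw [← hiBc, hiB]
  have hHn : χ.ker.Normal := inferInstance
  obtain ⟨a', ha'T, ha', hBa⟩ := up_tr (T := T) hQ hQH hHT hidx he haH ha hea hB (by
    intro h0
    apply hi.ne_zero
    calc i = B * (e * i) := by rw [hei, hBi]
      _ = 0 := by rw [← mul_assoc, h0, zero_mul])
  obtain ⟨hg1, hg2⟩ := good_count (χ := χ) hQ hQT hi hbr hT hmin hB ha'T ha' hBa hBi
  -- the injection
  have htwa : ∀ (s : ℕ) {x : MonoidAlgebra k G}, x ∈ SubAlg k χ.ker → tw (χ ^ s) x = x := by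
    intro s x hx
    refine tw_of_mem (fun g hg => MonoidHom.mem_ker.mpr ?_) hx
    change χ g ^ s = 1
    rw [MonoidHom.mem_ker.mp hg, one_pow]
  let Φ : NN (SubAlg k χ.ker) j j →ₗ[k] (s : Fin t) → NN (SubAlg k T) i (tw (χ ^ (s : ℕ)) i) :=
    { toFun := fun x s => ⟨i * x.1 * tw (χ ^ (s : ℕ)) i,
        Subalgebra.mul_mem _ (Subalgebra.mul_mem _ hi.mem.2 (SubAlg_mono hHT x.2.1))
          (tw_mem _ hi.mem.2),
        by rw [← mul_assoc, ← mul_assoc, hi.idem],
        by rw [mul_assoc, ← map_mul, hi.idem]⟩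
      map_add' := fun x y => by
        funext s
        apply Subtype.ext
        change i * (x.1 + y.1) * _ = i * x.1 * _ + i * y.1 * _
        rw [mul_add, add_mul]
      map_smul' := fun c x => by
        funext s
        apply Subtype.ext
        change i * (c • x.1) * _ = c • (i * x.1 * _)
        rw [mul_smul_comm, smul_mul_assoc] }
  have hΦ : Function.Injective Φ := by
    rw [← LinearMap.ker_eq_bot, LinearMap.ker_eq_bot']
    intro x hx
    have h1 : ∀ s < t, i * x.1 * tw (χ ^ s) i = 0 := fun s hs =>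
      congrArg Subtype.val (congrFun hx ⟨s, hs⟩)
    have h2 : ∀ r < t, ∀ s < t, tw (χ ^ r) i * x.1 * tw (χ ^ s) i = 0 := by
      intro r hr s hs
      have h3 := congrArg (tw (χ ^ r)) (h1 ((s + (t - r)) % t) (Nat.mod_lt _ ht))
      rw [map_mul, map_mul, map_zero, htwa r x.2.1, tw_mul_tw] at h3
      have h4 : tw (χ ^ r * χ ^ ((s + (t - r)) % t)) i = tw (χ ^ s) i := by
        have h5 : χ ^ r * χ ^ ((s + (t - r)) % t) = χ ^ (r + (s + (t - r)) % t) :=
          (pow_add χ _ _).symm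
        rw [h5]
        refine tw_pow_mod (T := T) hT ?_ hi.mem.2
        have h6 : r + (s + (t - r)) % t ≡ r + (s + (t - r)) [MOD t] :=
          Nat.ModEq.add_left r (Nat.mod_modEq _ _)
        refine h6.trans ?_
        have h7 : r + (s + (t - r)) = s + t := by omega
        rw [h7]
        exact Nat.add_modEq_right
      rwa [h4] at h3
    have h3 : ε * x.1 * ε = 0 := by
      rw [hε, eps, Finset.sum_mul, Finset.sum_mul]
      refine Finset.sum_eq_zero fun r hr => ?_
      rw [Finset.mul_sum]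
      exact Finset.sum_eq_zero fun s hs => h2 r (Finset.mem_range.mp hr) s (Finset.mem_range.mp hs)
    apply Subtype.ext
    change x.1 = 0
    calc x.1 = j * x.1 * j := by rw [x.2.2.1, x.2.2.2]
      _ = ((z * ε ^ (n - 1)) * ε) * x.1 * (ε * (ε ^ (n - 1) * z)) := by rw [← hj3, ← hj4]
      _ = (z * ε ^ (n - 1)) * (ε * x.1 * ε) * (ε ^ (n - 1) * z) := by simp only [mul_assoc]
      _ = 0 := by rw [h3]; simp
  set D := Module.finrank k (NN (SubAlg k T) i i) with hD
  calc Module.finrank k (NN (SubAlg k χ.ker) j j)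
      ≤ Module.finrank k ((s : Fin t) → NN (SubAlg k T) i (tw (χ ^ (s : ℕ)) i)) :=
        LinearMap.finrank_le_finrank_of_injective hΦ
    _ = ∑ s : Fin t, Module.finrank k (NN (SubAlg k T) i (tw (χ ^ (s : ℕ)) i)) :=
        Module.finrank_pi_fintype k
    _ ≤ ∑ s : Fin t, (if tw (χ ^ (s : ℕ)) B = B then D else 0) := by
        refine Finset.sum_le_sum fun s _ => ?_
        split_ifs with h
        · exact hg1 s h
        · exact le_of_eq (bad_zero hi.mem.2 hB hBi h)
    _ = Nat.card {s : Fin t // tw (χ ^ (s : ℕ)) B = B} * D := by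
        rw [← Finset.sum_filter, Finset.sum_const, smul_eq_mul, Nat.card_eq_fintype_card,
          Fintype.card_subtype]
    _ ≤ _ := Nat.mul_le_mul_right D hg2

end Vale.Agent.P180.R2.H259.Exp
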