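import Vale.Agent.P180.R2.H259.Exp.Dsd
import Vale.Agent.P180.R2.H471.Hc7
import Vale.Agent.P180.R2.H471.Hc8
import Vale.Agent.P180.R2.H799.BNR8

set_option linter.all false

/-!
P180: descent of the bound to the kernel of a linear character.
-/

namespace Vale.Agent.P180.R2.H259.Exp

open Vale.Agent.P180 Vale.Agent.P180.H768.Gd Vale.Agent.P180.R2.H799
  Vale.Agent.P180.R2.H954 Vale.Agent.P180.R2.H954.Hc
open Vale.Agent.P180.R2.H259.Cyc (PrimIn)
open Vale.Agent.P180.R2.H365 (br_self br_pow)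
open Vale.Agent.P180.R2.H471.Hc (OneBd exists_block_br)

universe u

variable {k : Type u} [Field k] [IsAlgClosed k] {p : ℕ} [Fact p.Prime] [CharP k p] {G : Type}
  [Group G] [Finite G]

omit [IsAlgClosed k] [Fact p.Prime] [CharP k p] in
/-- left multiplication with an element of `T` -/
theorem finrank_cj_left {T : Subgroup G} {n : G} (hn : n ∈ T) (z l : MonoidAlgebra k G) :
    Module.finrank k (NN (SubAlg k T) (cj k G n l) z) ≤ Module.finrank k (NN (SubAlg k T) l z) := by
  have hfin : FiniteDimensional k (MonoidAlgebra k G) :=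
    Module.Finite.equiv (MonoidAlgebra.coeffLinearEquiv k (M := G) (S := k)).symm
  have h1 : MonoidAlgebra.single n⁻¹ (1 : k) * MonoidAlgebra.single n 1 = 1 := by
    rw [MonoidAlgebra.single_mul_single, inv_mul_cancel, one_mul]; rfl
  have h2 : MonoidAlgebra.single n (1 : k) * MonoidAlgebra.single n⁻¹ 1 = 1 := by
    rw [MonoidAlgebra.single_mul_single, mul_inv_cancel, one_mul]; rfl
  have hcj : cj k G n l = MonoidAlgebra.single n 1 * l * MonoidAlgebra.single n⁻¹ 1 := cj_eq n l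
  let φ : NN (SubAlg k T) (cj k G n l) z →ₗ[k] NN (SubAlg k T) l z :=
    { toFun := fun a => ⟨MonoidAlgebra.single n⁻¹ 1 * a.1,
        Subalgebra.mul_mem _ (single_mem_SubAlg (T.inv_mem hn) 1) a.2.1, by
          have h3 : (MonoidAlgebra.single n 1 * l * MonoidAlgebra.single n⁻¹ 1) * a.1 = a.1 :=
            (congrArg (fun y => y * a.1) hcj.symm).trans a.2.2.1
          calc l * (MonoidAlgebra.single n⁻¹ 1 * a.1)
              = (MonoidAlgebra.single n⁻¹ 1 * MonoidAlgebra.single n 1) *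
                (l * (MonoidAlgebra.single n⁻¹ 1 * a.1)) := by rw [h1, one_mul]
            _ = MonoidAlgebra.single n⁻¹ 1 *
                ((MonoidAlgebra.single n 1 * l * MonoidAlgebra.single n⁻¹ 1) * a.1) := by
                simp only [mul_assoc]
            _ = _ := by rw [h3], by rw [mul_assoc, a.2.2.2]⟩
      map_add' := fun a b => Subtype.ext (mul_add _ _ _)
      map_smul' := fun c a => Subtype.ext (mul_smul_comm _ _ _) }
  refine LinearMap.finrank_le_finrank_of_injective (f := φ) ?_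
  intro a b hab
  have h3 : MonoidAlgebra.single n⁻¹ 1 * a.1 = MonoidAlgebra.single n⁻¹ 1 * b.1 :=
    congrArg Subtype.val hab
  have h4 : ∀ c : MonoidAlgebra k G, c = MonoidAlgebra.single n 1 *
      (MonoidAlgebra.single n⁻¹ 1 * c) := fun c => by rw [← mul_assoc, h2, one_mul]
  exact Subtype.ext ((h4 a.1).trans
    ((congrArg (MonoidAlgebra.single n 1 * ·) h3).trans (h4 b.1).symm))

omit [IsAlgClosed k] in
theorem finite_map (χ : G →* kˣ) (T : Subgroup G) : Finite (T.map χ) := by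
  refine Finite.of_surjective (fun g : T => (⟨χ g, Subgroup.mem_map_of_mem χ g.2⟩ : T.map χ)) ?_
  rintro ⟨_, g, hg, rfl⟩
  exact ⟨⟨g, hg⟩, rfl⟩

omit [IsAlgClosed k] in
/-- The image of a character of a finite group has order prime to `p`. -/
theorem not_dvd_map (χ : G →* kˣ) (T : Subgroup G) : ¬ p ∣ Nat.card (T.map χ) := by
  intro h
  have _ := finite_map χ T
  have _ := Fintype.ofFinite (T.map χ)
  rw [Nat.card_eq_fintype_card] at h
  obtain ⟨x, hx⟩ := exists_prime_orderOf_dvd_card p h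
  have h1 : x ^ p = 1 := by rw [← hx]; exact pow_orderOf_eq_one x
  have h2 : (((x : kˣ) : k)) ^ p = 1 := by
    have h3 := congrArg (fun y : T.map χ => (((y : kˣ)) : k)) h1
    simpa using h3
  have h3 : ((((x : kˣ) : k)) - 1) ^ p = 0 := by
    rw [sub_pow_char, h2, one_pow, sub_self]
  have h4 : ((x : kˣ) : k) = 1 := sub_eq_zero.mp (pow_eq_zero_iff (Fact.out : p.Prime).ne_zero |>.mp h3)
  have h5 : x = 1 := Subtype.ext (Units.ext h4)
  rw [h5, orderOf_one] at hx
  exact (Fact.out : p.Prime).one_lt.ne hx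

theorem desc_ex {χ : G →* kˣ} {Q : Subgroup G} (hQ : IsPGroup p Q) (hQH : Q ≤ χ.ker) {C : ℕ}
    (hOne : OneBd k Q C) {e a : MonoidAlgebra k G} (he : IsBlockOf χ.ker e)
    (haH : a ∈ SubAlg k χ.ker) (ha : a ∈ Fix (cj k G) Q) (hea : e = tr (cj k G) Q χ.ker a)
    (hbre : br Q e ≠ 0) :
    ∃ j ∈ RT k χ.ker Q, j * j = j ∧ e * j = j ∧ br Q j ≠ 0 ∧
      Module.finrank k (NN (SubAlg k χ.ker) j j) ≤ (Nat.card Q).factorial * C := by
  classical
  have hfin : FiniteDimensional k (MonoidAlgebra k G) :=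
    Module.Finite.equiv (MonoidAlgebra.coeffLinearEquiv k (M := G) (S := k)).symm
  have hHn : χ.ker.Normal := inferInstance
  have hidx : ∀ T : Subgroup G, ¬ p ∣ χ.ker.relIndex T := fun T => by
    rw [Subgroup.relIndex_ker]
    exact not_dvd_map χ T
  have heQ : e ∈ Fix (cj k G) Q := Fix_mono _ hQH he.mem.2
  let P : Set (Subgroup G) := {T | χ.ker ≤ T ∧ ∃ i, PrimIn (RT k T Q) i ∧ e * i = i ∧ i * e = i ∧
    br Q i ≠ 0 ∧ Module.finrank k (NN (SubAlg k T) i i) ≤ C}
  -- the whole group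
  have hP : (⊤ : Subgroup G) ∈ P := by
    obtain ⟨B, hB, hne⟩ := exists_block_br ⊤ Q hbre
    have hBc : ∀ x : MonoidAlgebra k G, x * B = B * x := fun x =>
      commute_of_mem (SubAlg_top x) hB.mem.2
    have hBQ : B ∈ Fix (cj k G) Q := Fix_mono _ le_top hB.mem.2
    have hw : e * B ∈ RT k ⊤ Q := ⟨Subalgebra.mul_mem _ heQ hBQ, SubAlg_top _⟩
    have hww : e * B * (e * B) = e * B := by
      calc e * B * (e * B) = e * (B * e) * B := by simp only [mul_assoc]
        _ = (e * e) * (B * B) := by rw [← hBc]; simp only [mul_assoc]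
        _ = _ := by rw [he.idem.eq, hB.idem.eq]
    obtain ⟨i, hi, hwi, hiw, hbri⟩ := exists_prim_br hw hww (by rw [br_mul hQ heQ hBQ]; exact hne)
    have hei : e * i = i := by
      conv_lhs => rw [← hwi]
      rw [← mul_assoc, ← mul_assoc, he.idem.eq, hwi]
    have hie : i * e = i := by
      conv_lhs => rw [← hiw]
      rw [mul_assoc, mul_assoc, ← hBc, ← mul_assoc e e, he.idem.eq, hiw]
    have hBi : B * i = i := by
      conv_lhs => rw [← hwi]
      rw [← hBc, mul_assoc, hBc i, ← mul_assoc, mul_assoc e B B, hB.idem.eq, hwi]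
    obtain ⟨a', -, ha', hBa⟩ := up_tr (T := ⊤) hQ hQH le_top (hidx ⊤) he haH ha hea hB (by
      intro h0
      apply hi.ne_zero
      calc i = B * (e * i) := by rw [hei, hBi]
        _ = 0 := by rw [← mul_assoc, h0, zero_mul])
    obtain ⟨i₀, hi₀, hii₀, hBi₀, hbri₀, hdim⟩ := hOne B a' hB ha' hBa (by
      intro h0
      apply hne
      rw [h0, mul_zero])
    obtain ⟨n, hn, -, hle⟩ := exists_le (T := ⊤) le_top hQ hB (SubAlg_top a') ha' hBa
      (SubAlg_top i₀) hi₀ hii₀ (by rw [hBc, hBi₀]; exact hbri₀) hi hBi hbri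
    refine ⟨le_top, i, hi, hei, hie, hbri, ?_⟩
    calc Module.finrank k (NN (SubAlg k ⊤) i i)
        ≤ Module.finrank k (NN (SubAlg k ⊤) i (cj k G n i₀)) := hle.finrank_right RT_le _
      _ ≤ Module.finrank k (NN (SubAlg k ⊤) i i₀) := finrank_cj hn _ _
      _ ≤ Module.finrank k (NN (SubAlg k ⊤) (cj k G n i₀) i₀) := hle.finrank_left RT_le _
      _ ≤ Module.finrank k (NN (SubAlg k ⊤) i₀ i₀) := finrank_cj_left hn _ _
      _ ≤ Module.finrank k (NN (⊤ : Subalgebra k (MonoidAlgebra k G)) i₀ i₀) :=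
          Submodule.finrank_mono fun x hx => ⟨Algebra.mem_top, hx.2⟩
      _ ≤ C := hdim
  obtain ⟨T, ⟨hHT, i, hi, hei, hie, hbri, hdim⟩, hmin⟩ := wellFounded_lt.has_min P ⟨_, hP⟩
  have hfinT := finite_map χ T
  have hfint := finite_map χ (⊤ : Subgroup G)
  set t := Nat.card (T.map χ) with ht
  have ht0 : 0 < t := Nat.card_pos
  have hF1 : ∀ g ∈ T, χ g ^ t = 1 := by
    intro g hg
    have h1 : (⟨χ g, Subgroup.mem_map_of_mem χ hg⟩ : T.map χ) ^ t = 1 := pow_card_eq_one'
    exact congrArg Subtype.val h1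
  obtain ⟨⟨_, g₀, hg₀, rfl⟩, hgen⟩ := IsCyclic.exists_generator (α := T.map χ)
  have hord : orderOf (χ g₀) = t := by
    have h1 := orderOf_eq_card_of_forall_mem_zpowers hgen
    rw [ht]
    refine Eq.trans ?_ h1
    exact (Subgroup.orderOf_coe (⟨χ g₀, Subgroup.mem_map_of_mem χ hg₀⟩ : T.map χ))
  have hle : ∀ s, 0 < s → s < t → ¬ Le (RT k T Q) (tw (χ ^ s) i) i := by
    intro s hs hst h
    have hker : χ.ker ≤ (χ ^ s).ker := by
      intro g hg
      rw [MonoidHom.mem_ker]
      change χ g ^ s = 1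
      rw [MonoidHom.mem_ker.mp hg, one_pow]
    have hm : ¬ p ∣ Nat.card ((⊤ : Subgroup G).map χ) := not_dvd_map χ ⊤
    obtain ⟨i', hi', hei', hie', hbri', hdim'⟩ := step (m := Nat.card ((⊤ : Subgroup G).map χ)) hQ
      Nat.card_pos hm (ψ := χ ^ s) (by
        ext g
        change ((χ g ^ s) ^ Nat.card ((⊤ : Subgroup G).map χ) : kˣ) = ((1 : kˣ) : k)
        have h1 : (⟨χ g, Subgroup.mem_map_of_mem χ (Subgroup.mem_top g)⟩ :
            (⊤ : Subgroup G).map χ) ^ Nat.card ((⊤ : Subgroup G).map χ) = 1 := pow_card_eq_one'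
        have h2 : χ g ^ Nat.card ((⊤ : Subgroup G).map χ) = 1 := congrArg Subtype.val h1
        rw [← pow_mul, mul_comm, pow_mul, h2, one_pow]) hi (SubAlg_mono hker he.mem.1) hei hie hbri h
    refine hmin (T ⊓ (χ ^ s).ker) ⟨le_inf hHT hker, i', hi', hei', hie', hbri', hdim'.trans hdim⟩ ?_
    refine lt_of_le_of_ne inf_le_left fun h1 => ?_
    have h2 : g₀ ∈ (χ ^ s).ker := (h1.ge hg₀).2
    have h3 : χ g₀ ^ s = 1 := MonoidHom.mem_ker.mp h2
    have h4 := orderOf_dvd_of_pow_eq_one h3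
    rw [hord] at h4
    exact absurd (Nat.le_of_dvd hs h4) (by omega)
  obtain ⟨j, hj, hjj, hej, hbrj, hdimj⟩ := desc_core hQ hQH hHT (hidx T) he haH ha hea hi hei hbri
    ht0 hF1 hle
  exact ⟨j, hj, hjj, hej, hbrj, hdimj.trans (Nat.mul_le_mul_left _ hdim)⟩

/-- **Descent to the kernel of a linear character.** -/
theorem oneBd_ker (χ : G →* kˣ) {H : Subgroup G} (hH : χ.ker = H) {Q : Subgroup H}
    (hQ : IsPGroup p Q) {C : ℕ} (h : OneBd k (Q.map H.subtype) C) :
    OneBd k Q ((Nat.card Q).factorial * C) := by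
  intro e a he ha hea hbr
  have he1 : IsBlockOf H (incl k H e) := by
    rw [isBlockOf_incl_iff]
    rw [← ZAlg_top]
    exact he
  have hcard : Nat.card (Q.map H.subtype) = Nat.card Q :=
    (Nat.card_congr (Q.equivMapOfInjective _ H.subtype_injective).toEquiv).symm
  have ha1 : incl k H a ∈ SubAlg k H := incl_mem H a
  have hQH : Q.map H.subtype ≤ H := by
    rintro _ ⟨x, -, rfl⟩
    exact x.2
  have hea1 : incl k H e = tr (cj k G) (Q.map H.subtype) H (incl k H a) := by
    rw [hea]; exact incl_tr H Q ha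
  obtain ⟨j, hj, hjj, hej, hbrj, hdim⟩ := desc_ex (χ := χ) (Q := Q.map H.subtype) (hQ.map _)
    (by rw [hH]; exact hQH) h (e := incl k H e) (by rw [hH]; exact he1)
    (a := incl k H a) (by rw [hH]; exact ha1) ((incl_mem_Fix_iff H Q a).mpr ha)
    (by rw [hH]; exact hea1) (by
      intro h0
      apply hbr
      apply incl_injective (k := k) H
      rw [Vale.Agent.P180.R2.H365.Src.incl_br, h0, map_zero])
  rw [hH] at hj hdim
  obtain ⟨j', rfl⟩ := exists_incl H hj.2
  refine ⟨j', (incl_mem_Fix_iff H Q j').mp hj.1, ?_, ?_, ?_, ?_⟩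
  · exact incl_injective (k := k) H (by rw [map_mul, hjj])
  · exact incl_injective (k := k) H (by rw [map_mul, hej])
  · intro h0
    apply hbrj
    rw [← Vale.Agent.P180.R2.H365.Src.incl_br, h0, map_zero]
  · rw [hcard] at hdim
    refine (le_of_eq ?_).trans hdim
    exact (Vale.Agent.P180.R2.H799.BN.finrank_NN_incl H j' j').symm

end Vale.Agent.P180.R2.H259.Exp
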