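import Vale.Agent.P180.R2.H259.Exp.DecP
import Vale.Agent.P180.R2.H954.Hc3c
import Vale.Agent.P180.R2.H954.Hc3d
import Vale.Agent.P180.R2.H799.BNL2
import Vale.Agent.P180.R2.H799.BN3

/-!
P180: the stabiliser of a decomposition is the centraliser of a group of exponent `p` if `p` divides
`|K| - 1` and does not divide the dimension.
-/

set_option linter.all false

namespace Vale.Agent.P180.R2.H259.Exp

open Module Vale.Agent.P180.R2.H854 Vale.Agent.P180.R2.H954 Vale.Agent.P180.R2.H954.Hc
  Vale.Agent.P180.R2.H799 Vale.Agent.P180.R2.H799.BN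

variable {K E : Type} [Field K] [AddCommGroup E] [Module K E]

section Def

variable {Q : Subgroup (SpecialLinearGroup K E)}

/-- the elements of exponent `p` which act as scalars on the summands -/
def Zp (p : ℕ) (D : Dec Q) : Subgroup (SpecialLinearGroup K E) where
  carrier := {z | ∃ c : Fin D.r → K, (∀ i, c i ^ p = 1) ∧ ∀ i, toEnd z * D.e i = c i • D.e i}
  one_mem' := ⟨fun _ => 1, fun _ => one_pow p, fun i => by rw [toEnd_one, one_mul, one_smul]⟩
  mul_mem' := by
    rintro x y ⟨c, hc, hx⟩ ⟨d, hd, hy⟩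
    refine ⟨fun i => c i * d i, fun i => by rw [mul_pow, hc, hd, one_mul], fun i => ?_⟩
    rw [toEnd_mul, mul_assoc, hy, mul_smul_comm, hx, smul_smul, mul_comm]
  inv_mem' := by
    rintro x ⟨c, hc, hx⟩
    by_cases hp : p = 0
    · refine ⟨fun i => (c i)⁻¹, fun i => by rw [hp, pow_zero], fun i => ?_⟩
      have hc0 : c i ≠ 0 := by
        intro h0
        apply D.ne i
        have h1 := hx i
        rw [h0, zero_smul] at h1
        rw [← one_mul (D.e i), ← Dec.toEnd_inv_mul x, mul_assoc, h1, mul_zero]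
      have h1 : toEnd x * ((c i)⁻¹ • D.e i) = D.e i := by
        rw [mul_smul_comm, hx, smul_smul, inv_mul_cancel₀ hc0, one_smul]
      conv_lhs => rw [← h1]
      rw [← mul_assoc, Dec.toEnd_inv_mul, one_mul]
    · refine ⟨fun i => (c i)⁻¹, fun i => by rw [inv_pow, hc, inv_one], fun i => ?_⟩
      have hc0 : c i ≠ 0 := by
        intro h0
        have h1 := hc i
        rw [h0, zero_pow hp] at h1
        exact zero_ne_one h1
      have h1 : toEnd x * ((c i)⁻¹ • D.e i) = D.e i := by
        rw [mul_smul_comm, hx, smul_smul, inv_mul_cancel₀ hc0, one_smul]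
      conv_lhs => rw [← h1]
      rw [← mul_assoc, Dec.toEnd_inv_mul, one_mul]

variable {D : Dec Q} {p : ℕ}

theorem scal_pow {x : SpecialLinearGroup K E} {c : K} {i : Fin D.r}
    (h : toEnd x * D.e i = c • D.e i) (m : ℕ) : toEnd (x ^ m) * D.e i = c ^ m • D.e i := by
  induction m with
  | zero => rw [pow_zero, pow_zero, toEnd_one, one_mul, one_smul]
  | succ m ih => rw [pow_succ, toEnd_mul, mul_assoc, h, mul_smul_comm, ih, smul_smul, pow_succ,
      mul_comm]

theorem Zp_pow {z : SpecialLinearGroup K E} (hz : z ∈ Zp p D) : z ^ p = 1 := by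
  obtain ⟨c, hc, h⟩ := hz
  apply toEnd_injective
  apply Dec.ext_e (D := D)
  intro i
  rw [scal_pow (h i), hc, toEnd_one, one_mul, one_smul]

theorem Zp_comm {x y : SpecialLinearGroup K E} (hx : x ∈ Zp p D) (hy : y ∈ Zp p D) :
    x * y = y * x := by
  obtain ⟨c, -, h⟩ := hx
  obtain ⟨d, -, h'⟩ := hy
  apply toEnd_injective
  rw [toEnd_mul, toEnd_mul]
  apply Dec.ext_e (D := D)
  intro i
  rw [mul_assoc, h', mul_smul_comm, h, mul_assoc, h, mul_smul_comm, h', smul_smul, smul_smul,
    mul_comm]

/-- an element which acts as a scalar on each summand commutes with the stabiliser -/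
theorem comm_of_scal {x g : SpecialLinearGroup K E} (h : ∀ i, ∃ c : K, toEnd x * D.e i = c • D.e i)
    (hg : g ∈ D.L) : x * g = g * x := by
  apply toEnd_injective
  rw [toEnd_mul, toEnd_mul]
  apply Dec.ext_e (D := D)
  intro i
  obtain ⟨c, hc⟩ := h i
  rw [mul_assoc, hg i, ← mul_assoc, hc, smul_mul_assoc, mul_assoc, hc, mul_smul_comm, hg i]

end Def

section Cent

variable [FiniteDimensional K E] {Q : Subgroup (SpecialLinearGroup K E)} {D : Dec Q} {p : ℕ}

/-- **The centraliser of `Zp`.** -/
theorem cent_Zp [Finite K] (hp : p.Prime) (hp1 : p ∣ Nat.card K - 1) (hn : ¬ p ∣ finrank K E) :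
    Subgroup.centralizer (Zp p D : Set (SpecialLinearGroup K E)) = D.L := by
  classical
  apply le_antisymm
  · intro g hg i
    have _ := Fintype.ofFinite K
    have _ : Fact p.Prime := ⟨hp⟩
    have hdvd : p ∣ Fintype.card Kˣ := by
      rw [Fintype.card_units, ← Nat.card_eq_fintype_card]
      exact hp1
    obtain ⟨ζ, hζ⟩ := exists_prime_orderOf_dvd_card p hdvd
    have hζp : ζ ^ p = 1 := by
      have := pow_orderOf_eq_one ζ
      rwa [hζ] at this
    have hζ1 : (ζ : K) ≠ 1 := by
      intro h
      have h1 : ζ = 1 := Units.ext h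
      rw [h1, orderOf_one] at hζ
      exact hp.one_lt.ne hζ
    -- the exponent
    set d := finrank K E with hd
    obtain ⟨t, ht⟩ : ∃ t : ℕ, p ∣ t * d + D.n i := by
      have hcop : Nat.Coprime d p := ((Nat.Prime.coprime_iff_not_dvd hp).mpr hn).symm
      have h1 : ((d : ℕ) : ZMod p) ≠ 0 := by
        rw [Ne, CharP.cast_eq_zero_iff (ZMod p) p]
        exact hn
      refine ⟨(-(D.n i : ZMod p) * ((d : ℕ) : ZMod p)⁻¹).val, ?_⟩
      rw [← CharP.cast_eq_zero_iff (ZMod p) p]
      push_cast
      rw [ZMod.natCast_val, ZMod.cast_id', id, mul_assoc, inv_mul_cancel₀ h1]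
      ring
    set c : K := ((ζ ^ t : Kˣ) : K) with hc
    set a : End K E := c • ((ζ : K) • D.e i + (1 - D.e i)) with ha
    have hdet : LinearMap.det a = 1 := by
      rw [ha, LinearMap.det_smul, Dec.det_scalar, ← hd, hc, ← Units.val_pow_eq_pow_val,
        ← Units.val_pow_eq_pow_val, ← Units.val_mul, ← pow_mul, ← pow_add]
      obtain ⟨s, hs⟩ := ht
      rw [hs, pow_mul, hζp, one_pow, Units.val_one]
    have hz : mkSL a hdet ∈ Zp p D := by
      refine ⟨fun j => if j = i then c * ζ else c, fun j => ?_, fun j => ?_⟩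
      · have h1 : c ^ p = 1 := by
          rw [hc, ← Units.val_pow_eq_pow_val, ← pow_mul, mul_comm, pow_mul, hζp, one_pow,
            Units.val_one]
        change (if j = i then c * (ζ : K) else c) ^ p = 1
        split_ifs
        · rw [mul_pow, h1, one_mul, ← Units.val_pow_eq_pow_val, hζp, Units.val_one]
        · exact h1
      · rw [toEnd_mkSL, ha]
        change _ = (if j = i then c * (ζ : K) else c) • D.e j
        split_ifs with h
        · subst h
          rw [smul_mul_assoc, add_mul, smul_mul_assoc, sub_mul, one_mul, D.idem, sub_self,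
            add_zero, smul_smul]
        · rw [smul_mul_assoc, add_mul, smul_mul_assoc, sub_mul, one_mul, D.orth i j (Ne.symm h),
            smul_zero, zero_add, sub_zero]
    have h1 := Subgroup.mem_centralizer_iff.mp hg _ hz
    have h2 := congrArg (toEnd (K := K) (E := E)) h1
    rw [toEnd_mul, toEnd_mul, toEnd_mkSL, ha, smul_mul_assoc, mul_smul_comm] at h2
    have hc0 : c ≠ 0 := Units.ne_zero _
    have h3 := smul_right_injective (End K E) hc0 h2
    simp only [add_mul, mul_add, sub_mul, mul_sub, one_mul, mul_one, smul_mul_assoc,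
      mul_smul_comm] at h3
    have h4 : ((ζ : K) - 1) • (toEnd g * D.e i) = ((ζ : K) - 1) • (D.e i * toEnd g) := by
      rw [sub_smul, sub_smul, one_smul, one_smul]
      have h5 : (ζ : K) • (D.e i * toEnd g) - D.e i * toEnd g + toEnd g =
          (ζ : K) • (toEnd g * D.e i) - toEnd g * D.e i + toEnd g := by
        have e1 : (ζ : K) • (D.e i * toEnd g) - D.e i * toEnd g + toEnd g =
          (ζ : K) • (D.e i * toEnd g) + (toEnd g - D.e i * toEnd g) := by abel
        have e2 : (ζ : K) • (toEnd g * D.e i) - toEnd g * D.e i + toEnd g =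
          (ζ : K) • (toEnd g * D.e i) + (toEnd g - toEnd g * D.e i) := by abel
        rw [e1, e2]
        exact h3
      exact (add_right_cancel h5).symm
    exact smul_right_injective (End K E) (sub_ne_zero.mpr hζ1) h4
  · intro g hg
    rw [Subgroup.mem_centralizer_iff]
    rintro z ⟨c, -, hz⟩
    exact comm_of_scal (fun i => ⟨c i, hz i⟩) hg

/-- the Levi property for the flag of the decomposition -/
theorem lv_Zp [Finite K] (hp : p.Prime) (hp1 : p ∣ Nat.card K - 1) (hn : ¬ p ∣ finrank K E)
    [Finite (SpecialLinearGroup K E)] : Lv (VF D.flag) (Zp p D) := by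
  have hNU : Subgroup.normalizer ((VF D.flag : Subgroup (SpecialLinearGroup K E)) : Set _) =
      PF D.flag := normalizer_VF _
  refine lv_of_pair ⟨?_, ?_⟩
  · rw [cent_Zp hp hp1 hn]
    exact Dec.VF_inf_L
  · rw [cent_Zp hp hp1 hn, hNU]
    exact Dec.VF_sup_L

end Cent

end Vale.Agent.P180.R2.H259.Exp
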