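import Vale.Agent.P180.R2.H259.Exp.LevD
import Vale.Agent.P180.R2.H259.Exp.ZLev
import Vale.Agent.P180.R2.H799.BV2

/-!
P180: **one small idempotent for the blocks of the special linear groups in unbounded dimension**,
for abelian defect groups, if `p` divides `|K| - 1` and does not divide the dimension.
-/

set_option linter.all false

namespace Vale.Agent.P180.R2.H259.Exp

open Module Vale.Agent.P180 Vale.Agent.P180.H768.Gd Vale.Agent.P180.R2.H799
  Vale.Agent.P180.R2.H799.BN
  Vale.Agent.P180.R2.H854 Vale.Agent.P180.R2.H954 Vale.Agent.P180.R2.H954.Hc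
open Vale.Agent.P180.R2.H471.Hc (OneBd)
open Vale.Agent.P180.R2.H259.Cyc (cycB cycB_mono)

universe u

/-- the bound -/
noncomputable def expB (p n : ℕ) : ℕ := n.factorial * (levB p n n * levB p n n)

theorem levB_mono {p n n' r r' : ℕ} (hn : 0 < n) (h : n ≤ n') (hr : r ≤ r') :
    levB p n r ≤ levB p n' r' := by
  unfold levB
  have hn' : 0 < n' := lt_of_lt_of_le hn h
  have h1 : n ^ r ≤ n' ^ r' :=
    (Nat.pow_le_pow_left h r).trans (Nat.pow_le_pow_right hn' hr)
  have h2 : (max 1 (cycB p n)) ^ r ≤ (max 1 (cycB p n')) ^ r' :=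
    (Nat.pow_le_pow_left (max_le_max le_rfl (cycB_mono h)) r).trans
      (Nat.pow_le_pow_right (lt_of_lt_of_le Nat.one_pos (le_max_left _ _)) hr)
  exact Nat.mul_le_mul (Nat.factorial_le h) (Nat.mul_le_mul h1
    (Nat.pow_le_pow_left (Nat.mul_le_mul h h2) 2))

theorem expB_mono {p n n' : ℕ} (h : n ≤ n') : expB p n ≤ expB p n' := by
  rcases Nat.eq_zero_or_pos n with h0 | h0
  · subst h0
    have h1 : levB p 0 0 = 0 := by
      unfold levB
      simp
    unfold expB
    rw [h1, Nat.mul_zero]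
    exact Nat.zero_le _
  · unfold expB
    exact Nat.mul_le_mul (Nat.factorial_le h)
      (Nat.mul_le_mul (levB_mono h0 h h) (levB_mono h0 h h))

/-- **The special linear groups**: a small idempotent for the blocks with an abelian defect group,
without a bound for the dimension. -/
theorem oneBd_slE {k : Type u} [Field k] [IsAlgClosed k] {p : ℕ} [Fact p.Prime] [CharP k p]
    {K E : Type} [Field K] [Finite K] [AddCommGroup E] [Module K E] [FiniteDimensional K E]
    [Finite (SpecialLinearGroup K E)] (hpK : ¬ p ∣ Nat.card K) (hp1 : p ∣ Nat.card K - 1)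
    (hn : ¬ p ∣ finrank K E) {n : ℕ} {Q : Subgroup (SpecialLinearGroup K E)} (hQ : IsPGroup p Q)
    (hQn : Nat.card Q ≤ n) (hab : ∀ x ∈ Q, ∀ y ∈ Q, x * y = y * x) : OneBd k Q (expB p n) := by
  classical
  have hp : p.Prime := Fact.out
  obtain ⟨l, hl⟩ := IsPGroup.iff_card.mp hQ
  have hcop : (Nat.card K).Coprime (Nat.card Q) := by
    rw [hl]
    exact (Nat.Coprime.pow_left l ((Nat.Prime.coprime_iff_not_dvd hp).mpr hpK)).symm
  obtain ⟨D, hDr, hDp⟩ := exists_decP hp hp1 Q hcop hab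
  have hCe : Ce (Zp p D) = D.L := cent_Zp hp hp1 hn
  have hZ : IsPGroup p (Zp p D) := fun z => ⟨1, Subtype.ext (by
    rw [pow_one]; exact Zp_pow z.2)⟩
  have hLev : OneBd k (Q.subgroupOf (Ce (Zp p D))) (levB p n D.r) := by
    rw [hCe]
    exact oneBd_lev hQ hQn hab D
  have h1 := oneBd_hc (slSys K E p hp hpK) (leviP_sl hp hpK hp1 hn) (V := VF D.flag) ⟨_, rfl⟩
    (lv_Zp hp hp1 hn) hZ (fun x hx y hy => Zp_comm hx hy) hQ
    (by rw [hCe]; exact D.Q_le hab) (by rw [hCe]; exact D.cent_le)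
    (fun x hx hxp l hl => comm_of_scal (hDp x hx hxp) (by rw [← hCe]; exact hl)) hLev
  intro e x he hx hex hbr
  obtain ⟨i, g1, g2, g3, g4, g5⟩ := h1 e x he hx hex hbr
  refine ⟨i, g1, g2, g3, g4, g5.trans ?_⟩
  have hn0 : 0 < n := lt_of_lt_of_le Nat.card_pos hQn
  have hr : D.r ≤ n := hDr.trans hQn
  unfold expB
  exact Nat.mul_le_mul (Nat.factorial_le hQn)
    (Nat.mul_le_mul (levB_mono hn0 le_rfl hr) (levB_mono hn0 le_rfl hr))

end Vale.Agent.P180.R2.H259.Exp
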