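import Vale.Agent.P180.R2.H954.Hc3b
import Vale.Agent.P180.R2.H471.He4

/-!
P180: the stabiliser of a decomposition in the general linear group.
-/

set_option linter.all false

namespace Vale.Agent.P180.R2.H259.Exp

open Module Vale.Agent.P180.R2.H854 Vale.Agent.P180.R2.H954 Vale.Agent.P180.R2.H954.Hc
  Vale.Agent.P180.R2.H471.He

variable {K E : Type} [Field K] [AddCommGroup E] [Module K E]

section Cp

variable {Q : Subgroup (SpecialLinearGroup K E)}

/-- the component of an endomorphism on a set of summands -/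
noncomputable def cpE (D : Dec Q) (s : Finset (Fin D.r)) (x : End K E) : End K E :=
  x * D.es s + (1 - D.es s)

variable {D : Dec Q}

/-- `x` stabilises the decomposition -/
def St (D : Dec Q) (x : End K E) : Prop := ∀ i, x * D.e i = D.e i * x

theorem St.mul {x y : End K E} (hx : St D x) (hy : St D y) : St D (x * y) := fun i => by
  rw [mul_assoc, hy i, ← mul_assoc, hx i, mul_assoc]

theorem St.one : St D (1 : End K E) := fun i => by rw [one_mul, mul_one]

theorem St.inv {x : (End K E)ˣ} (hx : St D (x : End K E)) : St D ((x⁻¹ : (End K E)ˣ) : End K E) := by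
  intro i
  calc ((x⁻¹ : (End K E)ˣ) : End K E) * D.e i
      = ((x⁻¹ : (End K E)ˣ) : End K E) * (D.e i * x) * ((x⁻¹ : (End K E)ˣ) : End K E) := by
        rw [mul_assoc, mul_assoc, Units.mul_inv, mul_one]
    _ = D.e i * ((x⁻¹ : (End K E)ˣ) : End K E) := by
        rw [← hx i, ← mul_assoc, Units.inv_mul, one_mul]

theorem St.es {x : End K E} (hx : St D x) (s : Finset (Fin D.r)) : x * D.es s = D.es s * x := by
  rw [Dec.es, Finset.mul_sum, Finset.sum_mul]
  exact Finset.sum_congr rfl fun i _ => hx i

theorem cpE_toEnd (s : Finset (Fin D.r)) (g : SpecialLinearGroup K E) :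
    cpE D s (toEnd g) = D.cp s g := rfl

theorem cpE_mul {s : Finset (Fin D.r)} {x y : End K E} (hx : St D x) (hy : St D y) :
    cpE D s (x * y) = cpE D s x * cpE D s y := by
  have h1 := Dec.es_idem (D := D) s
  have h2 := hy.es s
  have h3 := hx.es s
  have e1 : x * D.es s * (y * D.es s) = x * y * D.es s := by
    calc x * D.es s * (y * D.es s) = x * (D.es s * y) * D.es s := by
          simp only [mul_assoc]
      _ = x * y * (D.es s * D.es s) := by rw [← h2]; simp only [mul_assoc]
      _ = _ := by rw [h1]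
  have e2 : x * D.es s * (1 - D.es s) = 0 := by
    rw [mul_sub, mul_one, mul_assoc, h1, sub_self]
  have e3 : (1 - D.es s) * (y * D.es s) = 0 := by
    rw [h2, ← mul_assoc, sub_mul, one_mul, h1, sub_self, zero_mul]
  have e4 : (1 - D.es s) * (1 - D.es s) = 1 - D.es s := by
    rw [mul_sub, mul_one, sub_mul, one_mul, h1, sub_self, sub_zero]
  rw [cpE, cpE, cpE, add_mul, mul_add, mul_add, e1, e2, e3, e4, add_zero, zero_add]

theorem cpE_one (s : Finset (Fin D.r)) : cpE D s 1 = 1 := by
  rw [cpE, one_mul, add_sub_cancel]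

theorem cpE_univ (x : End K E) : cpE D Finset.univ x = x := by
  rw [cpE, Dec.es_univ, mul_one, sub_self, add_zero]

theorem cpE_empty (x : End K E) : cpE D ∅ x = 1 := by
  rw [cpE, Dec.es, Finset.sum_empty, mul_zero, zero_add, sub_zero]

theorem cpE_insert {s : Finset (Fin D.r)} {i : Fin D.r} (hi : i ∉ s) {x : End K E}
    (hx : St D x) : cpE D (insert i s) x = cpE D {i} x * cpE D s x := by
  have h1 : D.es (insert i s) = D.e i + D.es s := Finset.sum_insert hi
  have h2 : D.e i * D.es s = 0 := Dec.e_mul_es_of_notMem hi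
  have h3 : D.es s * D.e i = 0 := Dec.es_mul_e_of_notMem hi
  have h4 := hx.es s
  have e1 : x * D.e i * (x * D.es s) = 0 := by
    rw [h4, ← mul_assoc, mul_assoc x, h2, mul_zero, zero_mul]
  have e2 : x * D.e i * (1 - D.es s) = x * D.e i := by
    rw [mul_sub, mul_one, mul_assoc, h2, mul_zero, sub_zero]
  have e3 : (1 - D.e i) * (x * D.es s) = x * D.es s := by
    rw [sub_mul, one_mul, h4, ← mul_assoc, h2, zero_mul, sub_zero]
  have e4 : (1 - D.e i) * (1 - D.es s) = 1 - D.e i - D.es s := by
    rw [mul_sub, mul_one, sub_mul, one_mul, h2, sub_zero]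
  have e5 : cpE D {i} x * cpE D s x = x * D.e i * (x * D.es s) +
      x * D.e i * (1 - D.es s) + ((1 - D.e i) * (x * D.es s) +
        (1 - D.e i) * (1 - D.es s)) := by
    rw [cpE, cpE, Dec.es_singleton, add_mul, mul_add, mul_add]
  rw [e5, e1, e2, e3, e4, cpE, h1, mul_add]
  abel

theorem cpE_St {s : Finset (Fin D.r)} {x : End K E} (hx : St D x) : St D (cpE D s x) := by
  intro j
  have h1 : D.es s * D.e j = D.e j * D.es s := by
    by_cases hj : j ∈ s
    · rw [Dec.e_mul_es_of_mem hj, Dec.es, Finset.sum_mul, Finset.sum_eq_single j]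
      · exact D.idem j
      · intro l _ hl
        exact D.orth l j hl
      · intro h; exact absurd hj h
    · rw [Dec.e_mul_es_of_notMem hj, Dec.es_mul_e_of_notMem hj]
  have h2 : D.e j * (x * D.es s) = x * (D.es s * D.e j) := by
    rw [← mul_assoc, ← hx j, mul_assoc, h1]
  rw [cpE, add_mul, mul_add, mul_assoc, h2, sub_mul, mul_sub, h1, one_mul, mul_one]

/-- the component of a unit -/
theorem cpE_unit {s : Finset (Fin D.r)} {x : (End K E)ˣ} (hx : St D (x : End K E)) :
    ∃ y : (End K E)ˣ, (y : End K E) = cpE D s (x : End K E) :=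
  ⟨⟨cpE D s x, cpE D s ((x⁻¹ : (End K E)ˣ) : End K E),
    by rw [← cpE_mul hx hx.inv, Units.mul_inv, cpE_one],
    by rw [← cpE_mul hx.inv hx, Units.inv_mul, cpE_one]⟩, rfl⟩

variable (D) in
/-- the elements which are trivial outside of a summand -/
def AU (i : Fin D.r) : Subgroup (End K E)ˣ where
  carrier := {g | St D (g : End K E) ∧ ∀ j, j ≠ i → (g : End K E) * D.e j = D.e j}
  one_mem' := ⟨by rw [Units.val_one]; exact St.one, fun j _ => by rw [Units.val_one, one_mul]⟩
  mul_mem' := by
    rintro g h ⟨hg, hg'⟩ ⟨hh, hh'⟩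
    refine ⟨by rw [Units.val_mul]; exact hg.mul hh, fun j hj => ?_⟩
    rw [Units.val_mul, mul_assoc, hh' j hj, hg' j hj]
  inv_mem' := by
    rintro g ⟨hg, hg'⟩
    refine ⟨hg.inv, fun j hj => ?_⟩
    conv_lhs => rw [← hg' j hj, ← mul_assoc, Units.inv_mul, one_mul]

theorem cpE_of_mem_AU {i : Fin D.r} {g : (End K E)ˣ} (hg : g ∈ AU D i) :
    cpE D {i} (g : End K E) = g := by
  apply Dec.ext_e (D := D)
  intro l
  rw [cpE, Dec.es_singleton, add_mul, mul_assoc, sub_mul, one_mul]
  by_cases hl : l = i
  · subst hl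
    rw [D.idem, sub_self, add_zero]
  · rw [D.orth i l (Ne.symm hl), mul_zero, zero_add, sub_zero, hg.2 l hl]

theorem AU_conj {i : Fin D.r} {g h : (End K E)ˣ} (hg : St D (g : End K E)) (hh : h ∈ AU D i) :
    g * h * g⁻¹ ∈ AU D i := by
  refine ⟨?_, fun j hj => ?_⟩
  · rw [Units.val_mul, Units.val_mul]
    exact (hg.mul hh.1).mul hg.inv
  · rw [Units.val_mul, Units.val_mul, mul_assoc, hg.inv j, mul_assoc, ← mul_assoc (h : End K E),
      hh.2 j hj, ← hg.inv j, ← mul_assoc, Units.mul_inv, one_mul]

theorem AU_comm {i j : Fin D.r} (hij : i ≠ j) {g h : (End K E)ˣ} (hg : g ∈ AU D i)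
    (hh : h ∈ AU D j) : g * h = h * g := by
  apply Units.ext
  rw [Units.val_mul, Units.val_mul]
  apply Dec.ext_e (D := D)
  intro l
  by_cases hl : l = i
  · subst hl
    have h1 : (h : End K E) * D.e l = D.e l := hh.2 l hij
    calc (g : End K E) * h * D.e l = g * D.e l := by rw [mul_assoc, h1]
      _ = D.e l * g := hg.1 l
      _ = h * D.e l * g := by rw [h1]
      _ = _ := by rw [mul_assoc, ← hg.1 l, mul_assoc]
  · have h1 : (g : End K E) * D.e l = D.e l := hg.2 l hl
    calc (g : End K E) * h * D.e l = g * (D.e l * h) := by rw [mul_assoc, hh.1 l]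
      _ = D.e l * h := by rw [← mul_assoc, h1]
      _ = h * (g * D.e l) := by rw [h1, hh.1 l]
      _ = _ := by rw [mul_assoc]

theorem AU_inf {i j : Fin D.r} (hij : i ≠ j) {g : (End K E)ˣ} (hg : g ∈ AU D i)
    (hh : g ∈ AU D j) : g = 1 := by
  apply Units.ext
  rw [Units.val_one]
  apply Dec.ext_e (D := D)
  intro l
  rw [one_mul]
  by_cases hl : l = i
  · subst hl
    exact hh.2 l hij
  · exact hg.2 l hl

/-- the special linear group in the units of the endomorphism ring -/
def slu (K E : Type) [Field K] [AddCommGroup E] [Module K E] :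
    SpecialLinearGroup K E →* (End K E)ˣ :=
  MonoidHom.toHomUnits
    { toFun := fun g => toEnd g
      map_one' := toEnd_one
      map_mul' := fun x y => toEnd_mul x y }

theorem slu_val (g : SpecialLinearGroup K E) : ((slu K E g : (End K E)ˣ) : End K E) = toEnd g := rfl

theorem slu_injective : Function.Injective (slu K E) := fun x y h =>
  toEnd_injective (congrArg Units.val h)

/-- **The action on the summands is cyclic.** -/
theorem cycOn_AU (D : Dec Q) (hQ : ∀ q ∈ Q, St D (toEnd q)) (i : Fin D.r) :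
    CycOn (Q.map (slu K E)) (AU D i) := by
  classical
  have hSt : ∀ x ∈ Q.map (slu K E), St D (x : End K E) := by
    rintro _ ⟨q, hq, rfl⟩
    exact hQ q hq
  let ρ₀ : Q.map (slu K E) →* End K E :=
    { toFun := fun q => cpE D {i} ((q : (End K E)ˣ) : End K E)
      map_one' := cpE_one _
      map_mul' := fun x y => by
        rw [← cpE_mul (hSt x x.2) (hSt y y.2)]
        rfl }
  refine ⟨(End K E)ˣ, inferInstance, (AU D i).subtype, ρ₀.toHomUnits, Subtype.val_injective, ?_, ?_,
    ?_⟩
  · obtain ⟨F, _, _, χ, hχ⟩ := D.cyc i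
    let f : Q →* Q.map (slu K E) := (slu K E).subgroupMap Q
    have hf : Function.Surjective f := (slu K E).subgroupMap_surjective Q
    have hker : (ρ₀.toHomUnits.comp f).ker = χ.ker := by
      ext q
      rw [MonoidHom.mem_ker, MonoidHom.mem_ker, hχ]
      constructor
      · intro h
        have h1 : D.cp {i} (q : SpecialLinearGroup K E) = 1 := congrArg Units.val h
        rw [Dec.cp, Dec.es_singleton] at h1
        have h2 := congrArg (fun a : End K E => a * D.e i) h1
        simp only [add_mul, sub_mul, one_mul, mul_assoc, D.idem, sub_self, add_zero] at h2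
        exact h2
      · intro h
        apply Units.ext
        change D.cp {i} (q : SpecialLinearGroup K E) = 1
        rw [Dec.cp, Dec.es_singleton, h, add_sub_cancel]
    let e1 : (ρ₀.toHomUnits.comp f).range ≃* χ.range :=
      (QuotientGroup.quotientKerEquivRange _).symm.trans
        ((QuotientGroup.quotientMulEquivOfEq hker).trans (QuotientGroup.quotientKerEquivRange _))
    have h1 : IsCyclic χ.range := inferInstance
    have h2 : IsCyclic (ρ₀.toHomUnits.comp f).range :=
      isCyclic_of_surjective e1.symm e1.symm.surjective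
    have h3 : (ρ₀.toHomUnits.comp f).range = ρ₀.toHomUnits.range := by
      ext x
      constructor
      · rintro ⟨q, rfl⟩
        exact ⟨f q, rfl⟩
      · rintro ⟨q, rfl⟩
        obtain ⟨q', rfl⟩ := hf q
        exact ⟨q', rfl⟩
    rw [← h3]
    exact h2
  · intro r s s' hs
    rw [eq_mul_inv_iff_mul_eq]
    apply Units.ext
    change ((s' : (End K E)ˣ) : End K E) * cpE D {i} ((r : (End K E)ˣ) : End K E) =
      cpE D {i} ((r : (End K E)ˣ) : End K E) * ((s : (End K E)ˣ) : End K E)
    rw [← cpE_of_mem_AU s'.2, ← cpE_of_mem_AU s.2, ← cpE_mul s'.2.1 (hSt r r.2),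
      ← cpE_mul (hSt r r.2) s.2.1, hs, ← Units.val_mul, ← Units.val_mul, inv_mul_cancel_right]
  · intro x hA hx
    apply Units.ext
    change (x : End K E) = cpE D {i} (x : End K E)
    rw [cpE_of_mem_AU hA]

end Cp

end Vale.Agent.P180.R2.H259.Exp
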