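import Vale.Agent.P180.R2.H259.Exp.LevA
import Vale.Agent.P180.R2.H954.Hc3c

/-!
P180: the index of the product of the general linear groups of the summands; a large central
element.
-/

set_option linter.all false

namespace Vale.Agent.P180.R2.H259.Exp

open Module Vale.Agent.P180.R2.H854 Vale.Agent.P180.R2.H954 Vale.Agent.P180.R2.H954.Hc
  Vale.Agent.P180.R2.H471.He

variable {K E : Type} [Field K] [AddCommGroup E] [Module K E]
variable {Q : Subgroup (SpecialLinearGroup K E)}

/-- the stabiliser of the decomposition in the general linear group, with a condition for the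
determinant -/
noncomputable def LG (D : Dec Q) (m : ℕ) : Subgroup (End K E)ˣ where
  carrier := {g | St D (g : End K E) ∧ LinearMap.det (g : End K E) ^ m = 1}
  one_mem' := ⟨by rw [Units.val_one]; exact St.one, by rw [Units.val_one, map_one, one_pow]⟩
  mul_mem' := by
    rintro g h ⟨hg, hg'⟩ ⟨hh, hh'⟩
    refine ⟨by rw [Units.val_mul]; exact hg.mul hh, ?_⟩
    rw [Units.val_mul, map_mul, mul_pow, hg', hh', one_mul]
  inv_mem' := by
    rintro g ⟨hg, hg'⟩
    refine ⟨hg.inv, ?_⟩
    have h1 : LinearMap.det (g : End K E) * LinearMap.det ((g⁻¹ : (End K E)ˣ) : End K E) = 1 := by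
      rw [← map_mul, Units.mul_inv, map_one]
    have h2 := congrArg (fun x => x ^ m) h1
    simp only [mul_pow, hg', one_mul, one_pow] at h2
    exact h2

variable {D : Dec Q} {m : ℕ}

/-- the general linear group of a summand, with a condition for the determinant -/
noncomputable def AL (D : Dec Q) (m : ℕ) (i : Fin D.r) : Subgroup (LG D m) :=
  (AU D i).subgroupOf (LG D m)

theorem mem_AL {i : Fin D.r} {g : LG D m} : g ∈ AL D m i ↔ (g : (End K E)ˣ) ∈ AU D i := Iff.rfl

theorem mem_iSup_AL {g : LG D m}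
    (h : ∀ i, LinearMap.det (cpE D {i} (((g : (End K E)ˣ) : End K E))) ^ m = 1) :
    g ∈ ⨆ i, AL D m i := by
  classical
  have hg := g.2.1
  have key : ∀ s : Finset (Fin D.r), ∃ x ∈ ⨆ i, AL D m i,
      (((x : LG D m) : (End K E)ˣ) : End K E) = cpE D s ((g : (End K E)ˣ) : End K E) := by
    intro s
    induction s using Finset.induction_on with
    | empty => exact ⟨1, Subgroup.one_mem _, by rw [cpE_empty]; rfl⟩
    | insert i s hi ih =>
      obtain ⟨x, hx, hxs⟩ := ih
      obtain ⟨y, hy⟩ := cpE_unit (s := {i}) hg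
      have hySt : St D (y : End K E) := by rw [hy]; exact cpE_St hg
      have hyL : y ∈ LG D m := ⟨hySt, by rw [hy]; exact h i⟩
      have hyA : y ∈ AU D i := by
        refine ⟨hySt, fun j hj => ?_⟩
        rw [hy, cpE, Dec.es_singleton, add_mul, mul_assoc, D.orth i j hj.symm, mul_zero, zero_add,
          sub_mul, D.orth i j hj.symm, one_mul, sub_zero]
      refine ⟨⟨y, hyL⟩ * x, Subgroup.mul_mem _ (Subgroup.mem_iSup_of_mem i (show
        (⟨y, hyL⟩ : LG D m) ∈ AL D m i from hyA)) hx, ?_⟩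
      rw [Subgroup.coe_mul, Units.val_mul, hxs, cpE_insert hi hg, ← hy]
  obtain ⟨x, hx, hxs⟩ := key Finset.univ
  rw [cpE_univ] at hxs
  have h1 : x = g := Subtype.ext (Units.ext hxs)
  rwa [← h1]

/-- the determinants of the components -/
noncomputable def dG (D : Dec Q) (m : ℕ) : LG D m →* (Fin D.r → Kˣ) where
  toFun g := fun i => Units.mk0 (LinearMap.det (cpE D {i} (((g : (End K E)ˣ) : End K E)))) (by
    obtain ⟨y, hy⟩ := cpE_unit (s := {i}) g.2.1
    intro h0
    have h1 : LinearMap.det (y : End K E) * LinearMap.det ((y⁻¹ : (End K E)ˣ) : End K E) = 1 := by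
      rw [← map_mul, Units.mul_inv, map_one]
    rw [hy, h0, zero_mul] at h1
    exact zero_ne_one h1)
  map_one' := by
    funext i
    apply Units.ext
    change LinearMap.det (cpE D {i} 1) = 1
    rw [cpE_one, map_one]
  map_mul' g h := by
    funext i
    apply Units.ext
    change LinearMap.det (cpE D {i} (((g : (End K E)ˣ) : End K E) *
      ((h : (End K E)ˣ) : End K E))) = _
    rw [cpE_mul g.2.1 h.2.1, map_mul]
    rfl

/-- an element whose determinants have order dividing `m` -/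
theorem mem_iSup_of_dG {g : LG D m} (h : (dG D m g) ^ m = 1) : g ∈ ⨆ i, AL D m i := by
  refine mem_iSup_AL fun i => ?_
  have h1 := congrArg Units.val (congrFun h i)
  exact h1

/-- commutators -/
theorem comm_mem_iSup {g h : LG D m} : g * h * g⁻¹ * h⁻¹ ∈ ⨆ i, AL D m i := by
  apply mem_iSup_of_dG
  rw [map_mul, map_mul, map_mul, map_inv, map_inv, mul_comm (dG D m g) (dG D m h),
    mul_inv_cancel_right, mul_inv_cancel, one_pow]

/-- **The index of the product of the general linear groups.** -/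
theorem index_AL [Finite K] {q' : ℕ} (hq : Nat.card K - 1 = q' * m) (hq0 : 0 < q')
    [Finite (End K E)ˣ] : (⨆ i, AL D m i).index ≤ q' ^ D.r := by
  classical
  have _ := Fintype.ofFinite K
  have hne : NeZero q' := ⟨hq0.ne'⟩
  let f : LG D m →* (Fin D.r → Kˣ) := (powMonoidHom m).comp (dG D m)
  have hker : f.ker ≤ ⨆ i, AL D m i := by
    intro g hg
    exact mem_iSup_of_dG (MonoidHom.mem_ker.mp hg)
  have h1 : (⨆ i, AL D m i).index ≤ f.ker.index :=
    Nat.le_of_dvd (Nat.pos_of_ne_zero Subgroup.index_ne_zero_of_finite)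
      (Subgroup.index_dvd_of_le hker)
  rw [Subgroup.index_ker] at h1
  refine h1.trans ?_
  have hroot : ∀ (g : LG D m) (i : Fin D.r), f g i ∈ rootsOfUnity q' K := by
    intro g i
    rw [mem_rootsOfUnity]
    change ((dG D m g i) ^ m) ^ q' = 1
    rw [← pow_mul, mul_comm, ← hq, ← Nat.card_units, pow_card_eq_one']
  have h2 : Nat.card f.range ≤ Nat.card (Fin D.r → rootsOfUnity q' K) := by
    refine Nat.card_le_card_of_injective (fun x : f.range => fun i =>
      (⟨x.1 i, by obtain ⟨g, hg⟩ := x.2; rw [← hg]; exact hroot g i⟩ : rootsOfUnity q' K)) ?_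
    intro x y hxy
    apply Subtype.ext
    funext i
    exact congrArg Subtype.val (congrFun hxy i)
  refine h2.trans ?_
  rw [Nat.card_pi, Finset.prod_const, Finset.card_univ, Fintype.card_fin]
  exact Nat.pow_le_pow_left (card_rootsOfUnity K q') _

/-- a single summand -/
theorem iSup_AL_top (hr : D.r ≤ 1) : ⨆ i, AL D m i = ⊤ := by
  classical
  rw [eq_top_iff]
  intro g _
  apply mem_iSup_AL
  intro i
  have h1 : ({i} : Finset (Fin D.r)) = Finset.univ := by
    ext j
    rw [Finset.mem_singleton]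
    refine ⟨fun _ => Finset.mem_univ j, fun _ => Fin.ext ?_⟩
    have h2 := i.2
    have h3 := j.2
    omega
  rw [h1, cpE_univ]
  exact g.2.2

section Big

variable [FiniteDimensional K E]

/-- **A large central element.** -/
theorem exists_big (hr : 2 ≤ D.r) (ω : Kˣ) : ∃ c : D.scd.ker, orderOf ω ∣ orderOf (D.scH c) ∧
    (D.scH c) ^ orderOf ω = 1 := by
  classical
  let i₀ : Fin D.r := ⟨0, by omega⟩
  let i₁ : Fin D.r := ⟨1, by omega⟩
  have hne : i₀ ≠ i₁ := fun h => by
    exact Nat.zero_ne_one (congrArg Fin.val h)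
  set g := Nat.gcd (D.n i₀) (D.n i₁) with hg
  have hg0 : 0 < g := Nat.gcd_pos_of_pos_left _ (Dec.n_pos i₀)
  obtain ⟨a, ha⟩ : g ∣ D.n i₀ := Nat.gcd_dvd_left _ _
  obtain ⟨b, hb⟩ : g ∣ D.n i₁ := Nat.gcd_dvd_right _ _
  have hcop : Nat.Coprime a b := by
    have h1 := Nat.coprime_div_gcd_div_gcd (m := D.n i₀) (n := D.n i₁) hg0
    rw [← hg] at h1
    rwa [ha, hb, Nat.mul_div_cancel_left _ hg0, Nat.mul_div_cancel_left _ hg0] at h1
  let c : Fin D.r → Kˣ := fun i => if i = i₀ then ω ^ b else if i = i₁ then (ω ^ a)⁻¹ else 1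
  have hc0 : c i₀ = ω ^ b := if_pos rfl
  have hc1 : c i₁ = (ω ^ a)⁻¹ := by
    change (if i₁ = i₀ then _ else if i₁ = i₁ then _ else _) = _
    rw [if_neg hne.symm, if_pos rfl]
  have hc : c ∈ D.scd.ker := by
    rw [MonoidHom.mem_ker]
    change ∏ i, c i ^ D.n i = 1
    rw [Finset.prod_eq_mul i₀ i₁ hne]
    · rw [hc0, hc1, ha, hb, inv_pow, ← pow_mul, ← pow_mul, mul_comm g a, mul_comm g b,
        ← mul_assoc, ← mul_assoc, mul_comm b a, mul_inv_cancel]
    · rintro i - ⟨h0, h1⟩
      have h2 : c i = 1 := by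
        change (if i = i₀ then _ else if i = i₁ then _ else _) = _
        rw [if_neg h0, if_neg h1]
      rw [h2, one_pow]
    · intro h; exact absurd (Finset.mem_univ _) h
    · intro h; exact absurd (Finset.mem_univ _) h
  refine ⟨⟨c, hc⟩, ?_, ?_⟩
  · have h1 : (D.scH ⟨c, hc⟩) ^ orderOf (D.scH ⟨c, hc⟩) = 1 := pow_orderOf_eq_one _
    rw [← map_pow] at h1
    have h2 := congrArg (toEnd (K := K) (E := E)) h1
    have h3 : ∀ i, (c i) ^ orderOf (D.scH ⟨c, hc⟩) = 1 := by
      intro i
      have h4 := congrArg (fun x => x * D.e i) h2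
      have h5 : toEnd (D.scH ((⟨c, hc⟩ : D.scd.ker) ^ orderOf (D.scH ⟨c, hc⟩))) =
          D.sc Finset.univ fun i => (((⟨c, hc⟩ : D.scd.ker) ^ orderOf (D.scH ⟨c, hc⟩)).1 i : K) :=
        toEnd_mkSL _ (Dec.det_of_mem ((⟨c, hc⟩ : D.scd.ker) ^ orderOf (D.scH ⟨c, hc⟩)).2)
      change toEnd (D.scH ((⟨c, hc⟩ : D.scd.ker) ^ orderOf (D.scH ⟨c, hc⟩))) * D.e i =
        toEnd 1 * D.e i at h4
      rw [h5, Dec.sc_mul_e, toEnd_one, one_mul] at h4
      have h6 : ((((⟨c, hc⟩ : D.scd.ker) ^ orderOf (D.scH ⟨c, hc⟩)).1 i : Kˣ) : K) = 1 := by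
        have h7 : (((((⟨c, hc⟩ : D.scd.ker) ^ orderOf (D.scH ⟨c, hc⟩)).1 i : Kˣ) : K) - 1) •
            D.e i = 0 := by rw [sub_smul, h4, one_smul, sub_self]
        exact sub_eq_zero.mp ((smul_eq_zero.mp h7).resolve_right (D.ne i))
      exact Units.ext h6
    have h4 : orderOf ω ∣ b * orderOf (D.scH ⟨c, hc⟩) := by
      apply orderOf_dvd_of_pow_eq_one
      rw [pow_mul, ← hc0]
      exact h3 i₀
    have h5 : orderOf ω ∣ a * orderOf (D.scH ⟨c, hc⟩) := by
      apply orderOf_dvd_of_pow_eq_one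
      have h6 := h3 i₁
      rw [hc1, inv_pow, inv_eq_one] at h6
      rw [pow_mul]
      exact h6
    have h6 := Nat.dvd_gcd h5 h4
    rwa [Nat.gcd_mul_right, hcop.gcd_eq_one, one_mul] at h6
  · rw [← map_pow]
    have h1 : (⟨c, hc⟩ : D.scd.ker) ^ orderOf ω = 1 := by
      apply Subtype.ext
      funext i
      change (c i) ^ orderOf ω = 1
      change (if i = i₀ then ω ^ b else if i = i₁ then (ω ^ a)⁻¹ else 1) ^ orderOf ω = 1
      split_ifs
      · rw [← pow_mul, mul_comm, pow_mul, pow_orderOf_eq_one, one_pow]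
      · rw [inv_pow, ← pow_mul, mul_comm, pow_mul, pow_orderOf_eq_one, one_pow, inv_one]
      · rw [one_pow]
    rw [h1, map_one]

end Big

end Vale.Agent.P180.R2.H259.Exp
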