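import Vale.Agent.P180.R2.H259.Exp.LevB
import Vale.Agent.P180.R2.H471.He8
import Vale.Agent.P180.R2.H471.Hc8

/-!
P180: one small idempotent for the blocks of the stabiliser of the decomposition.
-/

set_option linter.all false

namespace Vale.Agent.P180.R2.H259.Exp

open Module Vale.Agent.P180 Vale.Agent.P180.H768.Gd Vale.Agent.P180.R2.H799
  Vale.Agent.P180.R2.H854 Vale.Agent.P180.R2.H954 Vale.Agent.P180.R2.H954.Hc
  Vale.Agent.P180.R2.H471.He
open Vale.Agent.P180.R2.H471.Hc (OneBd)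
open Vale.Agent.P180.R2.H259.Cyc (cycB cycB_mono)

universe u

variable {k : Type u} [Field k] [IsAlgClosed k] {p : ℕ} [Fact p.Prime] [CharP k p]
variable {K E : Type} [Field K] [Finite K] [AddCommGroup E] [Module K E] [FiniteDimensional K E]
variable {Q : Subgroup (SpecialLinearGroup K E)}

omit [Finite K] [FiniteDimensional K E] in
theorem map_le_LG (D : Dec Q) (m : ℕ) (hSt : ∀ q ∈ Q, St D (toEnd q)) :
    Q.map (slu K E) ≤ LG D m := by
  rintro _ ⟨q, hq, rfl⟩
  refine ⟨hSt q hq, ?_⟩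
  have h1 : LinearMap.det (toEnd q) = 1 := q.det_eq_one
  rw [slu_val, h1, one_pow]

omit [FiniteDimensional K E] in
theorem exists_omega {a m : ℕ} (hq : Nat.card K - 1 = p ^ a * m) :
    ∃ ω : Kˣ, orderOf ω = p ^ a := by
  obtain ⟨g, hg⟩ := IsCyclic.exists_ofOrder_eq_natCard (α := Kˣ)
  rw [Nat.card_units, hq] at hg
  have hm : m ≠ 0 := by
    rintro rfl
    rw [mul_zero] at hg
    exact absurd hg (orderOf_pos g).ne'
  refine ⟨g ^ m, ?_⟩
  rw [orderOf_pow_of_dvd hm (by rw [hg]; exact dvd_mul_left _ _), hg,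
    Nat.mul_div_cancel _ (Nat.pos_of_ne_zero hm)]

/-- **The blocks of the stabiliser.** -/
theorem oneBd_LG [Finite (End K E)ˣ] (hQ : IsPGroup p Q) {n : ℕ} (hQn : Nat.card Q ≤ n)
    [Finite Q] (hab : ∀ x ∈ Q, ∀ y ∈ Q, x * y = y * x) (D : Dec Q) {a m : ℕ}
    (hq : Nat.card K - 1 = p ^ a * m) :
    OneBd k ((Q.map (slu K E)).subgroupOf (LG D m))
      (n ^ D.r * (n * (max 1 (cycB p n)) ^ D.r) ^ 2) := by
  classical
  have hp : p.Prime := Fact.out
  have hSt : ∀ q ∈ Q, St D (toEnd q) := fun q hq => D.Q_le hab hq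
  have hle := map_le_LG D m hSt
  set Q₁ : Subgroup (LG D m) := (Q.map (slu K E)).subgroupOf (LG D m) with hQ₁
  have hn0 : 0 < n := lt_of_lt_of_le Nat.card_pos hQn
  have hcardQ : Nat.card Q₁ = Nat.card Q := by
    rw [hQ₁, Nat.card_congr (Subgroup.subgroupOfEquivOfLe hle).toEquiv]
    exact (Nat.card_congr (Q.equivMapOfInjective _ slu_injective).toEquiv).symm
  have hQ₁p : IsPGroup p Q₁ :=
    (hQ.map (slu K E)).comap_of_injective (LG D m).subtype (LG D m).subtype_injective
  intro e x he hx hex hbr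
  have hec : ∀ y : MonoidAlgebra k (LG D m), y * e = e * y := fun y =>
    commute_of_mem (SubAlg_top y) he.mem.2
  -- the index
  have hidx : (⊥ ⊔ ⨆ i, AL D m i).relIndex ⊤ ≤ n ^ D.r := by
    rw [bot_sup_eq, Subgroup.relIndex_top_right]
    rcases le_or_gt D.r 1 with hr | hr
    · rw [iSup_AL_top hr, Subgroup.index_top]
      exact Nat.one_le_pow _ _ hn0
    · refine (index_AL hq (pow_pos hp.pos a)).trans (Nat.pow_le_pow_left ?_ _)
      obtain ⟨ω, hω⟩ := exists_omega (p := p) hq
      obtain ⟨c, hc1, hc2⟩ := exists_big (D := D) hr ω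
      set z := D.scH c with hz
      rw [hω] at hc1 hc2
      have hzZ : z ∈ D.Z := ⟨c, rfl⟩
      obtain ⟨c', hc'⟩ := Dec.mem_Z hzZ
      have hzL : slu K E z ∈ LG D m := by
        refine ⟨fun i => D.Z_le hzZ i, ?_⟩
        have h1 : LinearMap.det (toEnd z) = 1 := z.det_eq_one
        rw [slu_val, h1, one_pow]
      have h1 : (⟨slu K E z, hzL⟩ : LG D m) ∈ Q₁ := by
        refine mem_of_central (m := a) hQ₁p le_top (SubAlg_top x) hx hex he.ne_zero
          (Subgroup.mem_top _) ?_ ?_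
        · intro g _
          apply Subtype.ext
          apply Units.ext
          change toEnd z * ((g : (End K E)ˣ) : End K E) = ((g : (End K E)ˣ) : End K E) * toEnd z
          rw [hc']
          have h2 : ∀ i, D.sc Finset.univ (fun i => (c' i : K)) * D.e i = (c' i : K) • D.e i :=
            fun i => Dec.sc_mul_e _ i
          apply Dec.ext_e (D := D)
          intro i
          rw [mul_assoc, g.2.1 i, ← mul_assoc, h2, smul_mul_assoc, mul_assoc, h2, mul_smul_comm,
            g.2.1 i]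
        · apply Subtype.ext
          change (slu K E z) ^ p ^ a = 1
          rw [← map_pow, hc2, map_one]
      have h2 : z ∈ Q := by
        obtain ⟨q, hq, hqz⟩ := Subgroup.mem_subgroupOf.mp h1
        rwa [← slu_injective hqz]
      calc p ^ a ≤ orderOf z := Nat.le_of_dvd (orderOf_pos_iff.mpr
            (isOfFinOrder_iff_pow_eq_one.mpr ⟨p ^ a, pow_pos hp.pos a, hc2⟩)) hc1
        _ = orderOf (⟨z, h2⟩ : Q) := (Subgroup.orderOf_mk z h2).symm
        _ ≤ Nat.card Q := Nat.le_of_dvd Nat.card_pos (orderOf_dvd_natCard _)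
        _ ≤ n := hQn
  obtain ⟨j, -, hjF, hjj, hbj, hjd⟩ := exists_jr (k := k) (p := p) (n := n) (β := n ^ D.r)
    (Q := Q₁) (L := ⊤) (Z := ⊥) (A := AL D m) hQ₁p (by rw [hcardQ]; exact hQn) le_top le_top
    (fun _ => le_top) (fun i g _ h hh => AU_conj g.2.1 hh)
    (fun i j hij g hg h hh => Subtype.ext (AU_comm hij hg hh))
    (fun i j hij g hg hh => Subtype.ext (AU_inf hij hg hh))
    (fun i => (cycOn_AU D hSt i).comap (LG D m).subtype_injective
      (fun _ h => h) (fun _ h => h))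
    (fun g _ q hq => by
      have h1 : g * q * g⁻¹ = (g * q * g⁻¹ * q⁻¹) * q := by group
      rw [h1]
      exact Subgroup.mul_mem_sup comm_mem_iSup hq) bot_le
    (fun z hz g _ => by rw [Subgroup.mem_bot.mp hz, one_mul, mul_one]) hidx he.idem.eq hx hex hbr
  have heF : e ∈ Fix (cj k (LG D m)) Q₁ := Fix_mono _ le_top he.mem.2
  refine ⟨e * j, Subalgebra.mul_mem _ heF hjF, ?_, ?_, ?_, ?_⟩
  · calc e * j * (e * j) = e * (j * e) * j := by simp only [mul_assoc]
      _ = (e * e) * (j * j) := by rw [hec]; simp only [mul_assoc]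
      _ = _ := by rw [he.idem.eq, hjj]
  · rw [← mul_assoc, he.idem.eq]
  · rw [← hec, br_mul hQ₁p hjF heF]
    exact hbj
  · refine (Submodule.finrank_mono ?_).trans hjd
    rintro y ⟨-, hy1, hy2⟩
    refine ⟨SubAlg_top y, ?_, ?_⟩
    · conv_lhs => rw [← hy1]
      calc j * (e * j * y) = (j * e) * j * y := by simp only [mul_assoc]
        _ = e * (j * j) * y := by rw [hec]; simp only [mul_assoc]
        _ = y := by rw [hjj, hy1]
    · conv_lhs => rw [← hy2]
      calc y * (e * j) * j = y * (e * (j * j)) := by simp only [mul_assoc]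
        _ = y := by rw [hjj, hy2]

end Vale.Agent.P180.R2.H259.Exp
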