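import Vale.Agent.P180.R2.H259.Exp.LevC
import Vale.Agent.P180.R2.H259.Exp.Dse

/-!
P180: descent from the general linear group to the special linear group.
-/

set_option linter.all false

namespace Vale.Agent.P180.R2.H259.Exp

open Module Vale.Agent.P180 Vale.Agent.P180.H768.Gd Vale.Agent.P180.R2.H799
  Vale.Agent.P180.R2.H854 Vale.Agent.P180.R2.H954 Vale.Agent.P180.R2.H954.Hc
  Vale.Agent.P180.R2.H471.He
open Vale.Agent.P180.R2.H471.Hc (OneBd)
open Vale.Agent.P180.R2.H259.Cyc (cycB cycB_mono)

universe u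

/-- A finite group of units of a finite field of order prime to `p` embeds into the units of an
algebraically closed field of characteristic `p`. -/
theorem exists_chi {k : Type u} [Field k] [IsAlgClosed k] {p : ℕ} [Fact p.Prime] [CharP k p]
    {K : Type} [Field K] [Finite K] {G : Type} [Group G] (f : G →* Kˣ) {m : ℕ} (hm : ¬ p ∣ m)
    (hf : ∀ g, f g ^ m = 1) : ∃ χ : G →* kˣ, χ.ker = f.ker := by
  classical
  set t := Nat.card f.range with ht
  have hp : p.Prime := Fact.out
  have htp : ¬ p ∣ t := by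
    intro h
    obtain ⟨x, hx⟩ := exists_prime_orderOf_dvd_card' p h
    obtain ⟨g, hg⟩ := x.2
    have h1 : x ^ m = 1 := by
      apply Subtype.ext
      change (x : Kˣ) ^ m = 1
      rw [← hg]
      exact hf g
    have h2 := orderOf_dvd_of_pow_eq_one h1
    rw [hx] at h2
    exact hm h2
  have ht0 : (t : k) ≠ 0 := fun h => htp ((CharP.cast_eq_zero_iff k p t).mp h)
  have hNZ : NeZero (t : k) := ⟨ht0⟩
  have hNZ' : NeZero t := ⟨Nat.card_pos.ne'⟩
  have hcard : Nat.card (rootsOfUnity t k) = t := HasEnoughRootsOfUnity.natCard_rootsOfUnity k t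
  have hcyc : IsCyclic (rootsOfUnity t k) := rootsOfUnity.isCyclic k t
  let ε : f.range ≃* rootsOfUnity t k := mulEquivOfCyclicCardEq (ht.symm.trans hcard.symm)
  refine ⟨(rootsOfUnity t k).subtype.comp (ε.toMonoidHom.comp f.rangeRestrict), ?_⟩
  ext g
  rw [MonoidHom.mem_ker, MonoidHom.mem_ker]
  constructor
  · intro h
    have h1 : ε (f.rangeRestrict g) = 1 := Subtype.ext h
    have h2 : f.rangeRestrict g = 1 := ε.injective (by rw [h1, map_one])
    exact congrArg Subtype.val h2
  · intro h
    have h1 : f.rangeRestrict g = 1 := Subtype.ext h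
    change ((ε (f.rangeRestrict g) : rootsOfUnity t k) : kˣ) = 1
    rw [h1, map_one]
    rfl

variable {k : Type u} [Field k] [IsAlgClosed k] {p : ℕ} [Fact p.Prime] [CharP k p]
variable {K E : Type} [Field K] [Finite K] [AddCommGroup E] [Module K E] [FiniteDimensional K E]
variable {Q : Subgroup (SpecialLinearGroup K E)}

/-- the bound for the stabiliser of the decomposition -/
noncomputable def levB (p n r : ℕ) : ℕ :=
  n.factorial * (n ^ r * (n * (max 1 (cycB p n)) ^ r) ^ 2)

/-- the determinant -/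
noncomputable def detG (D : Dec Q) (m : ℕ) : LG D m →* Kˣ :=
  (Units.map (LinearMap.det : (E →ₗ[K] E) →* K)).comp (LG D m).subtype

omit [Finite K] [FiniteDimensional K E] in
theorem mem_detG_ker {D : Dec Q} {m : ℕ} {g : LG D m} :
    g ∈ (detG D m).ker ↔ LinearMap.det ((g : (End K E)ˣ) : End K E) = 1 := by
  rw [MonoidHom.mem_ker, Units.ext_iff]
  rfl

/-- the isomorphism on elements -/
noncomputable def thF (D : Dec Q) (m : ℕ) (g : (detG D m).ker) : D.L :=
  ⟨mkSL (((g : LG D m) : (End K E)ˣ) : End K E) (mem_detG_ker.mp g.2),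
    fun i => by rw [toEnd_mkSL]; exact g.1.2.1 i⟩

omit [Finite K] in
theorem toEnd_thF (D : Dec Q) (m : ℕ) (g : (detG D m).ker) :
    toEnd ((thF D m g : D.L) : SpecialLinearGroup K E) =
      (((g : LG D m) : (End K E)ˣ) : End K E) :=
  toEnd_mkSL (((g : LG D m) : (End K E)ˣ) : End K E) (mem_detG_ker.mp g.2)

/-- the isomorphism -/
noncomputable def th (D : Dec Q) (m : ℕ) : (detG D m).ker →* D.L where
  toFun := thF D m
  map_one' := by
    apply Subtype.ext
    apply toEnd_injective
    rw [toEnd_thF]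
    exact toEnd_one.symm
  map_mul' x y := by
    apply Subtype.ext
    apply toEnd_injective
    change _ = toEnd (((thF D m x : D.L) : SpecialLinearGroup K E) *
      ((thF D m y : D.L) : SpecialLinearGroup K E))
    rw [toEnd_thF, toEnd_mul, toEnd_thF, toEnd_thF]
    rfl

/-- **The blocks of the stabiliser in the special linear group.** -/
theorem oneBd_lev [Finite (SpecialLinearGroup K E)] (hQ : IsPGroup p Q) {n : ℕ}
    (hQn : Nat.card Q ≤ n) (hab : ∀ x ∈ Q, ∀ y ∈ Q, x * y = y * x) (D : Dec Q) :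
    OneBd k (Q.subgroupOf D.L) (levB p n D.r) := by
  classical
  have hp : p.Prime := Fact.out
  have hfE : Finite (End K E) := by
    have h1 : Finite E := Module.finite_of_finite K
    exact Finite.of_injective (fun f : End K E => (f : E → E)) DFunLike.coe_injective
  have hfU : Finite (End K E)ˣ := Finite.of_injective (Units.val) Units.val_injective
  have hq1 : Nat.card K - 1 ≠ 0 := by
    have h1 : 1 < Nat.card K := Finite.one_lt_card
    omega
  obtain ⟨a, m, hm, hq⟩ := Nat.exists_eq_pow_mul_and_not_dvd hq1 p hp.ne_one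
  have hSt : ∀ q ∈ Q, St D (toEnd q) := fun q hq => D.Q_le hab hq
  have hle := map_le_LG D m hSt
  have hLG := oneBd_LG (k := k) (p := p) hQ hQn hab D hq
  set Q₁ : Subgroup (LG D m) := (Q.map (slu K E)).subgroupOf (LG D m) with hQ₁
  have hQ₁p : IsPGroup p Q₁ :=
    (hQ.map (slu K E)).comap_of_injective (LG D m).subtype (LG D m).subtype_injective
  obtain ⟨χ, hχ⟩ := exists_chi (k := k) (p := p) (detG D m) hm (fun g => by
    apply Units.ext
    change LinearMap.det ((g : (End K E)ˣ) : End K E) ^ m = 1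
    exact g.2.2)
  have hQH : Q₁ ≤ (detG D m).ker := by
    intro g hg
    rw [mem_detG_ker]
    obtain ⟨q, hq, hqg⟩ := Subgroup.mem_subgroupOf.mp hg
    have h1 : LinearMap.det (toEnd q) = 1 := q.det_eq_one
    have h2 : ((g : (End K E)ˣ) : End K E) = toEnd q := (congrArg Units.val hqg).symm
    rw [h2, h1]
  set Q₂ : Subgroup (detG D m).ker := Q₁.subgroupOf (detG D m).ker with hQ₂
  have hmap : Q₂.map (detG D m).ker.subtype = Q₁ := Subgroup.map_subgroupOf_eq_of_le hQH
  have hQ₂p : IsPGroup p Q₂ := hQ₁p.comap_of_injective _ (detG D m).ker.subtype_injective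
  have hker := oneBd_ker (k := k) (p := p) χ hχ (Q := Q₂) hQ₂p (by rw [hmap]; exact hLG)
  -- the isomorphism
  set θ := th D m with hθd
  have hθ : ∀ g : (detG D m).ker, toEnd ((θ g : D.L) : SpecialLinearGroup K E) =
      (((g : LG D m) : (End K E)ˣ) : End K E) := fun g => toEnd_thF D m g
  have hinj : ∀ x, θ x = 1 → x = 1 := by
    intro x hx
    apply Subtype.ext
    apply Subtype.ext
    apply Units.ext
    rw [← hθ x, hx]
    exact toEnd_one
  have hsurj : Function.Surjective θ := by
    intro l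
    have hlL : slu K E (l : SpecialLinearGroup K E) ∈ LG D m := by
      refine ⟨fun i => l.2 i, ?_⟩
      have h1 : LinearMap.det (toEnd (l : SpecialLinearGroup K E)) = 1 := l.1.det_eq_one
      rw [slu_val, h1, one_pow]
    refine ⟨⟨⟨slu K E l, hlL⟩, ?_⟩, ?_⟩
    · rw [mem_detG_ker]
      exact l.1.det_eq_one
    · apply Subtype.ext
      apply toEnd_injective
      rw [hθ]
      rfl
  have hkc : ¬ p ∣ Nat.card θ.ker := by
    have h1 : θ.ker = ⊥ := by
      rw [eq_bot_iff]
      intro x hx
      exact Subgroup.mem_bot.mpr (hinj x (MonoidHom.mem_ker.mp hx))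
    rw [h1, Subgroup.card_bot]
    exact hp.one_lt.not_ge ∘ Nat.le_of_dvd Nat.one_pos
  have hfin := Vale.Agent.P180.R2.H471.Hc.oneBd_quot (k := k) (p := p) hsurj
    (fun x hx g => by rw [hinj x hx, one_mul, mul_one]) hkc hQ₂p hker
  have hmapθ : Q₂.map θ = Q.subgroupOf D.L := by
    ext l
    constructor
    · rintro ⟨g, hg, rfl⟩
      obtain ⟨q, hq, hqg⟩ := Subgroup.mem_subgroupOf.mp (Subgroup.mem_subgroupOf.mp hg)
      rw [Subgroup.mem_subgroupOf]
      have h1 : ((θ g : D.L) : SpecialLinearGroup K E) = q := by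
        apply toEnd_injective
        rw [hθ]
        exact (congrArg Units.val hqg).symm
      rw [h1]; exact hq
    · intro hl
      obtain ⟨g, rfl⟩ := hsurj l
      refine ⟨g, ?_, rfl⟩
      refine Subgroup.mem_subgroupOf.mpr (Subgroup.mem_subgroupOf.mpr ⟨_, hl, ?_⟩)
      apply Units.ext
      exact hθ g
  rw [hmapθ] at hfin
  intro e x he hx hex hbr
  obtain ⟨i, h1, h2, h3, h4, h5⟩ := hfin e x he hx hex hbr
  refine ⟨i, h1, h2, h3, h4, h5.trans ?_⟩
  unfold levB
  refine Nat.mul_le_mul_right _ (Nat.factorial_le ?_)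
  refine le_trans ?_ hQn
  have h6 : Nat.card Q₂ = Nat.card Q₁ :=
    Nat.card_congr (Subgroup.subgroupOfEquivOfLe hQH).toEquiv
  rw [h6, hQ₁, Nat.card_congr (Subgroup.subgroupOfEquivOfLe hle).toEquiv]
  exact le_of_eq (Nat.card_congr (Q.equivMapOfInjective _ slu_injective).toEquiv).symm

end Vale.Agent.P180.R2.H259.Exp
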