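import Vale.Agent.P180.R2.H259.Exp.Tw
import Vale.Agent.P180.R2.H954.U1a
import Vale.Agent.P180.R2.H365.Gen
import Vale.Agent.P180.R2.H259.Exp.Alg0

set_option linter.all false

/-!
P180: the local primitive idempotents of a block with defect group `Q` are conjugate; blocks of
a normal subgroup and relative traces.
-/

namespace Vale.Agent.P180.R2.H259.Exp

open Vale.Agent.P180 Vale.Agent.P180.H768.Gd Vale.Agent.P180.R2.H799
  Vale.Agent.P180.R2.H954 Vale.Agent.P180.R2.H954.Hc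
open Vale.Agent.P180.R2.H259.Cyc (PrimIn)
open Vale.Agent.P180.R2.H259.Exp.Alg0 (cj_mem_of_norm)
open Vale.Agent.P180.R2.H365 (br_self br_pow)

universe u

variable {k : Type u} [Field k] {p : ℕ} [Fact p.Prime] [CharP k p] {G : Type} [Group G] [Finite G]

/-- the algebra `(kT)^Q` -/
noncomputable abbrev RT (k : Type u) [Field k] {G : Type} [Group G] (T Q : Subgroup G) :
    Subalgebra k (MonoidAlgebra k G) := Fix (cj k G) Q ⊓ SubAlg k T

theorem RT_le {T Q : Subgroup G} : RT k T Q ≤ SubAlg k T := inf_le_right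

theorem cj_mem_RT {T Q : Subgroup G} {n : G} (hnT : n ∈ T) (hn : n ∈ Subgroup.normalizer (Q : Set G))
    {x : MonoidAlgebra k G} (hx : x ∈ RT k T Q) : cj k G n x ∈ RT k T Q := by
  refine ⟨conj_mem_Fix hx.1 n fun h hh => ?_, cj_mem_of_norm (fun t ht =>
    T.mul_mem (T.mul_mem hnT ht) (T.inv_mem hnT)) hx.2⟩
  have h1 := Subgroup.mem_normalizer_iff.mp hn (n⁻¹ * h * n)
  rw [h1]
  have e : n * (n⁻¹ * h * n) * n⁻¹ = h := by group
  rw [e]
  exact hh

theorem tw_mem_RT (χ : G →* kˣ) {T Q : Subgroup G} {x : MonoidAlgebra k G} (hx : x ∈ RT k T Q) :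
    tw χ x ∈ RT k T Q := ⟨tw_fix χ hx.1, tw_mem χ hx.2⟩

/-- **Local points.** A local primitive idempotent of the block `b` is equivalent to a conjugate of
an idempotent below any idempotent `i₀` with `br (i₀ b) ≠ 0`. -/
theorem exists_le {T Q : Subgroup G} (hQT : Q ≤ T) (hQ : IsPGroup p Q)
    {b a i₀ i : MonoidAlgebra k G} (hb : IsBlockOf T b) (haT : a ∈ SubAlg k T)
    (ha : a ∈ Fix (cj k G) Q) (hba : b = tr (cj k G) Q T a) (hi₀T : i₀ ∈ SubAlg k T)
    (hi₀ : i₀ ∈ Fix (cj k G) Q) (hi₀i : i₀ * i₀ = i₀) (hne : br Q (i₀ * b) ≠ 0)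
    (hi : PrimIn (RT k T Q) i) (hbi : b * i = i) (hbri : br Q i ≠ 0) :
    ∃ n ∈ T, n ∈ Subgroup.normalizer (Q : Set G) ∧ Le (RT k T Q) i (cj k G n i₀) := by
  classical
  obtain ⟨w, hwT, hwF, -, hw⟩ := gen_sub hQT hQ hb haT ha hba hi₀T hi₀ hi₀i hne
  set N : Subgroup G := T ⊓ Subgroup.normalizer (Q : Set G) with hN
  have _ := Fintype.ofFinite (N ⧸ Q.subgroupOf N)
  have hiw : i₀ * w ∈ Fix (cj k G) Q := Subalgebra.mul_mem _ hi₀ hwF
  have hbF : b ∈ Fix (cj k G) Q := Fix_mono _ hQT hb.mem.2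
  have hnq : ∀ q : N ⧸ Q.subgroupOf N, ((q.out : N) : G) ∈ T ∧
      ((q.out : N) : G) ∈ Subgroup.normalizer (Q : Set G) := fun q => (q.out : N).2
  have hiR : i₀ ∈ RT k T Q := ⟨hi₀, hi₀T⟩
  have hwR : w ∈ RT k T Q := ⟨hwF, hwT⟩
  have h1 : br Q b = ∑ q : N ⧸ Q.subgroupOf N, br Q (cj k G ((q.out : N) : G) (i₀ * w)) := by
    conv_lhs => rw [hw]
    rw [br_tr_rel hQ hQT hiw, tr_def]
    refine Finset.sum_congr rfl fun q _ => ?_
    exact (br_cj_norm (hnq q).2 _).symm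
  by_contra hcon
  push Not at hcon
  have hnil : ∀ q : N ⧸ Q.subgroupOf N,
      IsNilpotent (i * 1 * cj k G ((q.out : N) : G) i₀ * cj k G ((q.out : N) : G) w * i) := by
    intro q
    by_contra h
    refine hcon _ (hnq q).1 (hnq q).2 (le_of_not_nilp hi (by rw [← map_mul, hi₀i])
      (cj_mem_RT (hnq q).1 (hnq q).2 hiR) (Subalgebra.one_mem _)
      (cj_mem_RT (hnq q).1 (hnq q).2 hwR) h)
  have hfR : ∀ q : N ⧸ Q.subgroupOf N,
      i * 1 * cj k G ((q.out : N) : G) i₀ * cj k G ((q.out : N) : G) w * i ∈ RT k T Q := fun q =>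
    Subalgebra.mul_mem _ (Subalgebra.mul_mem _ (Subalgebra.mul_mem _ (Subalgebra.mul_mem _ hi.mem
      (Subalgebra.one_mem _)) (cj_mem_RT (hnq q).1 (hnq q).2 hiR))
      (cj_mem_RT (hnq q).1 (hnq q).2 hwR)) hi.mem
  have hsum := sum_nilp hi Finset.univ (fun q : N ⧸ Q.subgroupOf N =>
    i * 1 * cj k G ((q.out : N) : G) i₀ * cj k G ((q.out : N) : G) w * i) fun q _ =>
    ⟨hfR q, by simp only [← mul_assoc, hi.idem], by rw [mul_assoc, hi.idem], hnil q⟩
  have hbr : br Q (∑ q : N ⧸ Q.subgroupOf N,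
      i * 1 * cj k G ((q.out : N) : G) i₀ * cj k G ((q.out : N) : G) w * i) = br Q i := by
    rw [br_linear_sum]
    have h2 : ∀ q : N ⧸ Q.subgroupOf N,
        br Q (i * 1 * cj k G ((q.out : N) : G) i₀ * cj k G ((q.out : N) : G) w * i) =
        br Q i * br Q (cj k G ((q.out : N) : G) (i₀ * w)) * br Q i := by
      intro q
      have h3 : i * 1 * cj k G ((q.out : N) : G) i₀ * cj k G ((q.out : N) : G) w * i =
          i * cj k G ((q.out : N) : G) (i₀ * w) * i := by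
        rw [map_mul, mul_one]
        simp only [mul_assoc]
      have h4 : cj k G ((q.out : N) : G) (i₀ * w) ∈ Fix (cj k G) Q :=
        (cj_mem_RT (hnq q).1 (hnq q).2 (Subalgebra.mul_mem _ hiR hwR)).1
      rw [h3, br_mul hQ (Subalgebra.mul_mem _ hi.mem.1 h4) hi.mem.1, br_mul hQ hi.mem.1 h4]
    rw [Finset.sum_congr rfl fun q _ => h2 q, ← Finset.sum_mul, ← Finset.mul_sum, ← h1,
      ← br_mul hQ hi.mem.1 hbF, ← br_mul hQ (Subalgebra.mul_mem _ hi.mem.1 hbF) hi.mem.1]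
    rw [mul_assoc, hbi, hi.idem]
  obtain ⟨m, hm⟩ := hsum
  have h2 : br Q i ^ m = 0 := by
    rw [← hbr, ← br_pow hQ (Subalgebra.sum_mem _ fun q _ => (hfR q).1), hm]
    exact br_self (Subalgebra.zero_mem _)
  apply hbri
  have h3 : IsIdempotentElem (br Q i) := by
    change br Q i * br Q i = br Q i
    rw [← br_mul hQ hi.mem.1 hi.mem.1, hi.idem]
  rw [← h3.pow_succ_eq m, pow_succ, h2, zero_mul]

/-- **Relative traces of covering blocks.** -/
theorem up_tr {T H Q : Subgroup G} [H.Normal] (hQ : IsPGroup p Q) (hQH : Q ≤ H) (hHT : H ≤ T)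
    (hidx : ¬ p ∣ H.relIndex T) {e a : MonoidAlgebra k G} (he : IsBlockOf H e)
    (haH : a ∈ SubAlg k H) (ha : a ∈ Fix (cj k G) Q) (hea : e = tr (cj k G) Q H a)
    {b : MonoidAlgebra k G} (hb : IsBlockOf T b) (hbe : b * e ≠ 0) :
    ∃ a' ∈ SubAlg k T, a' ∈ Fix (cj k G) Q ∧ b = tr (cj k G) Q T a' := by
  classical
  have hfin : FiniteDimensional k (MonoidAlgebra k G) :=
    Module.Finite.equiv (MonoidAlgebra.coeffLinearEquiv k (M := G) (S := k)).symm
  set S : Subgroup G := T ⊓ stabE e with hS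
  have hST : S ≤ T := inf_le_left
  have hHS : H ≤ S := le_inf hHT (le_stabE he)
  have heT : e ∈ SubAlg k T := SubAlg_mono hHT he.mem.1
  have heS : e ∈ Fix (cj k G) S := fun g hg => mem_stabE.mp hg.2
  -- the trace to the stabiliser
  set c : k := ((H.relIndex S : ℕ) : k) with hc
  have hc0 : c ≠ 0 := by
    intro h0
    apply hidx
    have h1 : p ∣ H.relIndex S := (CharP.cast_eq_zero_iff k p _).mp h0
    rw [← Subgroup.relIndex_mul_relIndex H S T hHS hST]
    exact h1.trans (dvd_mul_right _ _)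
  have h1 : tr (cj k G) Q S a = c • e := by
    rw [← tr_tr ha hQH hHS, ← hea]
    have _ := Fintype.ofFinite (S ⧸ H.subgroupOf S)
    rw [tr_def, Finset.sum_congr rfl fun q _ => heS _ (q.out : S).2, Finset.sum_const,
      Finset.card_univ, ← Nat.card_eq_fintype_card, ← Nat.cast_smul_eq_nsmul k]
    rfl
  have hQS : Q ≤ S := hQH.trans hHS
  set s : MonoidAlgebra k G := tr (cj k G) S T e with hs
  have h2 : s = tr (cj k G) Q T (c⁻¹ • a) := by
    have h3 : e = tr (cj k G) Q S (c⁻¹ • a) := by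
      rw [tr_smul, h1, smul_smul, inv_mul_cancel₀ hc0, one_smul]
    rw [hs]
    conv_lhs => rw [h3]
    exact tr_tr (Subalgebra.smul_mem _ ha _) hQS hST
  have hsT : s ∈ Fix (cj k G) T := tr_mem_Fix heS
  have hsA : s ∈ SubAlg k T := tr_mem_SubAlg le_rfl heT
  have hse : s * e = e := by
    have _ := Fintype.ofFinite (T ⧸ S.subgroupOf T)
    rw [hs, tr_def, Finset.sum_mul, Finset.sum_eq_single ((1 : T) : T ⧸ S.subgroupOf T)]
    · have h3 := act_out heS (1 : T)
      rw [h3, OneMemClass.coe_one, map_one_act]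
      exact he.idem.eq
    · intro q _ hq
      have h3 : ((q.out : T) : G) ∉ stabE e := by
        intro h4
        apply hq
        rw [← QuotientGroup.out_eq' q, QuotientGroup.eq]
        rw [Subgroup.mem_subgroupOf, mul_one]
        exact S.inv_mem ⟨(q.out : T).2, h4⟩
      have h5 := e_mul_cj he h3
      have h6 : cj k G ((q.out : T) : G) e * e = e * cj k G ((q.out : T) : G) e :=
        ZAlg_comm _ (IsBlockOf.conj ((q.out : T) : G) he).mem _ he.mem
      rw [h6, h5]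
    · intro h3
      exact absurd (Finset.mem_univ _) h3
  have hbs : b * s ∈ ZAlg k T := Subalgebra.mul_mem _ hb.mem ⟨hsA, hsT⟩
  have hbsb : b * s * b = b * s := by
    rw [mul_assoc, ← ZAlg_comm _ hb.mem _ (⟨hsA, hsT⟩ : s ∈ ZAlg k T), ← mul_assoc, hb.idem.eq]
  rcases hb.dichotomy (by exact ZAlg_comm) hbs hbsb with ⟨n, hn⟩ | ⟨y, hy, hyb, hsy⟩
  · exfalso
    apply hbe
    have h3 : ∀ n : ℕ, (b * s) ^ n * (b * e) = b * e := by
      intro n
      induction n with
      | zero => rw [pow_zero, one_mul]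
      | succ n ih =>
        rw [pow_succ, mul_assoc]
        have h4 : b * s * (b * e) = b * e := by
          rw [← mul_assoc, hbsb, mul_assoc, hse]
        rw [h4, ih]
    rw [← h3 n, hn, zero_mul]
  · refine ⟨b * (c⁻¹ • a) * y, Subalgebra.mul_mem _ (Subalgebra.mul_mem _ hb.mem.1
      (Subalgebra.smul_mem _ (SubAlg_mono hHT haH) _)) hy.1,
      Subalgebra.mul_mem _ (Subalgebra.mul_mem _ (Fix_mono _ (hQH.trans hHT) hb.mem.2)
        (Subalgebra.smul_mem _ ha _)) (Fix_mono _ (hQH.trans hHT) hy.2), ?_⟩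
    rw [← tr_mul hy.2, ← mul_tr hb.mem.2, ← h2, hsy]

end Vale.Agent.P180.R2.H259.Exp
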