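import Vale.Agent.P180.R2.H259.Cyc.Zero
import Mathlib.RingTheory.RootsOfUnity.AlgebraicallyClosed
import Mathlib.FieldTheory.Finite.Basic

set_option linter.all false

/-!
P180: a primitive idempotent which is equivalent to its image under an automorphism of order prime
to `p` is equivalent to a fixed idempotent.
-/

namespace Vale.Agent.P180.R2.H259.Exp

open Vale.Agent.P180 Vale.Agent.P180.H768.Gd Vale.Agent.P180.R2.H799
open Vale.Agent.P180.R2.H259.Cyc (PrimIn)

section Sum

variable {k A : Type*} [Field k] [Ring A] [Algebra k A] [FiniteDimensional k A]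

theorem not_nilp {S : Subalgebra k A} {i : A} (hi : PrimIn S i) : ¬ IsNilpotent i := by
  rintro ⟨n, hn⟩
  apply hi.ne_zero
  have h1 : i ^ (n + 1) = i := (show IsIdempotentElem i from hi.idem).pow_succ_eq n
  rw [← h1, pow_succ, hn, zero_mul]

/-- the sum of two nilpotent elements of a local ring -/
theorem add_nilp {S : Subalgebra k A} {i : A} (hi : PrimIn S i) {a b : A} (ha : a ∈ S) (hb : b ∈ S)
    (ha1 : i * a = a) (ha2 : a * i = a) (hb1 : i * b = b) (hb2 : b * i = b)
    (hna : IsNilpotent a) (hnb : IsNilpotent b) : IsNilpotent (a + b) := by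
  rcases hi.dichotomy (x := a + b) (S.add_mem ha hb) (by rw [mul_add, ha1, hb1])
    (by rw [add_mul, ha2, hb2]) with h | ⟨y, hy, hy1, hy2, hxy, -⟩
  · exact h
  · exfalso
    have h1 := hi.mul_nilp ha hy ha1 ha2 hy1 hy2 hna
    have h2 := hi.mul_nilp hb hy hb1 hb2 hy1 hy2 hnb
    have h3 : b * y = i - a * y := by rw [← hxy]; rw [add_mul]; abel
    have h4 : Commute (a * y) (b * y) := by
      rw [h3]
      refine Commute.sub_right ?_ (Commute.refl _)
      change a * y * i = i * (a * y)
      rw [mul_assoc, hy2, ← mul_assoc, ha1]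
    have h5 := h4.isNilpotent_add h1 h2
    rw [← add_mul, hxy] at h5
    exact not_nilp hi h5

theorem sum_nilp {S : Subalgebra k A} {i : A} (hi : PrimIn S i) {ι : Type*} (s : Finset ι)
    (f : ι → A) (hf : ∀ j ∈ s, f j ∈ S ∧ i * f j = f j ∧ f j * i = f j ∧ IsNilpotent (f j)) :
    IsNilpotent (∑ j ∈ s, f j) := by
  classical
  have key : (∑ j ∈ s, f j) ∈ S ∧ i * (∑ j ∈ s, f j) = (∑ j ∈ s, f j) ∧
      (∑ j ∈ s, f j) * i = (∑ j ∈ s, f j) ∧ IsNilpotent (∑ j ∈ s, f j) := by
    induction s using Finset.induction_on with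
    | empty => simp
    | insert j s hj ih =>
      obtain ⟨h1, h2, h3, h4⟩ := ih fun j hj => hf j (Finset.mem_insert_of_mem hj)
      obtain ⟨g1, g2, g3, g4⟩ := hf j (Finset.mem_insert_self j s)
      rw [Finset.sum_insert hj]
      exact ⟨S.add_mem g1 h1, by rw [mul_add, g2, h2], by rw [add_mul, g3, h3],
        add_nilp hi g1 h1 g2 g3 h2 h3 g4 h4⟩
  exact key.2.2.2

end Sum

section Rot

variable {k A : Type*} [Field k] [IsAlgClosed k] [Ring A] [Algebra k A] [FiniteDimensional k A]

/-- the rules for iterates -/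
theorem iter_mul (σ : A →ₐ[k] A) (u : A) (n : ℕ) (x z : A) :
    (fun x => σ x * u)^[n] (x * z) = σ^[n] x * (fun x => σ x * u)^[n] z := by
  induction n with
  | zero => rfl
  | succ n ih =>
    rw [Function.iterate_succ_apply', Function.iterate_succ_apply', Function.iterate_succ_apply', ih]
    simp only [map_mul, mul_assoc]

theorem iter_right (σ : A →ₐ[k] A) {u i : A} (hii : i * i = i) (h2 : u * i = u) (n : ℕ) :
    (fun x => σ x * u)^[n] i * i = (fun x => σ x * u)^[n] i := by
  cases n with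
  | zero => exact hii
  | succ n =>
    rw [Function.iterate_succ_apply']
    simp only [mul_assoc, h2]

theorem iter_mem {S : Subalgebra k A} {σ : A →ₐ[k] A} (hσS : ∀ x ∈ S, σ x ∈ S) {u i : A}
    (hi : i ∈ S) (hu : u ∈ S) (n : ℕ) : (fun x => σ x * u)^[n] i ∈ S := by
  induction n with
  | zero => exact hi
  | succ n ih =>
    rw [Function.iterate_succ_apply']
    exact S.mul_mem (hσS _ ih) hu

theorem siter_mem {S : Subalgebra k A} {σ : A →ₐ[k] A} (hσS : ∀ x ∈ S, σ x ∈ S) {x : A}
    (hx : x ∈ S) (n : ℕ) : σ^[n] x ∈ S := by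
  induction n with
  | zero => exact hx
  | succ n ih =>
    rw [Function.iterate_succ_apply']
    exact hσS _ ih

theorem siter_mul (σ : A →ₐ[k] A) (x y : A) (n : ℕ) : σ^[n] (x * y) = σ^[n] x * σ^[n] y := by
  induction n with
  | zero => rfl
  | succ n ih => rw [Function.iterate_succ_apply', Function.iterate_succ_apply',
      Function.iterate_succ_apply', ih, map_mul]

theorem siter_zero (σ : A →ₐ[k] A) (n : ℕ) : σ^[n] 0 = 0 := by
  induction n with
  | zero => rfl
  | succ n ih => rw [Function.iterate_succ_apply', ih, map_zero]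

/-- The image of a primitive idempotent. -/
theorem primIn_map {S : Subalgebra k A} {σ : A →ₐ[k] A} (hσS : ∀ x ∈ S, σ x ∈ S) {m : ℕ}
    (hm : 0 < m) (hσm : ∀ x, σ^[m] x = x) {i : A} (hi : PrimIn S i) : PrimIn S (σ i) := by
  obtain ⟨n, rfl⟩ : ∃ n, m = n + 1 := ⟨m - 1, by omega⟩
  refine ⟨hσS _ hi.mem, by rw [← map_mul, hi.idem], ?_, ?_⟩
  · intro h0
    apply hi.ne_zero
    rw [← hσm i, Function.iterate_succ_apply, h0, siter_zero]
  · intro c hc hcc h1 h2
    have h3 : σ^[n] (σ i) = i := hσm i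
    have h4 : σ (σ^[n] c) = c := (Function.iterate_succ_apply' σ n c).symm.trans (hσm c)
    rcases hi.prim (σ^[n] c) (siter_mem hσS hc n) (by rw [← siter_mul, hcc])
      (by conv_lhs => rw [← h3, ← siter_mul, h1]) (by conv_lhs => rw [← h3, ← siter_mul, h2])
      with h | h
    · left
      rw [← h4, h, map_zero]
    · right
      rw [← h4, h]

/-- The normalised case. -/
theorem rot1 {S : Subalgebra k A} {σ : A →ₐ[k] A} (hσS : ∀ x ∈ S, σ x ∈ S) {m : ℕ} (hm : 0 < m)
    (hmk : (m : k) ≠ 0) (hσm : ∀ x, σ^[m] x = x) {i : A} (hi : PrimIn S i) {u : A} (hu : u ∈ S)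
    (h1 : σ i * u = u) (h2 : u * i = u) (hΦ : (fun x => σ x * u)^[m] i = i) :
    ∃ y ∈ S, ∃ x ∈ S, x * y = i ∧ y * i = y ∧ i * x = x ∧ σ (y * x) = y * x ∧
      (∀ e, σ e = e → e * i = i → e * y = y) ∧ (∀ e, σ e = e → i * e = i → x * e = x) := by
  classical
  set Φ : A → A := fun x => σ x * u with hΦdef
  obtain ⟨n, hn⟩ : ∃ n, m = n + 1 := ⟨m - 1, by omega⟩
  -- the inverse of `u`
  set v : A := σ (Φ^[n] i) with hv
  have hvS : v ∈ S := hσS _ (iter_mem hσS hi.mem hu n)
  have hvu : v * u = i := by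
    have h3 : Φ^[n + 1] i = v * u := Function.iterate_succ_apply' Φ n i
    rw [← h3, ← hn, hΦ]
  have hvi : v * σ i = v := by
    rw [hv, ← map_mul, iter_right σ hi.idem h2 n]
  have hiv : i * v = v := by
    have h3 : Φ^[n] i = σ^[n] i * Φ^[n] i := by
      conv_lhs => rw [← hi.idem]
      exact iter_mul σ u n i i
    have h4 : σ (σ^[n] i) = i := by
      have h5 := hσm i
      rw [hn] at h5
      exact (Function.iterate_succ_apply' σ n i).symm.trans h5
    rw [hv, h3, map_mul, h4, ← mul_assoc, hi.idem]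
  have huv : u * v = σ i := by
    have hne : u * v ≠ 0 := by
      intro h0
      apply hi.ne_zero
      calc i = (v * u) * (v * u) := by rw [hvu, hi.idem]
        _ = v * (u * v) * u := by simp only [mul_assoc]
        _ = 0 := by rw [h0]; simp
    rcases (primIn_map hσS hm hσm hi).prim (u * v) (S.mul_mem hu hvS)
      (by
        calc u * v * (u * v) = u * (v * u) * v := by simp only [mul_assoc]
          _ = _ := by rw [hvu, mul_assoc, hiv])
      (by rw [mul_assoc, hvi]) (by rw [← mul_assoc, h1]) with h | h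
    · exact absurd h hne
    · exact h
  -- the eigenvectors
  have hNZ : NeZero (m : k) := ⟨hmk⟩
  obtain ⟨ζ, hζ⟩ := HasEnoughRootsOfUnity.exists_primitiveRoot k m
  let Y : ℕ → A := fun r => ∑ s ∈ Finset.range m, ζ ^ (r * s) • Φ^[s] i
  have hYS : ∀ r, Y r ∈ S := fun r =>
    S.sum_mem fun s _ => S.smul_mem (iter_mem hσS hi.mem hu s) _
  have hYi : ∀ r, Y r * i = Y r := by
    intro r
    rw [Finset.sum_mul]
    refine Finset.sum_congr rfl fun s _ => ?_
    rw [smul_mul_assoc, iter_right σ hi.idem h2 s]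
  have hYΦ : ∀ r, ζ ^ r • (σ (Y r) * u) = Y r := by
    intro r
    have h3 : ζ ^ r • (σ (Y r) * u) = ∑ s ∈ Finset.range m, ζ ^ (r * (s + 1)) • Φ^[s + 1] i := by
      rw [map_sum, Finset.sum_mul, Finset.smul_sum]
      refine Finset.sum_congr rfl fun s _ => ?_
      rw [Function.iterate_succ_apply', map_smul, smul_mul_assoc, smul_smul, ← pow_add]
      congr 2
      ring
    have h4 := Finset.sum_range_succ (fun s => ζ ^ (r * s) • Φ^[s] i) m
    rw [Finset.sum_range_succ'] at h4
    have h5 : ζ ^ (r * m) • Φ^[m] i = ζ ^ (r * 0) • Φ^[0] i := by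
      rw [hΦ, Nat.mul_zero, pow_zero, mul_comm, pow_mul, hζ.pow_eq_one, one_pow]
      rfl
    rw [h5] at h4
    rw [h3]
    exact add_right_cancel h4
  have hYsum : ∑ r ∈ Finset.range m, Y r = (m : k) • i := by
    change ∑ r ∈ Finset.range m, ∑ s ∈ Finset.range m, ζ ^ (r * s) • Φ^[s] i = _
    rw [Finset.sum_comm]
    have h3 : ∀ s ∈ Finset.range m, s ≠ 0 → ∑ r ∈ Finset.range m, ζ ^ (r * s) • Φ^[s] i = 0 := by
      intro s hs hs0
      rw [← Finset.sum_smul]
      have h4 : ∑ r ∈ Finset.range m, ζ ^ (r * s) = ∑ r ∈ Finset.range m, (ζ ^ s) ^ r := by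
        refine Finset.sum_congr rfl fun r _ => ?_
        rw [← pow_mul, mul_comm]
      have h5 : ζ ^ s ≠ 1 :=
        hζ.pow_ne_one_of_pos_of_lt hs0 (Finset.mem_range.mp hs)
      have h6 : (ζ ^ s - 1) * ∑ r ∈ Finset.range m, (ζ ^ s) ^ r = 0 := by
        rw [mul_geom_sum, ← pow_mul, mul_comm, pow_mul, hζ.pow_eq_one, one_pow, sub_self]
      rw [h4, (mul_eq_zero.mp h6).resolve_left (sub_ne_zero.mpr h5), zero_smul]
    rw [Finset.sum_eq_single 0 h3 (fun h => absurd (Finset.mem_range.mpr hm) h)]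
    simp only [Nat.mul_zero, pow_zero, one_smul, Function.iterate_zero, id]
    rw [Finset.sum_const, Finset.card_range, Nat.cast_smul_eq_nsmul]
  obtain ⟨r, hr, hnr⟩ : ∃ r ∈ Finset.range m, ¬ IsNilpotent (i * Y r) := by
    by_contra hcon
    push Not at hcon
    have h3 := sum_nilp hi (Finset.range m) (fun r => i * Y r) fun r hr =>
      ⟨S.mul_mem hi.mem (hYS r), by rw [← mul_assoc, hi.idem], by rw [mul_assoc, hYi],
        hcon r hr⟩
    rw [← Finset.mul_sum, hYsum, mul_smul_comm, hi.idem] at h3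
    obtain ⟨t, ht⟩ := h3
    rw [smul_pow] at ht
    rcases smul_eq_zero.mp ht with h | h
    · exact pow_ne_zero _ hmk h
    · exact not_nilp hi ⟨t, h⟩
  rcases hi.dichotomy (x := i * Y r) (S.mul_mem hi.mem (hYS r)) (by rw [← mul_assoc, hi.idem])
    (by rw [mul_assoc, hYi]) with h | ⟨x, hx, hix, hxi, -, hxy⟩
  · exact absurd h hnr
  set y := Y r with hy
  have hxy' : x * y = i := by rw [← hxi, mul_assoc, hxy]
  -- the fixed idempotent
  have hζ0 : ζ ≠ 0 := hζ.ne_zero hm.ne'
  have hσy : σ y = (ζ ^ r)⁻¹ • (y * v) := by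
    have h3 : σ y = σ y * u * v := by
      rw [mul_assoc, huv, ← map_mul, hYi]
    have h4 : σ y * u = (ζ ^ r)⁻¹ • y := by
      rw [eq_inv_smul_iff₀ (pow_ne_zero r hζ0)]
      exact hYΦ r
    rw [h3, h4, smul_mul_assoc]
  let X : ℕ → A := fun n => (fun z => (ζ ^ r)⁻¹ • (v * σ z))^[n] x
  have hX0 : X 0 = x := rfl
  have hXs : ∀ n, X (n + 1) = (ζ ^ r)⁻¹ • (v * σ (X n)) := fun n =>
    Function.iterate_succ_apply' _ n x
  have hXS : ∀ n, X n ∈ S := by
    intro n
    induction n with
    | zero => exact hx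
    | succ n ih =>
      rw [hXs]
      exact S.smul_mem (S.mul_mem hvS (hσS _ ih)) _
  have hXi : ∀ n, i * X n = X n := by
    intro n
    cases n with
    | zero => exact hix
    | succ n => rw [hXs, mul_smul_comm, ← mul_assoc, hiv]
  have hXy : ∀ n, X n * y = i := by
    intro n
    induction n with
    | zero => exact hxy'
    | succ n ih =>
      rw [hXs]
      have h3 : y = ζ ^ r • (σ y * u) := (hYΦ r).symm
      conv_lhs => rw [h3]
      rw [mul_smul_comm, smul_mul_assoc, smul_smul, mul_inv_cancel₀ (pow_ne_zero r hζ0), one_smul]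
      calc v * σ (X n) * (σ y * u) = v * (σ (X n) * σ y) * u := by simp only [mul_assoc]
        _ = v * σ i * u := by rw [← map_mul, ih]
        _ = _ := by rw [hvi, hvu]
  have hσX : ∀ n, σ^[n] (y * x) = y * X n := by
    intro n
    induction n with
    | zero => rfl
    | succ n ih =>
      rw [Function.iterate_succ_apply', ih, map_mul, hσy, hXs, smul_mul_assoc, mul_smul_comm,
        mul_assoc]
  set x' : A := (m : k)⁻¹ • ∑ n ∈ Finset.range m, X n with hx'
  have hyx' : y * x' = (m : k)⁻¹ • ∑ n ∈ Finset.range m, σ^[n] (y * x) := by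
    rw [hx', mul_smul_comm, Finset.mul_sum]
    congr 1
    exact Finset.sum_congr rfl fun n _ => (hσX n).symm
  refine ⟨y, hYS r, x', S.smul_mem (S.sum_mem fun n _ => hXS n) _, ?_, hYi r, ?_, ?_, ?_, ?_⟩
  · rw [hx', smul_mul_assoc, Finset.sum_mul, Finset.sum_congr rfl fun n _ => hXy n,
      Finset.sum_const, Finset.card_range, ← Nat.cast_smul_eq_nsmul k, smul_smul,
      inv_mul_cancel₀ hmk, one_smul]
  · rw [hx', mul_smul_comm, Finset.mul_sum, Finset.sum_congr rfl fun n _ => hXi n]
  · rw [hyx', map_smul, map_sum]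
    congr 1
    have h3 : ∀ n ∈ Finset.range m, σ (σ^[n] (y * x)) = σ^[n + 1] (y * x) := fun n _ =>
      (Function.iterate_succ_apply' σ n _).symm
    rw [Finset.sum_congr rfl h3]
    have h4 := Finset.sum_range_succ (fun n => σ^[n] (y * x)) m
    rw [Finset.sum_range_succ'] at h4
    rw [hσm] at h4
    exact add_right_cancel h4
  · intro e he hei
    rw [hy]
    change e * ∑ s ∈ Finset.range m, ζ ^ (r * s) • Φ^[s] i = _
    rw [Finset.mul_sum]
    refine Finset.sum_congr rfl fun s _ => ?_
    have h3 : Φ^[s] i = σ^[s] i * Φ^[s] i := by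
      conv_lhs => rw [← hi.idem]
      exact iter_mul σ u s i i
    have h4 : σ^[s] e = e := by
      induction s with
      | zero => rfl
      | succ s ih => exact (Function.iterate_fixed he (s + 1))
    rw [mul_smul_comm]
    congr 1
    conv_lhs => rw [h3, ← mul_assoc]
    have h5 : e * σ^[s] i = σ^[s] i := by
      conv_rhs => rw [← hei, siter_mul, h4]
    rw [h5, ← h3]
  · intro e he hie
    have h3 : ∀ n, X n * e = X n := by
      intro n
      induction n with
      | zero =>
        change x * e = x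
        rw [← hxi, mul_assoc, hie]
      | succ n ih =>
        rw [hXs, smul_mul_assoc, mul_assoc]
        congr 2
        conv_lhs => rw [← he]
        rw [← map_mul, ih]
    rw [hx', smul_mul_assoc, Finset.sum_mul, Finset.sum_congr rfl fun n _ => h3 n]

/-- **Rotation.** -/
theorem rot {p : ℕ} [Fact p.Prime] [CharP k p] {S : Subalgebra k A} {σ : A →ₐ[k] A}
    (hσS : ∀ x ∈ S, σ x ∈ S) {m : ℕ} (hm : 0 < m) (hmp : ¬ p ∣ m) (hσm : ∀ x, σ^[m] x = x)
    {i : A} (hi : PrimIn S i) {u v : A} (hu : u ∈ S) (hv : v ∈ S) (h1 : σ i * u = u)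
    (h2 : u * i = u) (h3 : i * v = v) (h4 : v * u = i) :
    ∃ y ∈ S, ∃ x ∈ S, x * y = i ∧ y * i = y ∧ i * x = x ∧ σ (y * x) = y * x ∧
      (∀ e, σ e = e → e * i = i → e * y = y) ∧ (∀ e, σ e = e → i * e = i → x * e = x) := by
  classical
  have hp : p.Prime := Fact.out
  have hmk : (m : k) ≠ 0 := fun h => hmp ((CharP.cast_eq_zero_iff k p m).mp h)
  set Φ : A → A := fun x => σ x * u with hΦdef
  -- we may take `v = v σ i`
  set N := Φ^[m] i with hN
  have hNS : N ∈ S := iter_mem hσS hi.mem hu m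
  have hNi : N * i = N := iter_right σ hi.idem h2 m
  have hiN : i * N = N := by
    have h5 : Φ^[m] (i * i) = σ^[m] i * Φ^[m] i := iter_mul σ u m i i
    rw [hi.idem, hσm] at h5
    exact h5.symm
  have hNn : ¬ IsNilpotent N := by
    -- `V n * U n = i`
    have h5 : ∀ n, ∃ V : A, V * Φ^[n] i = i := by
      intro n
      induction n with
      | zero => exact ⟨i, hi.idem⟩
      | succ n ih =>
        obtain ⟨V, hV⟩ := ih
        refine ⟨v * σ V, ?_⟩
        rw [Function.iterate_succ_apply']
        change v * σ V * (σ (Φ^[n] i) * u) = i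
        calc v * σ V * (σ (Φ^[n] i) * u) = v * (σ V * σ (Φ^[n] i)) * u := by
              simp only [mul_assoc]
          _ = v * (σ i * u) := by rw [← map_mul, hV, mul_assoc]
          _ = i := by rw [h1, h4]
    obtain ⟨V, hV⟩ := h5 m
    have h6 : ∀ t : ℕ, (i * V * i) ^ t * N ^ t * i = i := by
      intro t
      induction t with
      | zero => rw [pow_zero, pow_zero, one_mul, one_mul]
      | succ t ih =>
        have h7 : (i * V * i) * N = i := by
          calc (i * V * i) * N = i * (V * (i * N)) := by simp only [mul_assoc]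
            _ = i := by rw [hiN, hV, hi.idem]
        calc (i * V * i) ^ (t + 1) * N ^ (t + 1) * i
            = (i * V * i) ^ t * ((i * V * i) * N) * N ^ t * i := by
              rw [pow_succ, pow_succ']; simp only [mul_assoc]
          _ = (i * V * i) ^ t * (i * N ^ t) * i := by rw [h7]; simp only [mul_assoc]
          _ = (i * V * i) ^ t * N ^ t * i := by
              have h8 : i * N ^ t * i = N ^ t * i := by
                cases t with
                | zero => rw [pow_zero, mul_one, one_mul, hi.idem]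
                | succ t => rw [pow_succ', ← mul_assoc, hiN]
              calc (i * V * i) ^ t * (i * N ^ t) * i = (i * V * i) ^ t * (i * N ^ t * i) := by
                    simp only [mul_assoc]
                _ = _ := by rw [h8, ← mul_assoc]
          _ = i := ih
    rintro ⟨t, ht⟩
    have h7 := h6 t
    rw [ht, mul_zero, zero_mul] at h7
    exact hi.ne_zero h7.symm
  obtain ⟨c, hc⟩ := hi.exists_scalar hNS hiN hNi
  have hc0 : c ≠ 0 := by
    rintro rfl
    rw [zero_smul, sub_zero] at hc
    exact hNn hc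
  obtain ⟨s, hs⟩ := hc
  -- the exponent
  set l := Nat.totient m * (s + 1) with hl
  set M := p ^ l with hMdef
  have hM0 : 0 < M := pow_pos hp.pos l
  have hcop : Nat.Coprime p m := (Nat.Prime.coprime_iff_not_dvd hp).mpr hmp
  have hMm : M ≡ 1 [MOD m] := by
    have h5 := Nat.ModEq.pow_totient hcop
    have h6 := h5.pow (s + 1)
    rwa [one_pow, ← pow_mul] at h6
  obtain ⟨t, ht⟩ : ∃ t, M = m * t + 1 := by
    obtain ⟨t, ht⟩ := (Nat.modEq_iff_dvd' hM0).mp hMm.symm
    exact ⟨t, by omega⟩
  have hsM : s ≤ M := by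
    have h5 : 1 ≤ Nat.totient m := Nat.totient_pos.mpr hm
    have h6 : s + 1 ≤ l := Nat.le_mul_of_pos_left _ h5
    have h7 : l < p ^ l := Nat.lt_pow_self hp.one_lt
    omega
  have _ : CharP A p := charP_of_injective_algebraMap
    (show Function.Injective (algebraMap k A) from by
      have : Nontrivial A := ⟨i, 0, hi.ne_zero⟩
      exact (algebraMap k A).injective) p
  have hNM : N ^ M = c ^ M • i := by
    have h5 : N = (N - c • i) + c • i := by abel
    have h6 : Commute (N - c • i) (c • i) := by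
      refine Commute.smul_right ?_ c
      refine Commute.sub_left ?_ (Commute.smul_left (Commute.refl _) c)
      change N * i = i * N
      rw [hNi, hiN]
    have h7 : (N - c • i) ^ M = 0 := pow_eq_zero_of_le hsM hs
    conv_lhs => rw [h5]
    rw [hMdef, add_pow_char_pow_of_commute p l h6, ← hMdef, h7, zero_add, smul_pow]
    congr 1
    obtain ⟨M', hM'⟩ : ∃ M', M = M' + 1 := ⟨M - 1, by omega⟩
    rw [hM']
    exact (show IsIdempotentElem i from hi.idem).pow_succ_eq M'
  -- the normalising scalar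
  obtain ⟨γ, hγ⟩ : ∃ γ : k, γ ^ m = (c ^ M)⁻¹ := IsAlgClosed.exists_pow_nat_eq _ hm
  have hΦm : ∀ x, Φ^[m] (x * i) = x * N := by
    intro x
    have h5 : Φ^[m] (x * i) = σ^[m] x * Φ^[m] i := iter_mul σ u m x i
    rw [h5, hσm]
  have hΦmt : ∀ j x, Φ^[m * j] (x * i) = x * N ^ j * i := by
    intro j
    induction j with
    | zero => intro x; rw [Nat.mul_zero, pow_zero, mul_one]; rfl
    | succ j ih =>
      intro x
      rw [Nat.mul_succ, Function.iterate_add_apply, hΦm]
      have h5 : x * N = (x * N) * i := by rw [mul_assoc, hNi]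
      rw [h5, ih, pow_succ']
      simp only [mul_assoc]
  have hσM : ∀ x, σ^[M] x = σ x := by
    intro x
    have h5 : ∀ t, σ^[m * t] x = x := by
      intro t
      induction t with
      | zero => rfl
      | succ t ih => rw [Nat.mul_succ, Function.iterate_add_apply, hσm, ih]
    rw [ht, Function.iterate_succ_apply', h5]
  set w := Φ^[M] i with hw
  have hwS : w ∈ S := iter_mem hσS hi.mem hu M
  have hwi : w * i = w := iter_right σ hi.idem h2 M
  have hiw : σ i * w = w := by
    have h5 : Φ^[M] (i * i) = σ^[M] i * Φ^[M] i := iter_mul σ u M i i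
    rw [hi.idem, hσM] at h5
    exact h5.symm
  have hΦM : ∀ x, Φ^[M] (x * i) = σ x * w := by
    intro x
    have h5 : Φ^[M] (x * i) = σ^[M] x * Φ^[M] i := iter_mul σ u M x i
    rw [h5, hσM]
  have hit : ∀ n, (fun x => σ x * (γ • w))^[n] i = γ ^ n • Φ^[M * n] i := by
    intro n
    induction n with
    | zero => simp
    | succ n ih =>
      rw [Function.iterate_succ_apply', ih]
      have h5 : Φ^[M * n] i = Φ^[M * n] i * i := (iter_right σ hi.idem h2 (M * n)).symm
      have h6 : Φ^[M * (n + 1)] i = Φ^[M] (Φ^[M * n] i) := by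
        rw [Nat.mul_succ, Nat.add_comm, Function.iterate_add_apply]
      have h7 : Φ^[M] (Φ^[M * n] i) = σ (Φ^[M * n] i) * w := by
        conv_lhs => rw [h5]
        exact hΦM _
      rw [h6, h7, map_smul, smul_mul_assoc, mul_smul_comm, smul_smul, pow_succ]
  refine rot1 hσS hm hmk hσm hi (u := γ • w) (S.smul_mem hwS γ) (by rw [mul_smul_comm, hiw])
    (by rw [smul_mul_assoc, hwi]) ?_
  rw [hit, mul_comm M m]
  have h5 := hΦmt M 1
  rw [one_mul, one_mul, hNM, smul_mul_assoc, hi.idem] at h5
  rw [h5, smul_smul, hγ, inv_mul_cancel₀ (pow_ne_zero _ hc0), one_smul]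

end Rot

end Vale.Agent.P180.R2.H259.Exp
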