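import Vale.Agent.P180.R2.H259.Exp.Rot
import Vale.Agent.P180.R2.H799.Chain

set_option linter.all false

/-!
P180: the twists of a group algebra with linear characters.
-/

namespace Vale.Agent.P180.R2.H259.Exp

open Vale.Agent.P180 Vale.Agent.P180.H768.Gd Vale.Agent.P180.R2.H799
open Vale.Agent.P180.R2.H259.Cyc (PrimIn)

section Tw

variable {k : Type*} [Field k] {G : Type*} [Group G]

/-- the twist -/
noncomputable def tw (χ : G →* kˣ) : MonoidAlgebra k G →ₐ[k] MonoidAlgebra k G :=
  MonoidAlgebra.lift k (MonoidAlgebra k G) G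
    { toFun := fun g => MonoidAlgebra.single g (χ g : k)
      map_one' := by rw [map_one, Units.val_one]; rfl
      map_mul' := fun g h => by
        rw [MonoidAlgebra.single_mul_single, map_mul, Units.val_mul] }

theorem tw_single (χ : G →* kˣ) (g : G) (c : k) :
    tw χ (MonoidAlgebra.single g c) = MonoidAlgebra.single g (c * χ g) := by
  have h1 : tw χ (MonoidAlgebra.single g c) = c • MonoidAlgebra.single g (χ g : k) := by
    unfold tw
    rw [MonoidAlgebra.lift_single]
    rfl
  rw [h1, MonoidAlgebra.smul_single, smul_eq_mul]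

theorem tw_coeff (χ : G →* kˣ) (x : MonoidAlgebra k G) (g : G) :
    (tw χ x).coeff g = x.coeff g * χ g := by
  classical
  induction x using MonoidAlgebra.induction_linear with
  | zero => simp
  | add x y hx hy =>
    rw [map_add, MonoidAlgebra.coeff_add, Finsupp.add_apply, hx, hy, MonoidAlgebra.coeff_add,
      Finsupp.add_apply, add_mul]
  | single h c =>
    rw [tw_single, MonoidAlgebra.coeff_single, MonoidAlgebra.coeff_single, Finsupp.single_apply,
      Finsupp.single_apply]
    split_ifs with h1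
    · rw [h1]
    · rw [zero_mul]

theorem ext_coeff {x y : MonoidAlgebra k G} (h : ∀ g, x.coeff g = y.coeff g) : x = y :=
  MonoidAlgebra.coeff_injective (Finsupp.ext h)

theorem tw_iter (χ : G →* kˣ) (n : ℕ) (x : MonoidAlgebra k G) :
    (tw χ)^[n] x = tw (χ ^ n) x := by
  induction n with
  | zero =>
    apply ext_coeff
    intro g
    rw [tw_coeff]
    have h1 : (χ ^ 0) g = 1 := pow_zero (χ g)
    rw [h1, Units.val_one, mul_one]
    rfl
  | succ n ih =>
    rw [Function.iterate_succ_apply', ih]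
    apply ext_coeff
    intro g
    rw [tw_coeff, tw_coeff, tw_coeff]
    have h1 : (χ ^ (n + 1)) g = (χ ^ n) g * χ g := pow_succ (χ g) n
    rw [h1, Units.val_mul, mul_assoc]

theorem tw_mul_tw (χ ψ : G →* kˣ) (x : MonoidAlgebra k G) : tw χ (tw ψ x) = tw (χ * ψ) x := by
  apply ext_coeff
  intro g
  rw [tw_coeff, tw_coeff, tw_coeff, MonoidHom.mul_apply, Units.val_mul, mul_assoc,
    mul_comm ((ψ g : kˣ) : k)]

theorem tw_mem (χ : G →* kˣ) {T : Subgroup G} {x : MonoidAlgebra k G} (hx : x ∈ SubAlg k T) :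
    tw χ x ∈ SubAlg k T := by
  intro g hg
  rw [tw_coeff] at hg
  exact hx g (left_ne_zero_of_mul hg)

theorem tw_cj (χ : G →* kˣ) (g : G) (x : MonoidAlgebra k G) :
    tw χ (cj k G g x) = cj k G g (tw χ x) := by
  apply ext_coeff
  intro h
  rw [tw_coeff, cj_coeff, cj_coeff, tw_coeff]
  congr 2
  have : χ (g⁻¹ * h * g) = χ h := by
    rw [map_mul, map_mul, mul_right_comm, ← map_mul, inv_mul_cancel, map_one, one_mul]
  rw [this]

theorem tw_fix (χ : G →* kˣ) {Q : Subgroup G} {x : MonoidAlgebra k G}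
    (hx : x ∈ Fix (cj k G) Q) : tw χ x ∈ Fix (cj k G) Q := by
  intro g hg
  rw [← tw_cj, hx g hg]

theorem tw_br [Finite G] (χ : G →* kˣ) (Q : Subgroup G) (x : MonoidAlgebra k G) :
    tw χ (br Q x) = br Q (tw χ x) := by
  classical
  apply ext_coeff
  intro h
  rw [tw_coeff, br_coeff, br_coeff, tw_coeff]
  split_ifs
  · rfl
  · rw [zero_mul]

theorem tw_injective (χ : G →* kˣ) : Function.Injective (tw χ) := by
  intro x y hxy
  apply ext_coeff
  intro g
  have h1 := congrArg (fun z : MonoidAlgebra k G => z.coeff g) hxy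
  simp only [tw_coeff] at h1
  exact mul_right_cancel₀ (Units.ne_zero _) h1

theorem mem_ker_of_tw {χ : G →* kˣ} {x : MonoidAlgebra k G} (hx : tw χ x = x) :
    x ∈ SubAlg k χ.ker := by
  intro g hg
  have h1 := congrArg (fun z : MonoidAlgebra k G => z.coeff g) hx
  simp only [tw_coeff] at h1
  change g ∈ χ.ker
  rw [MonoidHom.mem_ker]
  apply Units.ext
  have h2 : x.coeff g * (χ g : k) = x.coeff g * 1 := by rw [h1, mul_one]
  exact mul_left_cancel₀ hg h2

theorem tw_of_mem {χ : G →* kˣ} {T : Subgroup G} (hT : T ≤ χ.ker) {x : MonoidAlgebra k G}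
    (hx : x ∈ SubAlg k T) : tw χ x = x := by
  apply ext_coeff
  intro g
  rw [tw_coeff]
  by_cases h : x.coeff g = 0
  · rw [h, zero_mul]
  · rw [MonoidHom.mem_ker.mp (hT (hx g h)), Units.val_one, mul_one]

end Tw

section Le

variable {k A : Type*} [Field k] [Ring A] [Algebra k A]

/-- `i` is equivalent to an idempotent below `j`. -/
def Le (S : Subalgebra k A) (i j : A) : Prop :=
  ∃ x ∈ S, ∃ y ∈ S, x * y = i ∧ i * x = x ∧ x * j = x ∧ j * y = y ∧ y * i = y

theorem Le.refl {S : Subalgebra k A} {i : A} (hi : i ∈ S) (hii : i * i = i) : Le S i i :=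
  ⟨i, hi, i, hi, hii, hii, hii, hii, hii⟩

theorem Le.trans {S : Subalgebra k A} {i j l : A} (h1 : Le S i j) (h2 : Le S j l) : Le S i l := by
  obtain ⟨x, hx, y, hy, e1, e2, e3, e4, e5⟩ := h1
  obtain ⟨z, hz, w, hw, f1, f2, f3, f4, f5⟩ := h2
  refine ⟨x * z, S.mul_mem hx hz, w * y, S.mul_mem hw hy, ?_, ?_, ?_, ?_, ?_⟩
  · calc x * z * (w * y) = x * (z * w) * y := by simp only [mul_assoc]
      _ = i := by rw [f1, e3, e1]
  · rw [← mul_assoc, e2]
  · rw [mul_assoc, f3]
  · rw [← mul_assoc, f4]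
  · rw [mul_assoc, e5]

theorem Le.mono {S S' : Subalgebra k A} (hS : S ≤ S') {i j : A} (h : Le S i j) : Le S' i j := by
  obtain ⟨x, hx, y, hy, e⟩ := h
  exact ⟨x, hS hx, y, hS hy, e⟩

theorem Le.map {S : Subalgebra k A} {σ : A →ₐ[k] A} (hσ : ∀ x ∈ S, σ x ∈ S) {i j : A}
    (h : Le S i j) : Le S (σ i) (σ j) := by
  obtain ⟨x, hx, y, hy, e1, e2, e3, e4, e5⟩ := h
  exact ⟨σ x, hσ x hx, σ y, hσ y hy, by rw [← map_mul, e1], by rw [← map_mul, e2],
    by rw [← map_mul, e3], by rw [← map_mul, e4], by rw [← map_mul, e5]⟩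

/-- The relation is symmetric for primitive idempotents. -/
theorem Le.symm {S : Subalgebra k A} {i j : A} (h : Le S i j) (hi0 : i ≠ 0) (hj : PrimIn S j)
    (hii : i * i = i) : Le S j i := by
  obtain ⟨x, hx, y, hy, e1, e2, e3, e4, e5⟩ := h
  have h1 : y * x ≠ 0 := by
    intro h0
    apply hi0
    calc i = (x * y) * (x * y) := by rw [e1, hii]
      _ = x * (y * x) * y := by simp only [mul_assoc]
      _ = 0 := by rw [h0]; simp
  have h2 : y * x = j := by
    rcases hj.prim (y * x) (S.mul_mem hy hx)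
      (by
        calc y * x * (y * x) = y * (x * y) * x := by simp only [mul_assoc]
          _ = _ := by rw [e1, e5])
      (by rw [mul_assoc, e3]) (by rw [← mul_assoc, e4]) with h | h
    · exact absurd h h1
    · exact h
  exact ⟨y, hy, x, hx, h2, e4, e5, e2, e3⟩

/-- A primitive idempotent below the sum is below one of the summands. -/
theorem le_of_not_nilp [FiniteDimensional k A] {S : Subalgebra k A} {i j a b : A}
    (hi : PrimIn S i) (hj : j * j = j) (hjS : j ∈ S) (ha : a ∈ S) (hb : b ∈ S)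
    (h : ¬ IsNilpotent (i * a * j * b * i)) : Le S i j := by
  rcases hi.dichotomy (x := i * a * j * b * i)
    (S.mul_mem (S.mul_mem (S.mul_mem (S.mul_mem hi.mem ha) hjS) hb) hi.mem)
    (by simp only [← mul_assoc, hi.idem]) (by rw [mul_assoc, hi.idem]) with h' | ⟨y, hy, h1, h2, h3, -⟩
  · exact absurd h' h
  · refine ⟨i * a * j, S.mul_mem (S.mul_mem hi.mem ha) hjS, j * b * i * y,
      S.mul_mem (S.mul_mem (S.mul_mem hjS hb) hi.mem) hy, ?_, ?_, ?_, ?_, ?_⟩
    · calc i * a * j * (j * b * i * y) = i * a * (j * j) * b * i * y := by simp only [mul_assoc]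
        _ = i := by rw [hj, h3]
    · simp only [← mul_assoc, hi.idem]
    · rw [mul_assoc, hj]
    · simp only [← mul_assoc, hj]
    · rw [mul_assoc, h2]

theorem Le.finrank_right [FiniteDimensional k A] {S B : Subalgebra k A} (hSB : S ≤ B) {i j : A}
    (h : Le S i j) (z : A) : Module.finrank k (NN B z i) ≤ Module.finrank k (NN B z j) := by
  obtain ⟨x, hx, y, hy, e1, e2, e3, e4, e5⟩ := h
  let φ : NN B z i →ₗ[k] NN B z j :=
    { toFun := fun a => ⟨a.1 * x, B.mul_mem a.2.1 (hSB hx), by rw [← mul_assoc, a.2.2.1],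
        by rw [mul_assoc, e3]⟩
      map_add' := fun a b => Subtype.ext (add_mul _ _ _)
      map_smul' := fun c a => Subtype.ext (smul_mul_assoc _ _ _) }
  refine LinearMap.finrank_le_finrank_of_injective (f := φ) ?_
  intro a b hab
  have h1 : a.1 * x = b.1 * x := congrArg Subtype.val hab
  have h2 : ∀ c : NN B z i, c.1 = c.1 * x * y := fun c => by
    rw [mul_assoc, e1]; exact c.2.2.2.symm
  exact Subtype.ext ((h2 a).trans ((congrArg (· * y) h1).trans (h2 b).symm))

theorem Le.finrank_left [FiniteDimensional k A] {S B : Subalgebra k A} (hSB : S ≤ B) {i j : A}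
    (h : Le S i j) (z : A) : Module.finrank k (NN B i z) ≤ Module.finrank k (NN B j z) := by
  obtain ⟨x, hx, y, hy, e1, e2, e3, e4, e5⟩ := h
  let φ : NN B i z →ₗ[k] NN B j z :=
    { toFun := fun a => ⟨y * a.1, B.mul_mem (hSB hy) a.2.1, by rw [← mul_assoc, e4],
        by rw [mul_assoc, a.2.2.2]⟩
      map_add' := fun a b => Subtype.ext (mul_add _ _ _)
      map_smul' := fun c a => Subtype.ext (mul_smul_comm _ _ _) }
  refine LinearMap.finrank_le_finrank_of_injective (f := φ) ?_
  intro a b hab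
  have h1 : y * a.1 = y * b.1 := congrArg Subtype.val hab
  have h2 : ∀ c : NN B i z, c.1 = x * (y * c.1) := fun c => by
    rw [← mul_assoc, e1]; exact c.2.2.1.symm
  exact Subtype.ext ((h2 a).trans ((congrArg (x * ·) h1).trans (h2 b).symm))

end Le

end Vale.Agent.P180.R2.H259.Exp
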